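import Vale.Agent.P112.Defs

/-! Angular derivative about a centre. -/

namespace Vale.Agent.P112

/-- Rotation of a vector of the plane by a right angle. -/
noncomputable def rot90 (y : E2) : E2 := WithLp.toLp 2 ![-y 1, y 0]

/-- The angular derivative of `f` about the centre `c`. -/
noncomputable def Ang (c : E2) (f : E2 → ℂ) (y : E2) : ℂ := fderiv ℝ f y (rot90 (y - c))

end Vale.Agent.P112
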