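import Vale.Agent.P112.RDefs
import Vale.Agent.P112.ADefs0

/-! Statements used for the angular estimate. -/

namespace Vale.Agent.P112

open MeasureTheory Set
open scoped ENNReal

/-- rotation by the angle `ψ` -/
noncomputable def rot (ψ : ℝ) (y : E2) : E2 := Real.cos ψ • y + Real.sin ψ • rot90 y

/-- the cutoff length -/
noncomputable def bb (δ : ℝ) (x : E2) : ℝ := δ * ‖x‖ / (1 + ‖x‖)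

noncomputable def MM (δ : ℝ) (v : E2 → E2) (f : E2 → ℂ) (x : E2) : ℝ≥0∞ :=
  ∫⁻ t in Ioo (bb δ x) (min (‖x‖ / 4) (1 / 2)), ‖f (x - t • v x)‖ₑ * ENNReal.ofReal t⁻¹

def M_weak : Prop :=
  ∃ C : ℝ≥0∞, C ≠ ∞ ∧ ∀ (δ : ℝ) (v : E2 → E2) (f : E2 → ℂ) (s : ℝ≥0∞), 0 < δ → δ ≤ 1 / 8 →
    UnitLip v → Differentiable ℝ v → Continuous f →
    s ^ 2 * volume {x | s ≤ MM δ v f x} ≤
      C * (ENNReal.ofReal (Real.log δ⁻¹ ^ 2) * ∫⁻ x, ‖f x‖ₑ ^ 2)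

noncomputable def FF (v : E2 → E2) (f : E2 → ℂ) (x : E2) : ℝ≥0∞ :=
  ∫⁻ t in Ioo (5 * ‖x‖ / 2) (1 / 2), ‖f (x - t • v x)‖ₑ * ENNReal.ofReal t⁻¹

def F_weak : Prop :=
  ∃ C : ℝ≥0∞, C ≠ ∞ ∧ ∀ (v : E2 → E2) (f : E2 → ℂ) (s : ℝ≥0∞),
    UnitLip v → Differentiable ℝ v → Continuous f →
    s ^ 2 * volume {x | s ≤ FF v f x} ≤ C * ∫⁻ x, ‖f x‖ₑ ^ 2

def E_pt : Prop :=
  ∀ (f : E2 → ℂ) (x y : E2) (t : ℝ), ContDiff ℝ 1 f → x ≠ 0 → ‖y - x‖ ≤ t → t ≤ ‖x‖ / 8 →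
    ‖f y - f (‖y‖ • ‖x‖⁻¹ • x)‖ₑ ≤
      ∫⁻ ψ in Ioo (-(3 * t / ‖x‖)) (3 * t / ‖x‖), ‖Ang 0 f (rot ψ y)‖ₑ

noncomputable def EE (δ : ℝ) (v : E2 → E2) (h : E2 → ℝ≥0∞) (x : E2) : ℝ≥0∞ :=
  ∫⁻ t in Ioo 0 (bb δ x),
    (∫⁻ ψ in Ioo (-(3 * t / ‖x‖)) (3 * t / ‖x‖), h (rot ψ (x - t • v x))) * ENNReal.ofReal t⁻¹

def E_weak : Prop :=
  ∃ C : ℝ≥0∞, C ≠ ∞ ∧ ∀ (δ : ℝ) (v : E2 → E2) (h : E2 → ℝ≥0∞) (s : ℝ≥0∞), 0 < δ → δ ≤ 1 / 8 →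
    UnitLip v → Differentiable ℝ v → Measurable h →
    s ^ 2 * volume {x | s ≤ EE δ v h x} ≤
      C * (ENNReal.ofReal (δ ^ 2) * ∫⁻ y, (h y * ENNReal.ofReal (1 + ‖y‖)⁻¹) ^ 2)

def P_cmp : Prop :=
  ∀ (g1 g2 : E2 → ℝ≥0∞) (K : ℝ≥0∞), Measurable g1 → Measurable g2 →
    (∀ u : E2, ‖u‖ = 1 → ∫⁻ ρ in Ioi (0 : ℝ), g1 (Real.sqrt ρ • u) ≤
      K * ∫⁻ ρ in Ioi (0 : ℝ), g2 (Real.sqrt ρ • u)) → ∫⁻ x, g1 x ≤ K * ∫⁻ x, g2 x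

def R_int : Prop :=
  ∀ (f : SchwartzMap E2 ℂ) (u : E2), ‖u‖ = 1 →
    Integrable (fun ρ : ℝ => f (Real.sqrt |ρ| • u)) volume ∧
    ∫⁻ ρ : ℝ, ‖f (Real.sqrt |ρ| • u)‖ₑ ^ 2 ≤ 2 * ∫⁻ ρ in Ioi (0 : ℝ), ‖f (Real.sqrt ρ • u)‖ₑ ^ 2

def G_meas : Prop :=
  ∀ (f : E2 → ℂ) (v : E2 → E2) (a : ℝ), Continuous f → Continuous v →
    Measurable fun x : E2 => ∫ t in (0 : ℝ)..a, kk f x (v x) t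

end Vale.Agent.P112
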