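import Vale.Agent.P112.RD3
import Vale.Agent.P112.ADefs

namespace Vale.Agent.P112

open MeasureTheory Set Filter Topology
open scoped ENNReal

theorem ad_iA {F : ℝ → ℂ} (hF : Continuous F) (ρ s : ℝ) {p q : ℝ} (hp : 0 < p) (hq : p ≤ q) :
    IntervalIntegrable (fun t : ℝ => F (ρ - (2 * t * s - t ^ 2)) / (t : ℂ)) volume p q :=
  rd_cont (g := fun t => F (ρ - (2 * t * s - t ^ 2))) (d := fun t => t) (by fun_prop)
    continuous_id hq fun t ht => by have := ht.1; linarith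

theorem ad_iB {F : ℝ → ℂ} (hF : Continuous F) (ρ s : ℝ) {p q : ℝ} (hp : 0 < p) (hq : p ≤ q) :
    IntervalIntegrable (fun t : ℝ => F (ρ + (2 * t * s + t ^ 2)) / (t : ℂ)) volume p q :=
  rd_cont (g := fun t => F (ρ + (2 * t * s + t ^ 2))) (d := fun t => t) (by fun_prop)
    continuous_id hq fun t ht => by have := ht.1; linarith

theorem ad_ik {F : ℝ → ℂ} (hF : Continuous F) (ρ s : ℝ) {p q : ℝ} (hp : 0 < p) (hq : p ≤ q) :
    IntervalIntegrable (k1 F ρ s) volume p q :=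
  rd_cont (g := fun t => F (ρ - (2 * t * s - t ^ 2)) - F (ρ + (2 * t * s + t ^ 2)))
    (d := fun t => t) (by fun_prop) continuous_id hq fun t ht => by have := ht.1; linarith

theorem ad_split {F : ℝ → ℂ} (hF : Continuous F) (ρ s : ℝ) {p q : ℝ} (hp : 0 < p) (hq : p ≤ q) :
    ∫ t in p..q, k1 F ρ s t = (∫ t in p..q, F (ρ - (2 * t * s - t ^ 2)) / (t : ℂ)) -
        ∫ t in p..q, F (ρ + (2 * t * s + t ^ 2)) / (t : ℂ) := by
  rw [← intervalIntegral.integral_sub (ad_iA hF ρ s hp hq) (ad_iB hF ρ s hp hq)]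
  congr 1; funext t; unfold k1; ring

theorem ad_part2 {F : ℝ → ℂ} (hF : Continuous F) (ρ : ℝ) {s b : ℝ} (hs : 0 < s)
    (hb : 5 * s / 2 ≤ b) :
    ∫ t in (s / 2)..b, k1 F ρ s t =
      (∫ t in (s / 2)..(5 * s / 2), F (ρ - (2 * t * s - t ^ 2)) / (t : ℂ)) +
      (∫ t in (s / 2)..(b - 2 * s), (F (ρ + (2 * t * s + t ^ 2)) / ((t + 2 * s : ℝ) : ℂ) -
        F (ρ + (2 * t * s + t ^ 2)) / (t : ℂ))) -
      ∫ t in (b - 2 * s)..b, F (ρ + (2 * t * s + t ^ 2)) / (t : ℂ) := by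
  have iC := rd_cont (g := fun t => F (ρ + (2 * t * s + t ^ 2))) (d := fun t => t + 2 * s)
    (by fun_prop) (by fun_prop) (a := s / 2) (b := b - 2 * s) (by linarith)
    fun t ht => by have := ht.1; linarith
  have e1 := intervalIntegral.integral_add_adjacent_intervals
    (ad_iA hF ρ s (p := s / 2) (q := 5 * s / 2) (by linarith) (by linarith))
    (ad_iA hF ρ s (p := 5 * s / 2) (q := b) (by linarith) hb)
  have e2 := intervalIntegral.integral_add_adjacent_intervals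
    (ad_iB hF ρ s (p := s / 2) (q := b - 2 * s) (by linarith) (by linarith))
    (ad_iB hF ρ s (p := b - 2 * s) (q := b) (by linarith) (by linarith))
  have e3 := intervalIntegral.integral_comp_add_right (a := s / 2) (b := b - 2 * s)
    (fun t : ℝ => F (ρ - (2 * t * s - t ^ 2)) / (t : ℂ)) (2 * s)
  have f1 : s / 2 + 2 * s = 5 * s / 2 := by ring
  have f2 : b - 2 * s + 2 * s = b := by ring
  have f3 : ∀ t : ℝ, ρ - (2 * (t + 2 * s) * s - (t + 2 * s) ^ 2) = ρ + (2 * t * s + t ^ 2) :=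
    fun t => by ring
  simp only [f1, f2, f3] at e3
  rw [ad_split hF ρ s (by linarith) (by linarith),
    intervalIntegral.integral_sub iC (ad_iB hF ρ s (by linarith) (by linarith)), e3]
  linear_combination e2 - e1

theorem ad_B {F : ℝ → ℂ} {ρ m s p q c R : ℝ} (hm : 0 ≤ m)
    (hG : Good (fun y => ‖F y‖ₑ) ρ (ENNReal.ofReal m)) (hs : 0 < s) (hp : 0 < p) (hpq : p ≤ q)
    (hc : 1 ≤ 2 * (s + p) * c * p) (hR : 2 * q * s + q ^ 2 ≤ R) :
    ‖∫ t in p..q, F (ρ + (2 * t * s + t ^ 2)) / (t : ℂ)‖ ≤ c * (m * R) := by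
  have hc0 : 0 < c := by
    by_contra h
    push Not at h
    have : 2 * (s + p) * c * p ≤ 0 :=
      mul_nonpos_of_nonpos_of_nonneg (mul_nonpos_of_nonneg_of_nonpos (by linarith) h) hp.le
    linarith
  have hq : 0 < q := hp.trans_le hpq
  refine rd_avg hm hG (φ := fun t => ρ + (2 * t * s + t ^ 2)) (φ' := fun t => 2 * (s + t)) hpq
    hc0.le (lt_of_lt_of_le (by positivity) hR) (fun t _ => ?_) (fun x hx y hy h => ?_)
    (fun t ht => ?_) fun t ht => ?_
  · have := ((((hasDerivAt_id t).const_mul 2).mul_const s).add (hasDerivAt_pow 2 t)).const_add ρ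
    refine this.congr_deriv ?_
    simp; ring
  · have h1 : (x - y) * (2 * s + x + y) = 0 := by linarith
    rcases mul_eq_zero.1 h1 with h2 | h2
    · linarith
    · linarith [hx.1, hy.1]
  · have ht0 : 0 < t := hp.trans ht.1
    rw [add_sub_cancel_left, abs_of_pos (by positivity)]
    nlinarith [ht.2]
  · have ht0 : 0 < t := hp.trans ht.1
    rw [norm_div, Complex.norm_real, Real.norm_of_nonneg ht0.le, abs_of_pos (by positivity),
      div_le_iff₀ ht0]
    have key : 1 ≤ 2 * (s + t) * c * t := hc.trans (by have := ht.1.le; gcongr)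
    have := mul_le_mul_of_nonneg_right key (norm_nonneg (F (ρ + (2 * t * s + t ^ 2))))
    linarith

theorem ad_near (hk1 : A_k1) (hk2 : A_k2) {F : ℝ → ℂ} (hF : Continuous F)
    (hi : Integrable F volume) {ρ m s η b : ℝ} (hm : 0 ≤ m)
    (hH : ∀ R, 0 < R → ‖HR F ρ R‖ ≤ m) (hG : Good (fun y => ‖F y‖ₑ) ρ (ENNReal.ofReal m))
    (hD : s < 2 * b → Good (fun y => ‖F y‖ₑ) (ρ - s ^ 2) (ENNReal.ofReal m))
    (hη : 0 < η) (hb : η ≤ b) (hs : η ≤ s / 2) : ‖∫ t in η..b, k1 F ρ s t‖ ≤ 44 * m := by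
  have hs0 : 0 < s := by linarith
  have hb0 : 0 < b := by linarith
  by_cases h1 : b ≤ s / 2
  · linarith [rd_part1 hF hi hm hG hH hη hb h1]
  push Not at h1
  have hD' := hD (by linarith)
  rw [← intervalIntegral.integral_add_adjacent_intervals (ad_ik hF ρ s hη hs)
    (ad_ik hF ρ s (p := s / 2) (by linarith) h1.le)]
  have p1 := rd_part1 hF hi hm hG hH hη hs le_rfl
  refine (norm_add_le _ _).trans ?_
  by_cases h2 : 5 * s / 2 ≤ b
  · have p2 := rd_crit hk2 hF hm hD' hs0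
    have p3 := rd_mid hk1 hF hm hG hs0 (c := b - 2 * s) (by linarith)
    have p4 := ad_B hm hG hs0 (p := b - 2 * s) (q := b) (c := 25 / (2 * b ^ 2)) (R := 2 * b ^ 2)
      (by linarith) (by linarith) (by
        have e : 2 * (s + (b - 2 * s)) * (25 / (2 * b ^ 2)) * (b - 2 * s) =
            25 * ((b - s) * (b - 2 * s)) / b ^ 2 := by field_simp; ring
        rw [e, le_div_iff₀ (by positivity)]
        nlinarith) (by nlinarith)
    have e : 25 / (2 * b ^ 2) * (m * (2 * b ^ 2)) = 25 * m := by field_simp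
    rw [e] at p4
    rw [ad_part2 hF ρ hs0 h2]
    have q1 := norm_sub_le ((∫ t in (s / 2)..(5 * s / 2), F (ρ - (2 * t * s - t ^ 2)) / (t : ℂ)) +
      (∫ t in (s / 2)..(b - 2 * s), (F (ρ + (2 * t * s + t ^ 2)) / ((t + 2 * s : ℝ) : ℂ) -
        F (ρ + (2 * t * s + t ^ 2)) / (t : ℂ))))
      (∫ t in (b - 2 * s)..b, F (ρ + (2 * t * s + t ^ 2)) / (t : ℂ))
    have q2 := norm_add_le (∫ t in (s / 2)..(5 * s / 2), F (ρ - (2 * t * s - t ^ 2)) / (t : ℂ))
      (∫ t in (s / 2)..(b - 2 * s), (F (ρ + (2 * t * s + t ^ 2)) / ((t + 2 * s : ℝ) : ℂ) -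
        F (ρ + (2 * t * s + t ^ 2)) / (t : ℂ)))
    linarith
  · push Not at h2
    have p4 := ad_B hm hG hs0 (p := s / 2) (q := b) (c := (s ^ 2)⁻¹) (R := 12 * s ^ 2)
      (by linarith) h1.le (by
        have e : 2 * (s + s / 2) * (s ^ 2)⁻¹ * (s / 2) = 3 / 2 := by field_simp; ring
        rw [e]; norm_num) (by nlinarith)
    have e : (s ^ 2)⁻¹ * (m * (12 * s ^ 2)) = 12 * m := by field_simp
    rw [e] at p4
    have p2 : ‖∫ t in (s / 2)..b, F (ρ - (2 * t * s - t ^ 2)) / (t : ℂ)‖ ≤ 8 * m := by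
      by_cases h3 : b ≤ s
      · linarith [rd_half hk2 hF hm hD' hs0 h1.le le_rfl h2.le (Or.inl h3)]
      · push Not at h3
        rw [← intervalIntegral.integral_add_adjacent_intervals
          (ad_iA hF ρ s (p := s / 2) (q := s) (by linarith) (by linarith))
          (ad_iA hF ρ s hs0 h3.le)]
        have h4 := rd_half hk2 hF hm hD' hs0 (a := s / 2) (b := s) (by linarith) le_rfl
          (by linarith) (Or.inl le_rfl)
        have h5 := rd_half hk2 hF hm hD' hs0 (a := s) (b := b) h3.le (by linarith) h2.le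
          (Or.inr le_rfl)
        refine (norm_add_le _ _).trans ?_
        linarith
    rw [ad_split hF ρ s (p := s / 2) (by linarith) h1.le]
    linarith [norm_sub_le (∫ t in (s / 2)..b, F (ρ - (2 * t * s - t ^ 2)) / (t : ℂ))
      (∫ t in (s / 2)..b, F (ρ + (2 * t * s + t ^ 2)) / (t : ℂ))]

theorem ad_cover (g : ℝ → ℝ≥0∞) (b c p q : ℝ) :
    ∫⁻ t in Ioo b c, g t ≤ (∫⁻ t in Ioo b (min p c), g t) + (∫⁻ t in Ioo p (min q c), g t) +
      ∫⁻ t in Ioo q c, g t := by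
  refine le_trans (lintegral_mono_set' (t := Ioo b (min p c) ∪ Ioo p (min q c) ∪ Ioo q c) ?_)
    ((lintegral_union_le _ _ _).trans (add_le_add_left (lintegral_union_le _ _ _) _))
  filter_upwards [compl_mem_ae_iff.2 (measure_singleton (μ := volume) p),
    compl_mem_ae_iff.2 (measure_singleton (μ := volume) q)] with t h1 h2 ht
  have h1' : t ≠ p := h1
  have h2' : t ≠ q := h2
  rcases lt_or_gt_of_ne h1' with h3 | h3
  · exact Or.inl (Or.inl ⟨ht.1, lt_min h3 ht.2⟩)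
  · rcases lt_or_gt_of_ne h2' with h4 | h4
    · exact Or.inl (Or.inr ⟨h3, lt_min h4 ht.2⟩)
    · exact Or.inr ⟨h4, ht.2⟩

theorem ad_far {δ m : ℝ} {v : E2 → E2} {f : E2 → ℂ} {x : E2} (hx : x ≠ 0) (hm : 0 ≤ m)
    (hM : MM δ v f x ≤ ENNReal.ofReal m) (hN : NN v f x ≤ ENNReal.ofReal m)
    (hF : FF v f x ≤ ENNReal.ofReal m) :
    ∫⁻ t in Ioo (bb δ x) (1 / 2), ‖f (x - t • v x)‖ₑ * ENNReal.ofReal t⁻¹ ≤
      ENNReal.ofReal (6 * m) := by
  have hr : 0 < ‖x‖ := norm_pos_iff.2 hx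
  refine (ad_cover _ _ _ (‖x‖ / 4) (5 * ‖x‖ / 2)).trans ?_
  have h1 : ∫⁻ t in Ioo (‖x‖ / 4) (min (5 * ‖x‖ / 2) (1 / 2)),
      ‖f (x - t • v x)‖ₑ * ENNReal.ofReal t⁻¹ ≤ ENNReal.ofReal (4 * m) := by
    rw [ENNReal.ofReal_mul (by norm_num)]
    refine le_trans ?_ (mul_le_mul_right hN _)
    unfold NN
    rw [← mul_assoc, ← ENNReal.ofReal_mul (by norm_num),
      ← lintegral_const_mul' _ _ ENNReal.ofReal_ne_top]
    refine setLIntegral_mono' measurableSet_Ioo fun t ht => ?_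
    rw [mul_comm]
    refine mul_le_mul_left (ENNReal.ofReal_le_ofReal ?_) _
    have e : 4 * ‖x‖⁻¹ = (‖x‖ / 4)⁻¹ := by field_simp
    rw [e]
    exact inv_anti₀ (by positivity) ht.1.le
  refine (add_le_add (add_le_add hM h1) hF).trans ?_
  rw [← ENNReal.ofReal_add hm (by positivity), ← ENNReal.ofReal_add (by positivity) hm]
  apply le_of_eq; congr 1; ring

end Vale.Agent.P112
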