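import Vale.Agent.P112.AD1

namespace Vale.Agent.P112

open MeasureTheory Set Filter Topology
open scoped ENNReal

theorem ad_bb {δ : ℝ} (h0 : 0 < δ) (h1 : δ ≤ 1 / 8) {x : E2} (hx : x ≠ 0) :
    0 < bb δ x ∧ bb δ x ≤ ‖x‖ / 8 ∧ bb δ x ≤ 1 / 8 := by
  have hr : 0 < ‖x‖ := norm_pos_iff.2 hx
  unfold bb
  refine ⟨by positivity, ?_, ?_⟩
  · rw [div_le_iff₀ (by positivity)]; nlinarith
  · rw [div_le_iff₀ (by positivity)]; nlinarith

theorem ad_err (hE : E_pt) {f : E2 → ℂ} (hf : ContDiff ℝ 1 f) {δ η : ℝ} (h0 : 0 < δ)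
    (h1 : δ ≤ 1 / 8) {v : E2 → E2} {x : E2} (hx : x ≠ 0) (hu : ‖v x‖ = 1) (hη : 0 < η) :
    ∫⁻ t in Ioo η (bb δ x), ‖f (x - t • v x) - f (‖x - t • v x‖ • ‖x‖⁻¹ • x)‖ₑ *
      ENNReal.ofReal t⁻¹ ≤ EE δ v (fun y => ‖Ang 0 f y‖ₑ) x := by
  unfold EE
  refine le_trans (setLIntegral_mono' measurableSet_Ioo fun t ht => ?_)
    (lintegral_mono_set (Ioo_subset_Ioo hη.le le_rfl))
  refine mul_le_mul_left (hE f x _ t hf hx ?_ (ht.2.le.trans (ad_bb h0 h1 hx).2.1)) _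
  rw [sub_sub_cancel_left, norm_neg, norm_smul, hu, mul_one,
    Real.norm_of_nonneg (hη.trans ht.1).le]

theorem ad_two {g1 g2 : ℝ → ℂ} (hg : Continuous g1) {p q c : ℝ} (hp : 0 < p) (hpq : p ≤ q)
    (hc : 0 ≤ c) (h1 : ∫⁻ t in Ioo p q, ‖g1 t‖ₑ * ENNReal.ofReal t⁻¹ ≤ ENNReal.ofReal c)
    (h2 : ∫⁻ t in Ioo p q, ‖g2 t‖ₑ * ENNReal.ofReal t⁻¹ ≤ ENNReal.ofReal c) :
    ‖∫ t in p..q, (g1 t - g2 t) / (t : ℂ)‖ ≤ 2 * c := by
  refine rd_norm_le hpq (by positivity) ?_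
  rw [two_mul, ENNReal.ofReal_add hc hc]
  refine le_trans ?_ (add_le_add h1 h2)
  have hmm : Measurable fun t : ℝ => ‖g1 t‖ₑ * ENNReal.ofReal t⁻¹ :=
    hg.measurable.enorm.mul measurable_inv.ennreal_ofReal
  rw [← lintegral_add_left hmm]
  refine setLIntegral_mono' measurableSet_Ioo fun t ht => ?_
  have ht0 : 0 < t := hp.trans ht.1
  rw [← add_mul, ← ofReal_norm, ← ofReal_norm, ← ofReal_norm,
    ← ENNReal.ofReal_add (norm_nonneg _) (norm_nonneg _), ← ENNReal.ofReal_mul (by positivity)]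
  apply ENNReal.ofReal_le_ofReal
  rw [norm_div, Complex.norm_real, Real.norm_of_nonneg ht0.le, div_eq_mul_inv]
  exact mul_le_mul_of_nonneg_right (norm_sub_le _ _) (by positivity)

theorem ad_point (hk1 : A_k1) (hk2 : A_k2) (hE : E_pt) {f : E2 → ℂ} (hf : ContDiff ℝ 1 f)
    {L : NNReal} (hL : LipschitzWith L f) {δ : ℝ} (h0 : 0 < δ) (h1 : δ ≤ 1 / 8) {v : E2 → E2}
    {x : E2} (hx : x ≠ 0) (hu : ‖v x‖ = 1) {F : ℝ → ℂ}
    (hFd : ∀ ρ, F ρ = f (Real.sqrt |ρ| • ‖x‖⁻¹ • x)) (hi : Integrable F volume) {m : ℝ}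
    (hm : 0 ≤ m) (hs0 : 0 ≤ inner ℝ x (v x))
    (hH : ∀ R, 0 < R → ‖HR F (‖x‖ ^ 2) R‖ ≤ m)
    (hG : Good (fun y => ‖F y‖ₑ) (‖x‖ ^ 2) (ENNReal.ofReal m))
    (hD : inner ℝ x (v x) ≤ ‖x‖ / 2 → inner ℝ x (v x) ≤ 1 / 4 →
      Good (fun y => ‖F y‖ₑ) (‖x‖ ^ 2 - inner ℝ x (v x) ^ 2) (ENNReal.ofReal m))
    (hM1 : MM δ v f x ≤ ENNReal.ofReal m) (hN1 : NN v f x ≤ ENNReal.ofReal m)
    (hF1 : FF v f x ≤ ENNReal.ofReal m) (hE1 : EE δ v (fun y => ‖Ang 0 f y‖ₑ) x ≤ ENNReal.ofReal m)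
    (hM2 : MM δ (fun y => -v y) f x ≤ ENNReal.ofReal m)
    (hN2 : NN (fun y => -v y) f x ≤ ENNReal.ofReal m)
    (hF2 : FF (fun y => -v y) f x ≤ ENNReal.ofReal m)
    (hE2 : EE δ (fun y => -v y) (fun y => ‖Ang 0 f y‖ₑ) x ≤ ENNReal.ofReal m) :
    ‖∫ t in (0 : ℝ)..(1 / 2), kk f x (v x) t‖ ≤ 60 * m := by
  obtain ⟨b0, b1, b2⟩ := ad_bb h0 h1 hx
  have hr : 0 < ‖x‖ := norm_pos_iff.2 hx
  have hfc := hf.continuous
  have hF : Continuous F := by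
    have : F = fun ρ => f (Real.sqrt |ρ| • ‖x‖⁻¹ • x) := funext hFd
    rw [this]; fun_prop
  have hint := kk_int hL x _ hu
  have hFn : ∀ y : E2, F (‖y‖ ^ 2) = f (‖y‖ • ‖x‖⁻¹ • x) := fun y => by
    rw [hFd, abs_of_nonneg (sq_nonneg _), Real.sqrt_sq (norm_nonneg _)]
  have far : ‖∫ t in (bb δ x)..(1 / 2), kk f x (v x) t‖ ≤ 2 * (6 * m) := by
    have a1 := ad_far hx hm hM1 hN1 hF1
    have a2 := ad_far hx hm hM2 hN2 hF2
    simp only [smul_neg, sub_neg_eq_add] at a2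
    exact ad_two (g1 := fun t => f (x - t • v x)) (g2 := fun t => f (x + t • v x)) (by fun_prop)
      b0 (by linarith) (by positivity) a1 a2
  set s := inner ℝ x (v x) with hsd
  set ρ := ‖x‖ ^ 2 with hρ
  have near : ∀ η, 0 < η → η ≤ bb δ x → (0 < s → η ≤ s / 2) →
      ‖∫ t in η..(bb δ x), kk f x (v x) t‖ ≤ 46 * m := by
    intro η hη hηb hηs
    have a1 := (ad_err hE hf h0 h1 hx hu hη).trans hE1
    have a2 := (ad_err hE hf h0 h1 (v := fun y => -v y) hx (by rw [norm_neg, hu]) hη).trans hE2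
    simp only [smul_neg, sub_neg_eq_add] at a2
    have a3 := ad_two (g1 := fun t => f (x - t • v x) - f (‖x - t • v x‖ • ‖x‖⁻¹ • x))
      (g2 := fun t => f (x + t • v x) - f (‖x + t • v x‖ • ‖x‖⁻¹ • x)) (by fun_prop) hη hηb hm a1 a2
    have i1 := rd_cont (g := fun t => (f (x - t • v x) - f (‖x - t • v x‖ • ‖x‖⁻¹ • x)) -
      (f (x + t • v x) - f (‖x + t • v x‖ • ‖x‖⁻¹ • x))) (d := fun t => t) (by fun_prop)
      continuous_id hηb fun t ht => by have := ht.1; linarith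
    have e : ∫ t in η..(bb δ x), kk f x (v x) t = (∫ t in η..(bb δ x), k1 F ρ s t) +
        ∫ t in η..(bb δ x), ((f (x - t • v x) - f (‖x - t • v x‖ • ‖x‖⁻¹ • x)) -
          (f (x + t • v x) - f (‖x + t • v x‖ • ‖x‖⁻¹ • x))) / (t : ℂ) := by
      rw [← intervalIntegral.integral_add (ad_ik hF ρ s hη hηb) i1]
      congr 1; funext t
      unfold kk k1
      rw [← hFn, ← hFn, rd_sq_sub x _ hu, rd_sq_add x _ hu]
      ring
    have a4 : ‖∫ t in η..(bb δ x), k1 F ρ s t‖ ≤ 44 * m := by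
      rcases hs0.eq_or_lt with h2 | h2
      · have : k1 F ρ s = fun _ => 0 := by
          funext t; unfold k1; rw [← h2]; simp
        rw [this]; simp only [intervalIntegral.integral_zero, norm_zero]; positivity
      · exact ad_near hk1 hk2 hF hi hm hH hG (fun h => hD (by linarith) (by linarith)) hη hηb
          (hηs h2)
    rw [e]
    refine (norm_add_le _ _).trans ?_
    linarith
  have near0 : ‖∫ t in (0 : ℝ)..(bb δ x), kk f x (v x) t‖ ≤ 46 * m := by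
    have hc : Continuous fun ε : ℝ => ∫ t in ε..(bb δ x), kk f x (v x) t := by
      have h3 : (fun ε : ℝ => ∫ t in ε..(bb δ x), kk f x (v x) t) =
          fun ε : ℝ => -∫ t in (bb δ x)..ε, kk f x (v x) t := by
        funext ε; exact intervalIntegral.integral_symm _ _
      rw [h3]; exact (intervalIntegral.continuous_primitive hint _).neg
    refine le_of_tendsto ((hc.norm.tendsto 0).mono_left (nhdsWithin_le_nhds (s := Ioi 0))) ?_
    rcases hs0.eq_or_lt with h2 | h2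
    · filter_upwards [Ioo_mem_nhdsGT b0] with η hη
      exact near η hη.1 hη.2.le fun h => absurd h (by rw [← h2]; exact lt_irrefl _)
    · filter_upwards [Ioo_mem_nhdsGT b0, Ioo_mem_nhdsGT (half_pos h2)] with η hη hη'
      exact near η hη.1 hη.2.le fun _ => hη'.2.le
  rw [← intervalIntegral.integral_add_adjacent_intervals (hint 0 (bb δ x)) (hint (bb δ x) (1 / 2))]
  refine (norm_add_le _ _).trans ?_
  linarith

end Vale.Agent.P112
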