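import Vale.Agent.P112.ADefs0

/-! The weak bound with a logarithmic loss in the angular frequency. -/

namespace Vale.Agent.P112

open MeasureTheory

/-- The weak (2,2) bound with constant `C`, with the square of the norm of `f` replaced by
`log (1/δ) ^ 2` times it plus `δ ^ 2` times the square of the norm of the weighted angular
derivative of `f` about `c`, for every centre `c` and every small `δ`. -/
def AngBound (v : E2 → E2) (a C : ℝ) : Prop :=
  ∀ (f : SchwartzMap E2 ℂ) (c : E2) (δ lam : ℝ), 0 < δ → δ ≤ 1 / 8 → 0 < lam →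
    volume {x : E2 | lam < ‖Hpv v a f x‖} ≤
      ENNReal.ofReal (C * (lam ^ 2)⁻¹) *
        (ENNReal.ofReal (Real.log δ⁻¹ ^ 2) * (∫⁻ x, ‖f x‖ₑ ^ 2) +
          ENNReal.ofReal (δ ^ 2) * ∫⁻ y, (‖Ang c f y‖ₑ * ENNReal.ofReal (1 + ‖y - c‖)⁻¹) ^ 2)

end Vale.Agent.P112
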