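import Vale.Agent.P112.RDefs

/-! The weak bound for the averages near the origin (Schur test). -/

namespace Vale.Agent.P112

open MeasureTheory Set
open scoped ENNReal

theorem RN_cs {μ : Measure ℝ} {F a b : ℝ → ℝ≥0∞} (ha : Measurable a) (hb : Measurable b)
    (h : ∀ᵐ t ∂μ, F t ^ 2 ≤ a t * b t) : (∫⁻ t, F t ∂μ) ^ 2 ≤ (∫⁻ t, a t ∂μ) * ∫⁻ t, b t ∂μ := by
  have e : ∀ x : ℝ≥0∞, (x ^ (1 / 2 : ℝ)) ^ 2 = x := fun x => by
    rw [← ENNReal.rpow_natCast, ← ENNReal.rpow_mul]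
    norm_num
  have h1 := ENNReal.lintegral_mul_norm_pow_le (μ := μ) ha.aemeasurable hb.aemeasurable
    (p := 1 / 2) (q := 1 / 2) (by norm_num) (by norm_num) (by norm_num)
  have h2 : ∫⁻ t, F t ∂μ ≤ ∫⁻ t, a t ^ (1 / 2 : ℝ) * b t ^ (1 / 2 : ℝ) ∂μ :=
    lintegral_mono_ae (h.mono fun t ht => (ENNReal.pow_le_pow_left_iff two_ne_zero).1 (by
      rwa [mul_pow, e, e]))
  refine (pow_le_pow_left' (h2.trans h1) 2).trans_eq ?_
  rw [mul_pow, e, e]

theorem RN_w0 {R : ℝ} (hR : 0 < R) :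
    ∫⁻ t in Ioo 0 R, ENNReal.ofReal (t ^ (-(1 / 2) : ℝ)) = ENNReal.ofReal (2 * R ^ (1 / 2 : ℝ)) := by
  have h1 : IntervalIntegrable (fun x : ℝ => x ^ (-(1 / 2) : ℝ)) volume 0 R :=
    intervalIntegral.intervalIntegrable_rpow' (by norm_num)
  rw [← ofReal_integral_eq_lintegral_ofReal
    ((intervalIntegrable_iff_integrableOn_Ioo_of_le hR.le).1 h1)
    ((ae_restrict_mem measurableSet_Ioo).mono fun t ht => Real.rpow_nonneg ht.1.le _),
    ← integral_Ioc_eq_integral_Ioo, ← intervalIntegral.integral_of_le hR.le,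
    integral_rpow (Or.inl (by norm_num)), Real.zero_rpow (by norm_num),
    show (-(1 / 2) + 1 : ℝ) = 1 / 2 by norm_num]
  exact congrArg _ (by ring)

theorem RN_w1 {R : ℝ} (hR : 0 < R) (c : ℝ) {I : Set ℝ} (hI : MeasurableSet I)
    (h : ∀ t ∈ I, |t - c| < R) :
    ∫⁻ t in I, ENNReal.ofReal (|t - c| ^ (-(1 / 2) : ℝ)) ≤ ENNReal.ofReal (4 * R ^ (1 / 2 : ℝ)) := by
  obtain ⟨G, hG⟩ : ∃ G : ℝ → ℝ≥0∞,
      G = (Ioo 0 R).indicator fun t => ENNReal.ofReal (t ^ (-(1 / 2) : ℝ)) := ⟨_, rfl⟩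
  have hm : Measurable G := hG ▸ Measurable.indicator (by fun_prop) measurableSet_Ioo
  have h1 : ∫⁻ t, G t = ENNReal.ofReal (2 * R ^ (1 / 2 : ℝ)) := by
    rw [hG, lintegral_indicator measurableSet_Ioo, RN_w0 hR]
  refine (setLIntegral_mono' (g := fun t => G (t - c) + G (c - t)) hI fun t ht => ?_).trans
    ((setLIntegral_le_lintegral _ _).trans ?_)
  · have h2 := abs_lt.1 (h t ht)
    rcases lt_trichotomy t c with h3 | rfl | h3
    · rw [abs_sub_comm, abs_of_pos (sub_pos.2 h3)]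
      refine le_add_left ?_
      rw [hG, indicator_of_mem (show c - t ∈ Ioo 0 R from ⟨sub_pos.2 h3, by linarith [h2.1]⟩)]
    · simp
    · rw [abs_of_pos (sub_pos.2 h3)]
      refine le_add_right ?_
      rw [hG, indicator_of_mem (show t - c ∈ Ioo 0 R from ⟨sub_pos.2 h3, h2.2⟩)]
  · rw [lintegral_add_left (f := fun t => G (t - c)) (hm.comp (measurable_id.sub_const c)), lintegral_sub_right_eq_self,
      lintegral_sub_left_eq_self, h1, ← ENNReal.ofReal_add (by positivity) (by positivity)]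
    exact le_of_eq (congrArg _ (by ring))

/-- the kernel of the Schur test -/
noncomputable def RN_k (t ρ : ℝ) : ℝ≥0∞ :=
  if ρ / 5 < t then ENNReal.ofReal (t ^ (-(3 / 2) : ℝ) * ρ ^ (1 / 2 : ℝ)) else 0

theorem RN_km : Measurable fun p : ℝ × ℝ => RN_k p.1 p.2 :=
  Measurable.ite (measurableSet_lt (by fun_prop) measurable_fst) (by fun_prop) measurable_const

theorem RN_ki {ρ : ℝ} (hρ : 0 ≤ ρ) : ∫⁻ t in Ioo 0 (1 / 2), RN_k t ρ ≤ 5 := by
  rcases hρ.eq_or_lt with rfl | hρ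
  · simp [RN_k]
  have h5 : 0 < ρ / 5 := by positivity
  have e : (fun t => RN_k t ρ) = (Ioi (ρ / 5)).indicator fun t =>
      ENNReal.ofReal (t ^ (-(3 / 2) : ℝ) * ρ ^ (1 / 2 : ℝ)) := funext fun t => by
    simp only [RN_k, indicator, mem_Ioi]
  refine (setLIntegral_le_lintegral _ _).trans ?_
  rw [e, lintegral_indicator measurableSet_Ioi, ← ofReal_integral_eq_lintegral_ofReal
    ((integrableOn_Ioi_rpow_of_lt (by norm_num) h5).mul_const _)
    ((ae_restrict_mem measurableSet_Ioi).mono fun t ht =>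
      mul_nonneg (Real.rpow_nonneg (h5.trans ht).le _) (by positivity)),
    integral_mul_const, integral_Ioi_rpow_of_lt (by norm_num) h5]
  refine (ENNReal.ofReal_le_ofReal (q := 5) ?_).trans_eq (by simp)
  have h1 : ρ ^ (1 / 2 : ℝ) = (ρ / 5) ^ (1 / 2 : ℝ) * 5 ^ (1 / 2 : ℝ) := by
    rw [← Real.mul_rpow h5.le (by norm_num), div_mul_cancel₀ _ (by norm_num)]
  have h2 : (ρ / 5) ^ (-(3 / 2) + 1 : ℝ) * (ρ / 5) ^ (1 / 2 : ℝ) = 1 := by
    rw [← Real.rpow_add h5]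
    norm_num
  have h3 : (5 : ℝ) ^ (1 / 2 : ℝ) ≤ 5 / 2 := by
    rw [← Real.sqrt_eq_rpow]
    exact Real.sqrt_le_iff.2 ⟨by norm_num, by norm_num⟩
  rw [h1, ← mul_assoc, div_mul_eq_mul_div, neg_mul, h2]
  linarith

theorem RN_pt {v : E2 → E2} (hv : UnitLip v) {f : E2 → ℂ} (hf : Continuous f) (x : E2) :
    NN v f x ^ 2 ≤ 64 * ∫⁻ t in Ioo 0 (1 / 2), RN_k t ‖x - t • v x‖ * ‖f (x - t • v x)‖ₑ ^ 2 := by
  rcases (norm_nonneg x).eq_or_lt with h0 | h0
  · simp [NN, ← h0]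
  have hc : |inner ℝ x (v x)| ≤ ‖x‖ := (abs_real_inner_le_norm _ _).trans_eq (by
    rw [hv.1 x, mul_one])
  have hy : ∀ t : ℝ, |t - inner ℝ x (v x)| ≤ ‖x - t • v x‖ := fun t => by
    have := abs_real_inner_le_norm (x - t • v x) (v x)
    rwa [inner_sub_left, real_inner_smul_left, real_inner_self_eq_norm_sq, hv.1 x, one_pow,
      mul_one, mul_one, abs_sub_comm] at this
  have m1 : Measurable fun t : ℝ => ‖f (x - t • v x)‖ₑ ^ 2 :=
    (Continuous.measurable (by fun_prop : Continuous fun t : ℝ => f (x - t • v x))).enorm.pow_const 2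
  have h1 := RN_cs (μ := volume.restrict (Ioo (‖x‖ / 4) (min (5 * ‖x‖ / 2) (1 / 2))))
    (F := fun t => ‖f (x - t • v x)‖ₑ)
    (a := fun t => ENNReal.ofReal (|t - inner ℝ x (v x)| ^ (-(1 / 2) : ℝ)))
    (b := fun t => ENNReal.ofReal (‖x - t • v x‖ ^ (1 / 2 : ℝ)) * ‖f (x - t • v x)‖ₑ ^ 2)
    (by fun_prop) (Measurable.mul (by fun_prop) m1)
    (ae_restrict_of_ae ((Measure.ae_ne volume (inner ℝ x (v x))).mono fun t ht => by
      have h2 : 0 < |t - inner ℝ x (v x)| := abs_pos.2 (sub_ne_zero.2 ht)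
      rw [← mul_assoc, ← ENNReal.ofReal_mul (by positivity)]
      refine le_mul_of_one_le_left' (ENNReal.one_le_ofReal.2 ?_)
      rw [Real.rpow_neg h2.le, ← div_eq_inv_mul, one_le_div (by positivity)]
      exact Real.rpow_le_rpow h2.le (hy t) (by norm_num)))
  have h2 := RN_w1 (R := 4 * ‖x‖) (by positivity) (inner ℝ x (v x))
    (measurableSet_Ioo (a := ‖x‖ / 4) (b := min (5 * ‖x‖ / 2) (1 / 2))) fun t ht => by
      have := abs_le.1 hc
      have := (lt_min_iff.1 ht.2).1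
      exact abs_lt.2 ⟨by linarith [ht.1], by linarith⟩
  rw [NN, mul_pow]
  refine (mul_le_mul_right (h1.trans (mul_le_mul_left h2 _)) _).trans ?_
  rw [← mul_assoc, ← ENNReal.ofReal_pow (by positivity), ← ENNReal.ofReal_mul (by positivity),
    ← lintegral_const_mul' _ _ ENNReal.ofReal_ne_top, ← lintegral_const_mul' _ _ (by simp)]
  refine (setLIntegral_mono' measurableSet_Ioo fun t ht => ?_).trans
    (lintegral_mono_set (Ioo_subset_Ioo (by positivity) (min_le_right _ _)))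
  have t0 : 0 < t := lt_trans (by positivity) ht.1
  have t1 := (lt_min_iff.1 ht.2).1
  have h3 : ‖x - t • v x‖ / 5 < t := by
    have := norm_sub_le x (t • v x)
    rw [norm_smul, hv.1 x, mul_one, Real.norm_of_nonneg t0.le] at this
    linarith [ht.1]
  rw [← mul_assoc, ← mul_assoc 64, RN_k, if_pos h3,
    show (64 : ℝ≥0∞) = ENNReal.ofReal 64 by simp,
    ← ENNReal.ofReal_mul (by positivity), ← ENNReal.ofReal_mul (by positivity), ← mul_assoc 64]
  refine mul_le_mul_left (ENNReal.ofReal_le_ofReal (mul_le_mul_of_nonneg_right ?_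
    (by positivity))) _
  have h4 : (4 * ‖x‖) ^ (1 / 2 : ℝ) = (4 * ‖x‖) ^ (-(3 / 2) : ℝ) * (4 * ‖x‖) ^ 2 := by
    rw [← Real.rpow_natCast, ← Real.rpow_add (by positivity)]
    norm_num
  have h5 : (4 * ‖x‖) ^ (-(3 / 2) : ℝ) ≤ t ^ (-(3 / 2) : ℝ) :=
    Real.rpow_le_rpow_of_nonpos t0 (by linarith) (by norm_num)
  rw [h4]
  refine le_trans (le_of_eq ?_) (mul_le_mul_of_nonneg_left h5 (by norm_num))
  field_simp
  norm_num

theorem RN_m1 {f : E2 → ℂ} (hf : Continuous f) :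
    Measurable fun p : E2 × ℝ => RN_k p.2 ‖p.1‖ * ‖f p.1‖ₑ ^ 2 := by
  have h1 : Measurable fun p : E2 × ℝ => RN_k p.2 ‖p.1‖ :=
    RN_km.comp (f := fun p : E2 × ℝ => (p.2, ‖p.1‖)) (measurable_snd.prodMk measurable_fst.norm)
  have h2 : Measurable fun p : E2 × ℝ => f p.1 := hf.measurable.comp measurable_fst
  exact h1.mul (h2.enorm.pow_const 2)

theorem RN_m2 {v : E2 → E2} (hv : Continuous v) {f : E2 → ℂ} (hf : Continuous f) :
    Measurable fun p : E2 × ℝ => RN_k p.2 ‖p.1 - p.2 • v p.1‖ * ‖f (p.1 - p.2 • v p.1)‖ₑ ^ 2 :=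
  (RN_m1 hf).comp (f := fun p : E2 × ℝ => (p.1 - p.2 • v p.1, p.2))
    (Continuous.measurable (by fun_prop))

theorem RN_int {v : E2 → E2} (hv : UnitLip v) (hd : Differentiable ℝ v) {f : E2 → ℂ}
    (hf : Continuous f) :
    ∫⁻ x, ∫⁻ t in Ioo 0 (1 / 2), RN_k t ‖x - t • v x‖ * ‖f (x - t • v x)‖ₑ ^ 2 ≤
      2 * (5 * ∫⁻ x, ‖f x‖ₑ ^ 2) := by
  rw [lintegral_lintegral_swap (RN_m2 hv.2.continuous hf).aemeasurable]
  refine (setLIntegral_mono' measurableSet_Ioo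
    (g := fun t => 2 * ∫⁻ y, RN_k t ‖y‖ * ‖f y‖ₑ ^ 2) fun t ht => ?_).trans ?_
  · have t1 : |t| < 1 / 2 := by
      rw [abs_of_pos ht.1]
      exact ht.2
    refine le_trans ?_ (mul_le_mul_right (jac_bound hv hd (t := t) (by linarith)
      fun y => RN_k t ‖y‖ * ‖f y‖ₑ ^ 2) 2)
    rw [← mul_assoc]
    refine le_mul_of_one_le_left' ((ENNReal.one_le_ofReal.2
      (show 1 ≤ 2 * (1 - |t|) by linarith)).trans_eq ?_)
    rw [ENNReal.ofReal_mul zero_le_two, ENNReal.ofReal_ofNat]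
  · rw [lintegral_const_mul' _ _ (by simp), ← lintegral_lintegral_swap (RN_m1 hf).aemeasurable,
      ← lintegral_const_mul' 5 _ (by simp)]
    refine mul_le_mul_right (lintegral_mono fun y => ?_) _
    rw [lintegral_mul_const' _ _ (by simp)]
    exact mul_le_mul_left (RN_ki (norm_nonneg y)) _

theorem n_weak : N_weak := by
  refine ⟨64 * (2 * 5), by finiteness, fun v f s hv hd hf => ?_⟩
  have hm : Measurable fun x : E2 =>
      ∫⁻ t in Ioo 0 (1 / 2), RN_k t ‖x - t • v x‖ * ‖f (x - t • v x)‖ₑ ^ 2 :=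
    (RN_m2 hv.2.continuous hf).lintegral_prod_right'
  have h1 := mul_meas_ge_le_lintegral₀ (μ := volume) (hm.const_mul 64).aemeasurable (s ^ 2)
  refine le_trans (mul_le_mul_right (measure_mono fun x hx => ?_) _) (h1.trans ?_)
  · exact (pow_le_pow_left' hx 2).trans (RN_pt hv hf x)
  · rw [lintegral_const_mul' _ _ (by simp), mul_assoc, mul_assoc]
    exact mul_le_mul_right (RN_int hv hd hf) _

end Vale.Agent.P112
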