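import Vale.Agent.P112.ADefs
import Vale.Agent.P112.RN

/-! The weak bound for the angular error term (Schur test). -/

namespace Vale.Agent.P112

open MeasureTheory Set
open scoped ENNReal

theorem AE_norm (ψ : ℝ) (y : E2) : ‖rot ψ y‖ = ‖y‖ := by
  rw [EuclideanSpace.norm_eq, EuclideanSpace.norm_eq]
  congr 1
  simp [rot, rot90, Fin.sum_univ_two]
  linear_combination (y 0 ^ 2 + y 1 ^ 2) * Real.cos_sq_add_sin_sq ψ

/-- the rotation as a linear isometry -/
noncomputable def AE_rot (ψ : ℝ) : E2 →ₗᵢ[ℝ] E2 where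
  toFun := rot ψ
  map_add' a b := by
    ext i
    fin_cases i <;> simp [rot, rot90] <;> ring
  map_smul' c a := by
    ext i
    fin_cases i <;> simp [rot, rot90] <;> ring
  norm_map' := AE_norm ψ

theorem AE_inv (ψ : ℝ) {g : E2 → ℝ≥0∞} (hg : Measurable g) : ∫⁻ y, g (rot ψ y) = ∫⁻ y, g y :=
  ((AE_rot ψ).toLinearIsometryEquiv rfl).measurePreserving.lintegral_comp hg

theorem AE_cont : Continuous fun p : ℝ × E2 => rot p.1 p.2 := by
  unfold rot rot90
  fun_prop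

/-- the kernel of the Schur test -/
noncomputable def AE_k (δ t ψ ρ : ℝ) : ℝ≥0∞ :=
  if t < 2 * δ * ρ / (1 + ρ) ∧ |ψ| < 4 * t / ρ then ENNReal.ofReal ((1 + ρ)⁻¹ * t⁻¹) else 0

theorem AE_km (δ : ℝ) {α : Type} [MeasurableSpace α] {t ψ ρ : α → ℝ} (ht : Measurable t)
    (hψ : Measurable ψ) (hρ : Measurable ρ) : Measurable fun p => AE_k δ (t p) (ψ p) (ρ p) :=
  Measurable.ite ((measurableSet_lt ht (by fun_prop)).inter
    (measurableSet_lt (f := fun p => |ψ p|) (g := fun p => 4 * t p / ρ p) (by fun_prop)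
      (by fun_prop))) (by fun_prop) measurable_const

theorem AE_ki {δ ρ : ℝ} (hρ : 0 ≤ ρ) : ∫⁻ t in Ioo 0 (1 / 2), ∫⁻ ψ, AE_k δ t ψ ρ ≤
    16 * (ENNReal.ofReal δ * ENNReal.ofReal (1 + ρ)⁻¹ ^ 2) := by
  rcases hρ.eq_or_lt with rfl | hρ
  · simp [AE_k, (abs_nonneg _).not_gt]
  refine (setLIntegral_mono' (g := (Ioo 0 (2 * δ * ρ / (1 + ρ))).indicator fun _ =>
    ENNReal.ofReal (8 / ρ * (1 + ρ)⁻¹)) measurableSet_Ioo fun t ht => ?_).trans
    ((setLIntegral_le_lintegral _ _).trans ?_)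
  · by_cases h1 : t < 2 * δ * ρ / (1 + ρ)
    · have e : (fun ψ => AE_k δ t ψ ρ) = (Ioo (-(4 * t / ρ)) (4 * t / ρ)).indicator fun _ =>
          ENNReal.ofReal ((1 + ρ)⁻¹ * t⁻¹) := funext fun ψ => by
        simp only [AE_k, indicator, mem_Ioo, h1, true_and, abs_lt]
      have t0 := ht.1
      rw [e, lintegral_indicator_const measurableSet_Ioo, Real.volume_Ioo,
        indicator_of_mem (show t ∈ Ioo _ _ from ⟨ht.1, h1⟩),
        ← ENNReal.ofReal_mul (by positivity)]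
      refine le_of_eq (congrArg _ ?_)
      field_simp
      ring
    · simp [AE_k, h1]
  · rw [lintegral_indicator_const measurableSet_Ioo, Real.volume_Ioo,
      ← ENNReal.ofReal_mul (by positivity), ← ENNReal.ofReal_pow (by positivity),
      ← ENNReal.ofReal_mul' (by positivity), show (16 : ℝ≥0∞) = ENNReal.ofReal 16 by simp,
      ← ENNReal.ofReal_mul (by positivity)]
    refine le_of_eq (congrArg _ ?_)
    field_simp
    ring

/-- the majorant -/
noncomputable def AE_B (δ : ℝ) (h : E2 → ℝ≥0∞) (t : ℝ) (y : E2) : ℝ≥0∞ :=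
  ∫⁻ ψ, AE_k δ t ψ ‖y‖ * h (rot ψ y) ^ 2

theorem AE_m0 (δ : ℝ) {h : E2 → ℝ≥0∞} (hh : Measurable h) : Measurable fun p : (E2 × ℝ) × ℝ =>
    AE_k δ p.1.2 p.2 ‖p.1.1‖ * h (rot p.2 p.1.1) ^ 2 :=
  (AE_km δ measurable_fst.snd measurable_snd measurable_fst.fst.norm).mul
    ((hh.comp (AE_cont.measurable.comp (measurable_snd.prodMk measurable_fst.fst))).pow_const 2)

theorem AE_m2 (δ : ℝ) {h : E2 → ℝ≥0∞} (hh : Measurable h) {v : E2 → E2} (hv : Continuous v) :
    Measurable fun p : E2 × ℝ => AE_B δ h p.2 (p.1 - p.2 • v p.1) :=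
  (AE_m0 δ hh).lintegral_prod_right'.comp (f := fun p : E2 × ℝ => (p.1 - p.2 • v p.1, p.2))
    (Continuous.measurable (by fun_prop))

theorem AE_in {δ : ℝ} (d1 : δ ≤ 1 / 8) {h : E2 → ℝ≥0∞} (hh : Measurable h) {r t : ℝ} {y : E2}
    (hr : 0 < r) (t0 : 0 < t) (t1 : t < δ * r / (1 + r)) (y0 : r - t ≤ ‖y‖) (y1 : ‖y‖ ≤ r + t) :
    ((∫⁻ ψ in Ioo (-(3 * t / r)) (3 * t / r), h (rot ψ y)) * ENNReal.ofReal t⁻¹) ^ 2 ≤
      ENNReal.ofReal (12 * (1 + r) / r) * AE_B δ h t y := by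
  rw [lt_div_iff₀ (by positivity)] at t1
  have t2 : t < r / 8 := by nlinarith [mul_pos t0 hr]
  have hy : 0 < ‖y‖ := by linarith
  have d0 : 0 < δ := by
    by_contra hd
    nlinarith [mul_pos t0 hr, not_lt.1 hd]
  have k1 : t < 2 * δ * ‖y‖ / (1 + ‖y‖) := by
    rw [lt_div_iff₀ (by positivity)]
    nlinarith [mul_pos t0 hr, mul_pos d0 hr]
  have k2 : 3 * t / r ≤ 4 * t / ‖y‖ := by
    rw [div_le_div_iff₀ hr hy]
    nlinarith
  have m := (AE_m0 δ hh).comp (f := fun ψ : ℝ => ((y, t), ψ)) (by fun_prop)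
  have h1 := RN_cs (μ := volume.restrict (Ioo (-(3 * t / r)) (3 * t / r)))
    (F := fun ψ => h (rot ψ y)) (a := fun _ => ENNReal.ofReal (2 * (1 + r) * t))
    measurable_const m ((ae_restrict_mem measurableSet_Ioo).mono fun ψ hψ => by
      have : |ψ| < 4 * t / ‖y‖ := (abs_lt.2 hψ).trans_le k2
      simp only [Function.comp, AE_k, k1, this, and_self, if_true]
      rw [← mul_assoc, ← ENNReal.ofReal_mul (by positivity)]
      refine le_mul_of_one_le_left' (ENNReal.one_le_ofReal.2 ?_)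
      rw [show 2 * (1 + r) * t * ((1 + ‖y‖)⁻¹ * t⁻¹) = 2 * (1 + r) / (1 + ‖y‖) by field_simp,
        one_le_div (by positivity)]
      linarith)
  rw [setLIntegral_const, Real.volume_Ioo, ← ENNReal.ofReal_mul (by positivity)] at h1
  rw [mul_pow]
  refine (mul_le_mul_left (h1.trans (mul_le_mul_right (setLIntegral_le_lintegral _ _) _)) _).trans
    (le_of_eq ?_)
  rw [mul_right_comm, ← ENNReal.ofReal_pow (by positivity), ← ENNReal.ofReal_mul' (by positivity),
    show 2 * (1 + r) * t * (3 * t / r - -(3 * t / r)) * t⁻¹ ^ 2 = 12 * (1 + r) / r by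
      field_simp; ring]
  rfl

theorem AE_pt {δ : ℝ} (d0 : 0 < δ) (d1 : δ ≤ 1 / 8) {v : E2 → E2} (hv : UnitLip v)
    {h : E2 → ℝ≥0∞} (hh : Measurable h) (x : E2) : EE δ v h x ^ 2 ≤
      12 * ENNReal.ofReal δ * ∫⁻ t in Ioo 0 (1 / 2), AE_B δ h t (x - t • v x) := by
  rcases (norm_nonneg x).eq_or_lt with h0 | h0
  · simp [EE, bb, ← h0]
  have m := (AE_m2 δ hh hv.2.continuous).comp (f := fun t : ℝ => (x, t)) (by fun_prop)
  have h1 := RN_cs (μ := volume.restrict (Ioo 0 (bb δ x)))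
    (a := fun _ => ENNReal.ofReal (12 * (1 + ‖x‖) / ‖x‖)) measurable_const m
    ((ae_restrict_mem measurableSet_Ioo).mono fun t ht => by
      have e : ‖t • v x‖ = t := by rw [norm_smul, hv.1 x, mul_one, Real.norm_of_nonneg ht.1.le]
      exact AE_in d1 hh h0 ht.1 ht.2 (by simpa only [e] using norm_sub_norm_le x (t • v x))
        (by simpa only [e] using norm_sub_le x (t • v x)))
  rw [setLIntegral_const, Real.volume_Ioo, ← ENNReal.ofReal_mul (by positivity)] at h1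
  refine h1.trans (mul_le_mul' (le_of_eq ?_) (lintegral_mono_set (Ioo_subset_Ioo le_rfl ?_)))
  · rw [show (12 : ℝ≥0∞) = ENNReal.ofReal 12 by simp, ← ENNReal.ofReal_mul (by positivity)]
    refine congrArg _ ?_
    unfold bb
    field_simp
    ring
  · rw [bb, div_le_iff₀ (by positivity)]
    nlinarith

theorem AE_y (δ t : ℝ) {h : E2 → ℝ≥0∞} (hh : Measurable h) :
    ∫⁻ y, AE_B δ h t y = ∫⁻ y, (∫⁻ ψ, AE_k δ t ψ ‖y‖) * h y ^ 2 := by
  have m : Measurable fun p : E2 × ℝ => AE_k δ t p.2 ‖p.1‖ * h p.1 ^ 2 :=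
    (AE_km δ measurable_const measurable_snd measurable_fst.norm).mul
      ((hh.comp measurable_fst).pow_const 2)
  have m' : Measurable (Function.uncurry fun (y : E2) (ψ : ℝ) =>
      AE_k δ t ψ ‖y‖ * h (rot ψ y) ^ 2) :=
    (AE_m0 δ hh).comp (f := fun p : E2 × ℝ => ((p.1, t), p.2)) (by fun_prop)
  unfold AE_B
  rw [lintegral_lintegral_swap m'.aemeasurable]
  refine Eq.trans (lintegral_congr fun ψ => ?_) ((lintegral_lintegral_swap
    (f := fun y ψ => AE_k δ t ψ ‖y‖ * h y ^ 2) m.aemeasurable).symm.trans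
    (lintegral_congr fun y => lintegral_mul_const _
      (AE_km δ measurable_const measurable_id measurable_const)))
  refine Eq.trans ?_ (AE_inv ψ (m.comp (f := fun y : E2 => (y, ψ)) (by fun_prop)))
  simp only [AE_norm]

theorem AE_int (δ : ℝ) {v : E2 → E2} (hv : UnitLip v) (hd : Differentiable ℝ v)
    {h : E2 → ℝ≥0∞} (hh : Measurable h) :
    ∫⁻ x, ∫⁻ t in Ioo 0 (1 / 2), AE_B δ h t (x - t • v x) ≤
      2 * (16 * (ENNReal.ofReal δ * ∫⁻ y, (h y * ENNReal.ofReal (1 + ‖y‖)⁻¹) ^ 2)) := by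
  have m : Measurable fun p : E2 × ℝ => ∫⁻ ψ, AE_k δ p.2 ψ ‖p.1‖ :=
    (AE_km δ (α := (E2 × ℝ) × ℝ) measurable_fst.snd measurable_snd
      measurable_fst.fst.norm).lintegral_prod_right'
  rw [lintegral_lintegral_swap (AE_m2 δ hh hv.2.continuous).aemeasurable]
  refine (setLIntegral_mono' measurableSet_Ioo
    (g := fun t => 2 * ∫⁻ y, (∫⁻ ψ, AE_k δ t ψ ‖y‖) * h y ^ 2) fun t ht => ?_).trans ?_
  · have t1 : |t| < 1 / 2 := by
      rw [abs_of_pos ht.1]
      exact ht.2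
    rw [← AE_y δ t hh]
    refine le_trans ?_ (mul_le_mul_right (jac_bound hv hd (t := t) (by linarith)
      fun y => AE_B δ h t y) 2)
    rw [← mul_assoc]
    refine le_mul_of_one_le_left' ((ENNReal.one_le_ofReal.2
      (show 1 ≤ 2 * (1 - |t|) by linarith)).trans_eq ?_)
    rw [ENNReal.ofReal_mul zero_le_two, ENNReal.ofReal_ofNat]
  · have m' : Measurable (Function.uncurry fun (y : E2) (t : ℝ) =>
        (∫⁻ ψ, AE_k δ t ψ ‖y‖) * h y ^ 2) := m.mul ((hh.comp measurable_fst).pow_const 2)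
    rw [lintegral_const_mul' _ _ (by simp), ← lintegral_lintegral_swap m'.aemeasurable,
      ← lintegral_const_mul' (ENNReal.ofReal δ) _ (by simp), ← lintegral_const_mul' 16 _ (by simp)]
    refine mul_le_mul_right (lintegral_mono fun y => ?_) _
    refine (lintegral_mul_const _ (m.comp (f := fun t : ℝ => (y, t)) (by fun_prop))).trans_le ?_
    refine (mul_le_mul_left (AE_ki (norm_nonneg y)) _).trans_eq ?_
    ring

theorem e_weak : E_weak := by
  refine ⟨12 * (2 * 16), by finiteness, fun δ v h s d0 d1 hv hd hh => ?_⟩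
  have hm : Measurable fun x : E2 => ∫⁻ t in Ioo 0 (1 / 2), AE_B δ h t (x - t • v x) :=
    (AE_m2 δ hh hv.2.continuous).lintegral_prod_right'
  have h1 := mul_meas_ge_le_lintegral₀ (μ := volume)
    (hm.const_mul (12 * ENNReal.ofReal δ)).aemeasurable (s ^ 2)
  refine le_trans (mul_le_mul_right (measure_mono fun x hx => ?_) _) (h1.trans ?_)
  · exact (pow_le_pow_left' hx 2).trans (AE_pt d0 d1 hv hh x)
  · rw [lintegral_const_mul' _ _ (by finiteness), ENNReal.ofReal_pow d0.le]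
    refine (mul_le_mul_right (AE_int δ hv hd hh) _).trans_eq ?_
    ring

end Vale.Agent.P112
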