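import Vale.Agent.P112.ADefs
import Vale.Agent.P112.RN

/-! The weak bound for the far part (Schur test). -/

namespace Vale.Agent.P112

open MeasureTheory Set
open scoped ENNReal

/-- the kernel of the Schur test -/
noncomputable def AF_k (t ρ : ℝ) : ℝ≥0∞ :=
  if |t - ρ| < ρ then
    ENNReal.ofReal |t - ρ| ^ (-(1 / 2) : ℝ) * ENNReal.ofReal (ρ ^ (-(1 / 2) : ℝ)) else 0

theorem AF_km : Measurable fun p : ℝ × ℝ => AF_k p.1 p.2 :=
  Measurable.ite (measurableSet_lt (by fun_prop) measurable_snd)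
    (Measurable.mul (Measurable.pow_const (by fun_prop) _) (by fun_prop)) measurable_const

theorem AF_ki {ρ : ℝ} (hρ : 0 ≤ ρ) : ∫⁻ t in Ioo 0 (1 / 2), AF_k t ρ ≤ 4 := by
  rcases hρ.eq_or_lt with rfl | hρ
  · have e : ∀ t : ℝ, AF_k t 0 = 0 := fun t => if_neg (not_lt.2 (abs_nonneg (t - 0)))
    simp [e]
  have hI : MeasurableSet {t : ℝ | |t - ρ| < ρ} := measurableSet_lt (by fun_prop) measurable_const
  have e : (fun t => AF_k t ρ) =ᵐ[volume] {t : ℝ | |t - ρ| < ρ}.indicator fun t =>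
      ENNReal.ofReal (|t - ρ| ^ (-(1 / 2) : ℝ)) * ENNReal.ofReal (ρ ^ (-(1 / 2) : ℝ)) :=
    (Measure.ae_ne volume ρ).mono fun t ht => by
      simp only [AF_k, indicator, mem_ofPred_eq,
        ENNReal.ofReal_rpow_of_pos (abs_pos.2 (sub_ne_zero.2 ht))]
  refine (setLIntegral_le_lintegral _ _).trans ?_
  rw [lintegral_congr_ae e, lintegral_indicator hI, lintegral_mul_const' _ _ ENNReal.ofReal_ne_top]
  refine (mul_le_mul_left (RN_w1 hρ ρ hI fun t ht => ht) _).trans_eq ?_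
  rw [← ENNReal.ofReal_mul (by positivity), mul_assoc, ← Real.rpow_add hρ]
  norm_num

theorem AF_a {r : ℝ} (hr : 0 < r) :
    ∫⁻ t in Ioo (5 * r / 2) (1 / 2), ENNReal.ofReal (t ^ (-(3 / 2) : ℝ)) ≤
      2 * ENNReal.ofReal r ^ (-(1 / 2) : ℝ) := by
  refine (lintegral_mono_set (t := Ioi r) fun t ht => lt_trans (by linarith) ht.1).trans_eq ?_
  rw [← ofReal_integral_eq_lintegral_ofReal (integrableOn_Ioi_rpow_of_lt (by norm_num) hr)
    ((ae_restrict_mem measurableSet_Ioi).mono fun t ht => Real.rpow_nonneg (hr.trans ht).le _),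
    integral_Ioi_rpow_of_lt (by norm_num) hr, ENNReal.ofReal_rpow_of_pos hr,
    ← ENNReal.ofReal_ofNat 2, ← ENNReal.ofReal_mul (by norm_num),
    show (-(3 / 2) + 1 : ℝ) = -(1 / 2) by norm_num]
  exact congrArg _ (by ring)

theorem AF_c {r t ρ : ℝ} (hr : 0 < r) (ht : 5 * r / 2 < t) (h : |t - ρ| ≤ r) :
    ENNReal.ofReal r ^ (-(1 / 2) : ℝ) * ENNReal.ofReal (t ^ (-(1 / 2) : ℝ)) ≤ 2 * AF_k t ρ := by
  have h1 := abs_le.1 h
  have h2 : 0 < ρ := by linarith [h1.2]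
  rw [AF_k, if_pos (h.trans_lt (by linarith [h1.2])), mul_left_comm]
  refine mul_le_mul' ?_ ?_
  · rw [ENNReal.rpow_neg, ENNReal.rpow_neg]
    exact ENNReal.inv_le_inv.2 (ENNReal.rpow_le_rpow (ENNReal.ofReal_le_ofReal h) (by norm_num))
  · rw [← ENNReal.ofReal_ofNat 2, ← ENNReal.ofReal_mul (by norm_num)]
    refine ENNReal.ofReal_le_ofReal ((Real.rpow_le_rpow_of_nonpos (x := ρ / 4) (by positivity)
      (by linarith [h1.1]) (by norm_num)).trans_eq ?_)
    have h3 : (4 : ℝ) ^ (1 / 2 : ℝ) = 2 := by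
      rw [← Real.sqrt_eq_rpow, show (4 : ℝ) = 2 ^ 2 by norm_num, Real.sqrt_sq (by norm_num)]
    rw [Real.div_rpow h2.le (by norm_num), Real.rpow_neg (x := 4) (by norm_num), h3]
    ring

theorem AF_pt {v : E2 → E2} (hv : UnitLip v) {f : E2 → ℂ} (hf : Continuous f) {x : E2}
    (hx : x ≠ 0) : FF v f x ^ 2 ≤
      4 * ∫⁻ t in Ioo 0 (1 / 2), AF_k t ‖x - t • v x‖ * ‖f (x - t • v x)‖ₑ ^ 2 := by
  have h0 := norm_pos_iff.2 hx
  have m1 : Measurable fun t : ℝ => ‖f (x - t • v x)‖ₑ ^ 2 :=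
    (Continuous.measurable (by fun_prop : Continuous fun t : ℝ => f (x - t • v x))).enorm.pow_const 2
  have h1 := RN_cs (μ := volume.restrict (Ioo (5 * ‖x‖ / 2) (1 / 2)))
    (F := fun t => ‖f (x - t • v x)‖ₑ * ENNReal.ofReal t⁻¹)
    (a := fun t => ENNReal.ofReal (t ^ (-(3 / 2) : ℝ)))
    (b := fun t => ENNReal.ofReal (t ^ (-(1 / 2) : ℝ)) * ‖f (x - t • v x)‖ₑ ^ 2)
    (by fun_prop) (Measurable.mul (by fun_prop) m1)
    ((ae_restrict_mem measurableSet_Ioo).mono fun t ht => by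
      have t0 : 0 < t := lt_trans (by positivity) ht.1
      rw [← mul_assoc, ← ENNReal.ofReal_mul (by positivity), mul_pow, mul_comm,
        ← ENNReal.ofReal_pow (by positivity), ← Real.rpow_add t0, ← Real.rpow_neg_one,
        ← Real.rpow_natCast, ← Real.rpow_mul t0.le]
      norm_num)
  refine (h1.trans (mul_le_mul_left (AF_a h0) _)).trans ?_
  have hne : ENNReal.ofReal ‖x‖ ^ (-(1 / 2) : ℝ) ≠ ∞ := by
    rw [ENNReal.ofReal_rpow_of_pos h0]
    exact ENNReal.ofReal_ne_top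
  rw [mul_assoc, ← lintegral_const_mul' _ _ hne, show (4 : ℝ≥0∞) = 2 * 2 by norm_num, mul_assoc,
    ← lintegral_const_mul' 2 (fun t => AF_k t _ * _) (by simp)]
  refine mul_le_mul_right ((setLIntegral_mono' measurableSet_Ioo fun t ht => ?_).trans
    (lintegral_mono_set (Ioo_subset_Ioo (by positivity) le_rfl))) _
  have t0 : 0 < t := lt_trans (by positivity) ht.1
  rw [← mul_assoc, ← mul_assoc]
  refine mul_le_mul_left (AF_c h0 ht.1 ?_) _
  have := abs_norm_sub_norm_le (t • v x) (t • v x - x)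
  rwa [sub_sub_cancel, norm_sub_rev, norm_smul, hv.1 x, mul_one, Real.norm_of_nonneg t0.le] at this

theorem AF_m1 {f : E2 → ℂ} (hf : Continuous f) :
    Measurable fun p : E2 × ℝ => AF_k p.2 ‖p.1‖ * ‖f p.1‖ₑ ^ 2 := by
  have h1 : Measurable fun p : E2 × ℝ => AF_k p.2 ‖p.1‖ :=
    AF_km.comp (f := fun p : E2 × ℝ => (p.2, ‖p.1‖)) (measurable_snd.prodMk measurable_fst.norm)
  have h2 : Measurable fun p : E2 × ℝ => f p.1 := hf.measurable.comp measurable_fst
  exact h1.mul (h2.enorm.pow_const 2)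

theorem AF_m2 {v : E2 → E2} (hv : Continuous v) {f : E2 → ℂ} (hf : Continuous f) :
    Measurable fun p : E2 × ℝ => AF_k p.2 ‖p.1 - p.2 • v p.1‖ * ‖f (p.1 - p.2 • v p.1)‖ₑ ^ 2 :=
  (AF_m1 hf).comp (f := fun p : E2 × ℝ => (p.1 - p.2 • v p.1, p.2))
    (Continuous.measurable (by fun_prop))

theorem AF_int {v : E2 → E2} (hv : UnitLip v) (hd : Differentiable ℝ v) {f : E2 → ℂ}
    (hf : Continuous f) :
    ∫⁻ x, ∫⁻ t in Ioo 0 (1 / 2), AF_k t ‖x - t • v x‖ * ‖f (x - t • v x)‖ₑ ^ 2 ≤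
      2 * (4 * ∫⁻ x, ‖f x‖ₑ ^ 2) := by
  rw [lintegral_lintegral_swap (AF_m2 hv.2.continuous hf).aemeasurable]
  refine (setLIntegral_mono' measurableSet_Ioo
    (g := fun t => 2 * ∫⁻ y, AF_k t ‖y‖ * ‖f y‖ₑ ^ 2) fun t ht => ?_).trans ?_
  · have t1 : |t| < 1 / 2 := by
      rw [abs_of_pos ht.1]
      exact ht.2
    refine le_trans ?_ (mul_le_mul_right (jac_bound hv hd (t := t) (by linarith)
      fun y => AF_k t ‖y‖ * ‖f y‖ₑ ^ 2) 2)
    rw [← mul_assoc]
    refine le_mul_of_one_le_left' ((ENNReal.one_le_ofReal.2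
      (show 1 ≤ 2 * (1 - |t|) by linarith)).trans_eq ?_)
    rw [ENNReal.ofReal_mul zero_le_two, ENNReal.ofReal_ofNat]
  · rw [lintegral_const_mul' _ _ (by simp), ← lintegral_lintegral_swap (AF_m1 hf).aemeasurable,
      ← lintegral_const_mul' 4 _ (by simp)]
    refine mul_le_mul_right (lintegral_mono fun y => ?_) _
    rw [lintegral_mul_const' _ _ (by simp)]
    exact mul_le_mul_left (AF_ki (norm_nonneg y)) _

theorem f_weak : F_weak := by
  refine ⟨4 * (2 * 4), by finiteness, fun v f s hv hd hf => ?_⟩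
  have hm : Measurable fun x : E2 =>
      ∫⁻ t in Ioo 0 (1 / 2), AF_k t ‖x - t • v x‖ * ‖f (x - t • v x)‖ₑ ^ 2 :=
    (AF_m2 hv.2.continuous hf).lintegral_prod_right'
  have h1 := mul_meas_ge_le_lintegral₀ (μ := volume) (hm.const_mul 4).aemeasurable (s ^ 2)
  refine le_trans (mul_le_mul_right (measure_mono_ae
    ((Measure.ae_ne volume (0 : E2)).mono fun x h0 hx => ?_)) _) (h1.trans ?_)
  · exact (pow_le_pow_left' hx 2).trans (AF_pt hv hf h0)
  · rw [lintegral_const_mul' _ _ (by simp), mul_assoc, mul_assoc]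
    exact mul_le_mul_right (AF_int hv hd hf) _

end Vale.Agent.P112
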