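import Vale.Agent.P112.AMain
import Vale.Agent.P112.ADefs2

namespace Vale.Agent.P112

open MeasureTheory Set Filter Topology
open scoped ENNReal

theorem af_conv {s : ℝ} {V C T : ℝ≥0∞} (hs : 0 < s) (hC : C ≠ ∞)
    (h : ENNReal.ofReal s ^ 2 * V ≤ C * T) : V ≤ ENNReal.ofReal (C.toReal * (s ^ 2)⁻¹) * T := by
  rw [← ENNReal.ofReal_pow hs.le] at h
  have h2 : ENNReal.ofReal ((s ^ 2)⁻¹) * ENNReal.ofReal (s ^ 2) = 1 := by
    rw [← ENNReal.ofReal_mul (by positivity), inv_mul_cancel₀ (by positivity), ENNReal.ofReal_one]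
  calc V = ENNReal.ofReal ((s ^ 2)⁻¹) * (ENNReal.ofReal (s ^ 2) * V) := by
        rw [← mul_assoc, h2, one_mul]
    _ ≤ ENNReal.ofReal ((s ^ 2)⁻¹) * (C * T) := mul_le_mul_right h _
    _ = _ := by
        rw [ENNReal.ofReal_mul ENNReal.toReal_nonneg, ENNReal.ofReal_toReal hC]; ring

/-- the right-hand side for the centre zero -/
noncomputable def TT (δ : ℝ) (f : E2 → ℂ) : ℝ≥0∞ :=
  ENNReal.ofReal (Real.log δ⁻¹ ^ 2) * (∫⁻ x, ‖f x‖ₑ ^ 2) + ENNReal.ofReal (δ ^ 2) *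
    ∫⁻ y, (‖Ang 0 f y‖ₑ * ENNReal.ofReal (1 + ‖y‖)⁻¹) ^ 2

theorem af_le {δ : ℝ} (hδ : 0 < δ) (hδ1 : δ ≤ 1 / 8) (f : E2 → ℂ) :
    ∫⁻ x, ‖f x‖ₑ ^ 2 ≤ TT δ f := by
  refine le_trans ?_ le_self_add
  refine le_mul_of_one_le_left' (ENNReal.one_le_ofReal.2 ?_)
  have a1 : (8 : ℝ) ≤ δ⁻¹ := by rw [le_inv_comm₀ (by norm_num) hδ]; linarith
  have a2 : 1 ≤ Real.log δ⁻¹ := by
    rw [Real.le_log_iff_exp_le (by positivity)]
    linarith [Real.exp_one_lt_d9]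
  nlinarith

theorem af_half : ∃ C : ℝ, 0 ≤ C ∧ ∀ (δ : ℝ) (v : E2 → E2) (f : SchwartzMap E2 ℂ) (lam : ℝ),
    0 < δ → δ ≤ 1 / 8 → UnitLip v → Differentiable ℝ v → 0 < lam →
    volume {x | lam < ‖∫ t in (0 : ℝ)..(1 / 2), kk f x (v x) t‖} ≤
      ENNReal.ofReal (C * (lam ^ 2)⁻¹) * TT δ f := by
  obtain ⟨C, hC, h⟩ := am_half
  refine ⟨7200 * C.toReal, by positivity, fun δ v f lam h0 h1 hv hd hl => ?_⟩
  have hv' : UnitLip fun y => -v y := ⟨fun x => by rw [norm_neg, hv.1 x], hv.2.neg⟩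
  have hm : 0 < lam / 60 := by positivity
  have k1 := h δ v f _ h0 h1 hv hd hm
  have k2 := h δ _ f _ h0 h1 hv' hd.neg hm
  have hsub : {x | lam < ‖∫ t in (0 : ℝ)..(1 / 2), kk f x (v x) t‖} ⊆
      {x | 0 ≤ inner ℝ x (v x) ∧ 60 * (lam / 60) < ‖∫ t in (0 : ℝ)..(1 / 2), kk f x (v x) t‖} ∪
      {x | 0 ≤ inner ℝ x (-v x) ∧ 60 * (lam / 60) < ‖∫ t in (0 : ℝ)..(1 / 2), kk f x (-v x) t‖} := by
    intro x hx
    have hx' : lam < ‖∫ t in (0 : ℝ)..(1 / 2), kk f x (v x) t‖ := hx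
    rcases le_total 0 (inner ℝ x (v x)) with h0 | h0
    · exact Or.inl ⟨h0, by linarith⟩
    · exact Or.inr ⟨by rw [inner_neg_right]; linarith, by rw [rf_neg]; linarith⟩
  refine (measure_mono hsub).trans ((measure_union_le _ _).trans ?_)
  refine (add_le_add (af_conv hm hC k1) (af_conv hm hC k2)).trans ?_
  rw [← add_mul, ← ENNReal.ofReal_add (by positivity) (by positivity)]
  apply le_of_eq
  unfold TT
  congr 2
  field_simp
  ring

theorem af_any {a : ℝ} (ha : 0 < a) (ha1 : a ≤ 1) : ∃ C : ℝ, ∀ (δ : ℝ) (v : E2 → E2)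
    (f : SchwartzMap E2 ℂ) (lam : ℝ), 0 < δ → δ ≤ 1 / 8 → UnitLip v → Differentiable ℝ v →
    0 < lam → volume {x | lam < ‖∫ t in (0 : ℝ)..a, kk f x (v x) t‖} ≤
      ENNReal.ofReal (C * (lam ^ 2)⁻¹) * TT δ f := by
  obtain ⟨C, hC, h⟩ := af_half
  refine ⟨4 * C + 4 * (8 * KK.toReal ^ 2 * ((min (1 / 2) a) ^ 2)⁻¹),
    fun δ v f lam h0 h1 hv hd hl => ?_⟩
  obtain ⟨L, hL⟩ := schw_lip f
  have hl2 : 0 < lam / 2 := by positivity
  have hm : 0 < min (1 / 2) a := lt_min (by norm_num) ha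
  have hsub : {x | lam < ‖∫ t in (0 : ℝ)..a, kk f x (v x) t‖} ⊆
      {x | lam / 2 < ‖∫ t in (0 : ℝ)..(1 / 2), kk f x (v x) t‖} ∪
      {x | lam / 2 < ‖∫ t in (min (1 / 2) a)..(max (1 / 2) a), kk f x (v x) t‖} := by
    intro x hx
    have hx' : lam < ‖∫ t in (0 : ℝ)..a, kk f x (v x) t‖ := hx
    by_contra hc
    simp only [mem_union, mem_ofPred_eq, not_or, not_lt] at hc
    obtain ⟨h1, h2⟩ := hc
    rw [← intervalIntegral.integral_add_adjacent_intervals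
      (kk_int hL x _ (hv.1 x) 0 (1 / 2)) (kk_int hL x _ (hv.1 x) (1 / 2) a)] at hx'
    rw [intervalIntegral.norm_integral_min_max] at h2
    linarith [norm_add_le (∫ t in (0 : ℝ)..(1 / 2), kk f x (v x) t)
      (∫ t in (1 / 2)..a, kk f x (v x) t)]
  refine (measure_mono hsub).trans ((measure_union_le _ _).trans ?_)
  have k2 := tail_weak hv hd f hm min_le_max (max_le (by norm_num) ha1) hl2
  rw [ENNReal.ofReal_mul (by positivity), ← schw_sq] at k2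
  refine (add_le_add (h δ v f _ h0 h1 hv hd hl2)
    (k2.trans (mul_le_mul_right (af_le h0 h1 f) _))).trans ?_
  rw [← add_mul, ← ENNReal.ofReal_add (by positivity) (by positivity)]
  apply le_of_eq
  congr 2
  field_simp
  ring

theorem ang_bound {a : ℝ} (ha : 0 < a) (ha1 : a ≤ 1) :
    ∃ C : ℝ, ∀ v : E2 → E2, UnitLip v → AngBound v a C := by
  obtain ⟨C, h⟩ := af_any ha ha1
  refine ⟨C, fun v hv f c δ lam h0 h1 hl => ?_⟩
  let g : SchwartzMap E2 ℂ := f.compSubConstCLM ℝ (-c)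
  have hg : ∀ x, g x = f (x + c) := fun x => by
    simp only [g, SchwartzMap.compSubConstCLM_apply, sub_neg_eq_add]
  have hv' : UnitLip fun x => v (x + c) := ⟨fun x => hv.1 _, by
    simpa [Function.comp_def] using hv.2.comp (isometry_add_right c).lipschitz⟩
  have k1 := rf_smooth hv' g a lam fun w hw hd => h δ w g lam h0 h1 hw hd hl
  have hI : ∫⁻ x, ‖g x‖ₑ ^ 2 = ∫⁻ x, ‖f x‖ₑ ^ 2 := by
    simp only [hg]
    exact lintegral_add_right_eq_self (fun x => ‖f x‖ₑ ^ 2) c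
  have hA : ∀ y, Ang 0 g y = Ang c f (y + c) := fun y => by
    have e : (g : E2 → ℂ) = fun x => f (x + c) := funext hg
    unfold Ang
    rw [e, fderiv_comp_add_right, sub_zero, add_sub_cancel_right]
  have hI2 : ∫⁻ y, (‖Ang 0 g y‖ₑ * ENNReal.ofReal (1 + ‖y‖)⁻¹) ^ 2 =
      ∫⁻ y, (‖Ang c f y‖ₑ * ENNReal.ofReal (1 + ‖y - c‖)⁻¹) ^ 2 := by
    rw [← lintegral_add_right_eq_self
      (fun y => (‖Ang c f y‖ₑ * ENNReal.ofReal (1 + ‖y - c‖)⁻¹) ^ 2) c]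
    simp only [hA, add_sub_cancel_right]
  unfold TT at k1
  rw [hI, hI2] at k1
  rw [← measure_preimage_add_right volume c]
  refine le_trans (measure_mono fun x hx => ?_) k1
  have hx' : lam < ‖Hpv v a f (x + c)‖ := hx
  rw [hpv_eq f v ha _ (hv.1 _)] at hx'
  have e : kk f (x + c) (v (x + c)) = kk g x (v (x + c)) := by
    funext t; unfold kk; rw [hg, hg, add_sub_right_comm, add_right_comm]
  rw [e] at hx'
  exact hx'

end Vale.Agent.P112
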