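import Vale.Agent.P112.ADefs
import Vale.Agent.P112.RN

/-! The weak bound for the middle range of the angular estimate (Schur test). -/

namespace Vale.Agent.P112

open MeasureTheory Set
open scoped ENNReal

theorem AM_log {a K : ℝ} (ha : 0 ≤ a) (hK : 1 ≤ K) {I : Set ℝ} (hI : I ⊆ Ioo a (K * a)) :
    ∫⁻ t in I, ENNReal.ofReal t⁻¹ ≤ ENNReal.ofReal (Real.log K) := by
  refine (lintegral_mono_set hI).trans ?_
  rcases ha.eq_or_lt with rfl | ha
  · simp
  have hab : a ≤ K * a := le_mul_of_one_le_left ha.le hK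
  have h0 : (0 : ℝ) ∉ uIcc a (K * a) := by
    rw [uIcc_of_le hab]
    exact fun h => absurd h.1 (not_le.2 ha)
  have h1 : IntervalIntegrable (fun x : ℝ => x⁻¹) volume a (K * a) :=
    intervalIntegral.intervalIntegrable_inv (fun x hx h => h0 (h ▸ hx)) continuousOn_id
  rw [← ofReal_integral_eq_lintegral_ofReal
    ((intervalIntegrable_iff_integrableOn_Ioo_of_le hab).1 h1)
    ((ae_restrict_mem measurableSet_Ioo).mono fun t ht => inv_nonneg.2 (ha.trans ht.1).le),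
    ← integral_Ioc_eq_integral_Ioo, ← intervalIntegral.integral_of_le hab, integral_inv h0,
    mul_div_cancel_right₀ _ ha.ne']

theorem AM_min {r t : ℝ} (hr : 0 ≤ r) (h1 : t < r / 3) (h2 : t < 1 / 2) : t < r / (1 + r) := by
  rw [lt_div_iff₀ (by positivity)]
  rcases le_total r 2 with h | h
  · rcases le_total t 0 with h3 | h3
    · nlinarith
    · nlinarith
  · nlinarith

/-- the kernel of the Schur test -/
noncomputable def AM_k (δ t ρ : ℝ) : ℝ≥0∞ :=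
  if δ ^ 2 * (ρ / (1 + ρ)) < t ∧ t < ρ / 3 then ENNReal.ofReal t⁻¹ else 0

theorem AM_km (δ : ℝ) : Measurable fun p : ℝ × ℝ => AM_k δ p.1 p.2 :=
  Measurable.ite ((measurableSet_lt (by fun_prop) measurable_fst).inter
    (measurableSet_lt measurable_fst (by fun_prop))) (by fun_prop) measurable_const

theorem AM_ki {δ ρ : ℝ} (h0 : 0 < δ) (h1 : δ ≤ 1 / 8) (hρ : 0 ≤ ρ) :
    ∫⁻ t in Ioo 0 (1 / 2), AM_k δ t ρ ≤ 2 * ENNReal.ofReal (Real.log δ⁻¹) := by
  have hK : 1 ≤ δ⁻¹ := (one_le_inv₀ h0).2 (by linarith)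
  have e : (fun t => AM_k δ t ρ) = (Ioo (δ ^ 2 * (ρ / (1 + ρ))) (ρ / 3)).indicator fun t =>
      ENNReal.ofReal t⁻¹ := funext fun t => by
    simp only [AM_k, indicator, mem_Ioo]
  rw [e, lintegral_indicator measurableSet_Ioo, Measure.restrict_restrict measurableSet_Ioo]
  refine (AM_log (a := δ ^ 2 * (ρ / (1 + ρ))) (K := δ⁻¹ ^ 2) (by positivity)
    (one_le_pow₀ hK) fun t ht => ⟨ht.1.1, ?_⟩).trans_eq ?_
  · rw [← mul_assoc, ← mul_pow, inv_mul_cancel₀ h0.ne', one_pow, one_mul]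
    exact AM_min hρ ht.1.2 ht.2.2
  · rw [Real.log_pow, ENNReal.ofReal_mul (by positivity)]
    simp

theorem AM_pt {δ : ℝ} (h0 : 0 < δ) (h1 : δ ≤ 1 / 8) {v : E2 → E2} (hv : UnitLip v) {f : E2 → ℂ}
    (hf : Continuous f) (x : E2) :
    MM δ v f x ^ 2 ≤ ENNReal.ofReal (Real.log δ⁻¹) *
      ∫⁻ t in Ioo 0 (1 / 2), AM_k δ t ‖x - t • v x‖ * ‖f (x - t • v x)‖ₑ ^ 2 := by
  have hK : 1 ≤ δ⁻¹ := (one_le_inv₀ h0).2 (by linarith)
  have hb : 0 ≤ bb δ x := by
    rw [bb]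
    positivity
  have hx := norm_nonneg x
  have m1 : Measurable fun t : ℝ => ‖f (x - t • v x)‖ₑ ^ 2 :=
    (Continuous.measurable (by fun_prop : Continuous fun t : ℝ => f (x - t • v x))).enorm.pow_const 2
  have h2 := RN_cs (μ := volume.restrict (Ioo (bb δ x) (min (‖x‖ / 4) (1 / 2))))
    (F := fun t => ‖f (x - t • v x)‖ₑ * ENNReal.ofReal t⁻¹)
    (a := fun t => ENNReal.ofReal t⁻¹)
    (b := fun t => ENNReal.ofReal t⁻¹ * ‖f (x - t • v x)‖ₑ ^ 2)
    (by fun_prop) (Measurable.mul (by fun_prop) m1)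
    (Filter.Eventually.of_forall fun t => le_of_eq (by ring))
  have h3 := AM_log (I := Ioo (bb δ x) (min (‖x‖ / 4) (1 / 2))) hb hK fun t ht => ⟨ht.1, by
    have h4 := lt_min_iff.1 ht.2
    rw [bb, mul_div_assoc, ← mul_assoc, inv_mul_cancel₀ h0.ne', one_mul]
    exact AM_min hx (by linarith [h4.1]) h4.2⟩
  rw [MM]
  refine (h2.trans (mul_le_mul_left h3 _)).trans (mul_le_mul_right ?_ _)
  refine (setLIntegral_mono' measurableSet_Ioo fun t ht => ?_).trans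
    (lintegral_mono_set (Ioo_subset_Ioo hb (min_le_right _ _)))
  have t0 : 0 < t := hb.trans_lt ht.1
  have t1 := (lt_min_iff.1 ht.2).1
  have e : ‖t • v x‖ = t := by rw [norm_smul, hv.1 x, mul_one, Real.norm_of_nonneg t0.le]
  have h4 := norm_sub_le x (t • v x)
  have h5 := norm_sub_norm_le x (t • v x)
  rw [e] at h4 h5
  have hy := norm_nonneg (x - t • v x)
  have h7 : δ ^ 2 * (‖x - t • v x‖ / (1 + ‖x - t • v x‖)) ≤ bb δ x := by
    rw [bb, mul_div_assoc, sq, mul_assoc]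
    refine mul_le_mul_of_nonneg_left ?_ h0.le
    rw [← mul_div_assoc, div_le_div_iff₀ (by positivity) (by positivity)]
    have h6 : δ * ‖x - t • v x‖ ≤ 1 / 8 * ‖x - t • v x‖ := mul_le_mul_of_nonneg_right h1 hy
    nlinarith [mul_nonneg hx hy, mul_le_mul_of_nonneg_right h6 hx]
  rw [AM_k, if_pos ⟨h7.trans_lt ht.1, by linarith⟩]

theorem AM_m1 (δ : ℝ) {f : E2 → ℂ} (hf : Continuous f) :
    Measurable fun p : E2 × ℝ => AM_k δ p.2 ‖p.1‖ * ‖f p.1‖ₑ ^ 2 := by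
  have h1 : Measurable fun p : E2 × ℝ => AM_k δ p.2 ‖p.1‖ :=
    (AM_km δ).comp (f := fun p : E2 × ℝ => (p.2, ‖p.1‖)) (measurable_snd.prodMk measurable_fst.norm)
  have h2 : Measurable fun p : E2 × ℝ => f p.1 := hf.measurable.comp measurable_fst
  exact h1.mul (h2.enorm.pow_const 2)

theorem AM_m2 (δ : ℝ) {v : E2 → E2} (hv : Continuous v) {f : E2 → ℂ} (hf : Continuous f) :
    Measurable fun p : E2 × ℝ => AM_k δ p.2 ‖p.1 - p.2 • v p.1‖ * ‖f (p.1 - p.2 • v p.1)‖ₑ ^ 2 :=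
  (AM_m1 δ hf).comp (f := fun p : E2 × ℝ => (p.1 - p.2 • v p.1, p.2))
    (Continuous.measurable (by fun_prop))

theorem AM_int {δ : ℝ} (h0 : 0 < δ) (h1 : δ ≤ 1 / 8) {v : E2 → E2} (hv : UnitLip v)
    (hd : Differentiable ℝ v) {f : E2 → ℂ} (hf : Continuous f) :
    ∫⁻ x, ∫⁻ t in Ioo 0 (1 / 2), AM_k δ t ‖x - t • v x‖ * ‖f (x - t • v x)‖ₑ ^ 2 ≤
      2 * (2 * ENNReal.ofReal (Real.log δ⁻¹) * ∫⁻ x, ‖f x‖ₑ ^ 2) := by
  rw [lintegral_lintegral_swap (AM_m2 δ hv.2.continuous hf).aemeasurable]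
  refine (setLIntegral_mono' measurableSet_Ioo
    (g := fun t => 2 * ∫⁻ y, AM_k δ t ‖y‖ * ‖f y‖ₑ ^ 2) fun t ht => ?_).trans ?_
  · have t1 : |t| < 1 / 2 := by
      rw [abs_of_pos ht.1]
      exact ht.2
    refine le_trans ?_ (mul_le_mul_right (jac_bound hv hd (t := t) (by linarith)
      fun y => AM_k δ t ‖y‖ * ‖f y‖ₑ ^ 2) 2)
    rw [← mul_assoc]
    refine le_mul_of_one_le_left' ((ENNReal.one_le_ofReal.2
      (show 1 ≤ 2 * (1 - |t|) by linarith)).trans_eq ?_)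
    rw [ENNReal.ofReal_mul zero_le_two, ENNReal.ofReal_ofNat]
  · rw [lintegral_const_mul' _ _ (by simp), ← lintegral_lintegral_swap (AM_m1 δ hf).aemeasurable,
      ← lintegral_const_mul' (2 * ENNReal.ofReal (Real.log δ⁻¹)) _ (by finiteness)]
    refine mul_le_mul_right (lintegral_mono fun y => ?_) _
    rw [lintegral_mul_const' _ _ (by simp)]
    exact mul_le_mul_left (AM_ki h0 h1 (norm_nonneg y)) _

theorem m_weak : M_weak := by
  refine ⟨4, by finiteness, fun δ v f s h0 h1 hv hd hf => ?_⟩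
  have hL : 0 ≤ Real.log δ⁻¹ := Real.log_nonneg ((one_le_inv₀ h0).2 (by linarith))
  have hm : Measurable fun x : E2 =>
      ∫⁻ t in Ioo 0 (1 / 2), AM_k δ t ‖x - t • v x‖ * ‖f (x - t • v x)‖ₑ ^ 2 :=
    (AM_m2 δ hv.2.continuous hf).lintegral_prod_right'
  have h2 := mul_meas_ge_le_lintegral₀ (μ := volume)
    (hm.const_mul (ENNReal.ofReal (Real.log δ⁻¹))).aemeasurable (s ^ 2)
  refine le_trans (mul_le_mul_right (measure_mono fun x hx => ?_) _) (h2.trans ?_)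
  · exact (pow_le_pow_left' hx 2).trans (AM_pt h0 h1 hv hf x)
  · rw [lintegral_const_mul' _ _ ENNReal.ofReal_ne_top, ENNReal.ofReal_pow hL]
    refine (mul_le_mul_right (AM_int h0 h1 hv hd hf) _).trans_eq ?_
    ring

end Vale.Agent.P112
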