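import Vale.Agent.P112.ADefs

/-! The pointwise angular estimate. -/

namespace Vale.Agent.P112

open MeasureTheory Set
open scoped ENNReal

theorem AP_rot0 (ψ : ℝ) (y : E2) : rot ψ y 0 = Real.cos ψ * y 0 - Real.sin ψ * y 1 := by
  simp [rot, rot90]
  ring

theorem AP_rot1 (ψ : ℝ) (y : E2) : rot ψ y 1 = Real.cos ψ * y 1 + Real.sin ψ * y 0 := by
  simp [rot, rot90]

theorem AP_ext {p q : E2} (h0 : p 0 = q 0) (h1 : p 1 = q 1) : p = q := by
  ext i
  fin_cases i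
  · exact h0
  · exact h1

theorem AP_r90_0 (y : E2) : rot90 y 0 = -y 1 := by simp [rot90]

theorem AP_r90_1 (y : E2) : rot90 y 1 = y 0 := by simp [rot90]

theorem AP_sq (x : E2) : ‖x‖ ^ 2 = x 0 ^ 2 + x 1 ^ 2 := by
  rw [EuclideanSpace.real_norm_sq_eq]
  simp [Fin.sum_univ_two]

theorem AP_der (y : E2) (ψ : ℝ) : HasDerivAt (fun s => rot s y) (rot90 (rot ψ y)) ψ := by
  have h1 := ((Real.hasDerivAt_cos ψ).smul_const y).add
    ((Real.hasDerivAt_sin ψ).smul_const (rot90 y))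
  have e : rot90 (rot ψ y) = -Real.sin ψ • y + Real.cos ψ • rot90 y := by
    apply AP_ext
    · rw [AP_r90_0, AP_rot1]
      simp [AP_r90_0]
    · rw [AP_r90_1, AP_rot0]
      simp [AP_r90_1]
      ring
  rw [e]
  exact h1

theorem AP_cont (y : E2) : Continuous fun s => rot s y :=
  continuous_iff_continuousAt.2 fun s => (AP_der y s).continuousAt

theorem AP_cont90 (y : E2) : Continuous fun s => rot90 (rot s y) := by
  have e : (fun s => rot90 (rot s y)) = fun s => -Real.sin s • y + Real.cos s • rot90 y := by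
    funext ψ
    apply AP_ext
    · rw [AP_r90_0, AP_rot1]
      simp [AP_r90_0]
    · rw [AP_r90_1, AP_rot0]
      simp [AP_r90_1]
      ring
  rw [e]
  fun_prop

theorem AP_ftc (f : E2 → ℂ) (hf : ContDiff ℝ 1 f) (y : E2) (φ : ℝ) :
    ‖f y - f (rot φ y)‖ₑ ≤ ∫⁻ ψ in uIoc 0 φ, ‖Ang 0 f (rot ψ y)‖ₑ := by
  have hd : ∀ s, HasDerivAt (fun s => f (rot s y)) (Ang 0 f (rot s y)) s := by
    intro s
    have h1 : HasFDerivAt f (fderiv ℝ f (rot s y)) (rot s y) :=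
      ((hf.differentiable (by norm_num)) (rot s y)).hasFDerivAt
    have h2 := h1.comp_hasDerivAt s (AP_der y s)
    simpa [Ang, Function.comp_def] using h2
  have hc : Continuous fun s => Ang 0 f (rot s y) := by
    have h1 : Continuous (fderiv ℝ f) := hf.continuous_fderiv (by norm_num)
    have h2 := (h1.comp (AP_cont y)).clm_apply (AP_cont90 y)
    simpa [Ang, Function.comp_def] using h2
  have h3 := intervalIntegral.integral_eq_sub_of_hasDerivAt (a := 0) (b := φ)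
    (fun s _ => hd s) (hc.intervalIntegrable 0 φ)
  have e0 : rot 0 y = y := by simp [rot]
  rw [e0] at h3
  have e1 : ‖f y - f (rot φ y)‖ₑ = ‖∫ s in uIoc 0 φ, Ang 0 f (rot s y)‖ₑ := by
    rw [← ofReal_norm_eq_enorm, ← ofReal_norm_eq_enorm, norm_sub_rev, ← h3,
      intervalIntegral.norm_intervalIntegral_eq]
  rw [e1]
  exact enorm_integral_le_lintegral_enorm _

theorem AP_angle (x y : E2) (t : ℝ) (hx : x ≠ 0) (hyx : ‖y - x‖ ≤ t) (ht : t ≤ ‖x‖ / 8) :
    ∃ φ : ℝ, rot φ y = ‖y‖ • ‖x‖⁻¹ • x ∧ |φ| ≤ 5 / 2 * t / ‖x‖ := by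
  have ha : 0 < ‖x‖ := norm_pos_iff.2 hx
  have ht0 : 0 ≤ t := (norm_nonneg _).trans hyx
  have hb : 7 / 8 * ‖x‖ ≤ ‖y‖ := by
    have := norm_sub_norm_le x y
    rw [norm_sub_rev] at this
    linarith
  have hb0 : 0 < ‖y‖ := by linarith
  have hxs := AP_sq x
  have hys := AP_sq y
  have hds : (y 0 - x 0) ^ 2 + (y 1 - x 1) ^ 2 ≤ t ^ 2 := by
    have h1 := AP_sq (y - x)
    have h2 : ‖y - x‖ ^ 2 ≤ t ^ 2 := pow_le_pow_left₀ (norm_nonneg _) hyx 2
    rw [h1] at h2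
    simpa using h2
  set a := ‖x‖ with hadef
  set b := ‖y‖ with hbdef
  have hab : 0 < a * b := mul_pos ha hb0
  have hw : |y 0 * x 1 - y 1 * x 0| ≤ a * t := by
    apply abs_le_of_sq_le_sq' _ (mul_nonneg ha.le ht0) |> abs_le.2
    have e : (y 0 * x 1 - y 1 * x 0) ^ 2 =
        ((y 0 - x 0) ^ 2 + (y 1 - x 1) ^ 2) * (x 0 ^ 2 + x 1 ^ 2) -
          ((y 0 - x 0) * x 0 + (y 1 - x 1) * x 1) ^ 2 := by ring
    have h2 : ((y 0 - x 0) ^ 2 + (y 1 - x 1) ^ 2) * (x 0 ^ 2 + x 1 ^ 2) ≤ t ^ 2 * a ^ 2 := by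
      rw [← hxs]
      exact mul_le_mul_of_nonneg_right hds (sq_nonneg _)
    have h3 := sq_nonneg ((y 0 - x 0) * x 0 + (y 1 - x 1) * x 1)
    rw [e, mul_pow]
    linarith
  have hp : 0 ≤ x 0 * y 0 + x 1 * y 1 := by
    have h1 : t ^ 2 ≤ (a / 8) ^ 2 := pow_le_pow_left₀ ht0 ht 2
    have h2 : 0 ≤ b ^ 2 := sq_nonneg _
    have h3 : 0 ≤ a ^ 2 := sq_nonneg _
    nlinarith
  set z := (y 0 * x 1 - y 1 * x 0) / (a * b) with hz
  set c := (x 0 * y 0 + x 1 * y 1) / (a * b) with hc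
  have hc0 : 0 ≤ c := div_nonneg hp hab.le
  have hcz : c ^ 2 + z ^ 2 = 1 := by
    rw [hc, hz, div_pow, div_pow, ← add_div, div_eq_one_iff_eq (pow_ne_zero 2 hab.ne'), mul_pow,
      hxs, hys]
    ring
  have hz1 : |z| ≤ 1 := by
    apply abs_le_one_iff_mul_self_le_one.2
    nlinarith [sq_nonneg c]
  have hsin : Real.sin (Real.arcsin z) = z :=
    Real.sin_arcsin (abs_le.1 hz1).1 (abs_le.1 hz1).2
  have hcos : Real.cos (Real.arcsin z) = c := by
    rw [Real.cos_arcsin, show 1 - z ^ 2 = c ^ 2 by linarith, Real.sqrt_sq hc0]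
  refine ⟨Real.arcsin z, ?_, ?_⟩
  · apply AP_ext
    · rw [AP_rot0, hsin, hcos, hc, hz]
      simp only [PiLp.smul_apply, smul_eq_mul]
      field_simp
      rw [hys]
      ring
    · rw [AP_rot1, hsin, hcos, hc, hz]
      simp only [PiLp.smul_apply, smul_eq_mul]
      field_simp
      rw [hys]
      ring
  · have h1 : |Real.arcsin z| ≤ Real.pi / 2 :=
      abs_le.2 ⟨Real.neg_pi_div_two_le_arcsin z, Real.arcsin_le_pi_div_two z⟩
    have h2 := Real.mul_abs_le_abs_sin h1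
    rw [hsin] at h2
    have h3 : |z| ≤ 8 / 7 * t / a := by
      rw [hz, abs_div, abs_of_pos hab, div_le_div_iff₀ hab ha]
      have h4 : |y 0 * x 1 - y 1 * x 0| * a ≤ a * t * a := mul_le_mul_of_nonneg_right hw ha.le
      have h5 : 0 ≤ a * t := mul_nonneg ha.le ht0
      have h6 := mul_le_mul_of_nonneg_left hb h5
      nlinarith
    have h4 : 1 / 2 ≤ 2 / Real.pi := by
      rw [div_le_div_iff₀ (by norm_num) Real.pi_pos]
      linarith [Real.pi_le_four]
    have h5 : 1 / 2 * |Real.arcsin z| ≤ 2 / Real.pi * |Real.arcsin z| :=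
      mul_le_mul_of_nonneg_right h4 (abs_nonneg _)
    have h6 : 0 ≤ t / a := div_nonneg ht0 ha.le
    have e1 : 8 / 7 * t / a = 8 / 7 * (t / a) := by ring
    have e2 : 5 / 2 * t / a = 5 / 2 * (t / a) := by ring
    rw [e1] at h3
    rw [e2]
    linarith

theorem e_pt : E_pt := by
  intro f x y t hf hx hyx ht
  have ha : 0 < ‖x‖ := norm_pos_iff.2 hx
  have ht0 : 0 ≤ t := (norm_nonneg _).trans hyx
  rcases ht0.eq_or_lt with h0 | h0
  · have e : y = x := by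
      rw [← h0] at hyx
      exact sub_eq_zero.1 (norm_le_zero_iff.1 hyx)
    have e2 : ‖y‖ • ‖x‖⁻¹ • x = y := by
      rw [e, smul_smul, mul_inv_cancel₀ ha.ne', one_smul]
    rw [e2, sub_self, enorm_zero]
    exact zero_le
  · obtain ⟨φ, h1, h2⟩ := AP_angle x y t hx hyx ht
    rw [← h1]
    refine (AP_ftc f hf y φ).trans (lintegral_mono_set ?_)
    have h3 : 0 < t / ‖x‖ := div_pos h0 ha
    have e1 : 5 / 2 * t / ‖x‖ = 5 / 2 * (t / ‖x‖) := by ring
    have e2 : 3 * t / ‖x‖ = 3 * (t / ‖x‖) := by ring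
    rw [e1] at h2
    rw [e2]
    have h4 := abs_le.1 h2
    intro s hs
    rcases mem_uIoc.1 hs with h | h
    · exact ⟨by linarith [h.1], by linarith [h.2, h4.2]⟩
    · exact ⟨by linarith [h.1, h4.1], by linarith [h.2]⟩

end Vale.Agent.P112
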