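import Vale.Agent.P112.RDefs

/-! Polar coordinates and an antilipschitz measure bound. -/

namespace Vale.Agent.P112

open MeasureTheory Set
open scoped ENNReal

/-- the unit vector at angle `θ` -/
noncomputable def RP_u (θ : ℝ) : E2 :=
  Complex.orthonormalBasisOneI.repr (Real.cos θ + Real.sin θ * Complex.I)

theorem RP_norm (θ : ℝ) : ‖RP_u θ‖ = 1 := by
  unfold RP_u
  rw [LinearIsometryEquiv.norm_map]
  simp

theorem RP_cont : Continuous RP_u := by
  unfold RP_u
  exact Complex.orthonormalBasisOneI.repr.continuous.comp (by fun_prop)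

theorem RP_sq (H : ℝ → ℝ≥0∞) :
    ∫⁻ ρ in Ioi (0 : ℝ), H (Real.sqrt ρ) = 2 * ∫⁻ r in Ioi (0 : ℝ), ENNReal.ofReal r * H r := by
  have him : (fun r : ℝ => r ^ 2) '' Ioi 0 = Ioi 0 := by
    ext y
    constructor
    · rintro ⟨r, hr, rfl⟩
      exact pow_pos (mem_Ioi.1 hr) 2
    · intro hy
      exact ⟨Real.sqrt y, Real.sqrt_pos.2 hy, Real.sq_sqrt (le_of_lt hy)⟩
  have hinj : InjOn (fun r : ℝ => r ^ 2) (Ioi 0) := by
    intro a ha b hb hab
    exact (pow_left_inj₀ (le_of_lt ha) (le_of_lt hb) two_ne_zero).1 hab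
  have key := lintegral_image_eq_lintegral_abs_deriv_mul (s := Ioi (0 : ℝ))
    (f := fun r : ℝ => r ^ 2) (f' := fun r => 2 * r) measurableSet_Ioi
    (fun x _ => by
      have h := (hasDerivAt_pow 2 x).hasDerivWithinAt (s := Ioi (0 : ℝ))
      simpa using h) hinj (fun ρ => H (Real.sqrt ρ))
  rw [him] at key
  rw [key, ← lintegral_const_mul' _ _ (by norm_num)]
  refine setLIntegral_congr_fun measurableSet_Ioi (fun r hr => ?_)
  have hr' : (0 : ℝ) < r := hr
  rw [Real.sqrt_sq hr'.le, abs_of_pos (by positivity), ENNReal.ofReal_mul (by norm_num),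
    mul_assoc]
  simp

theorem RP_polar (g : E2 → ℝ≥0∞) (hg : Measurable g) :
    2 * ∫⁻ x, g x =
      ∫⁻ θ in Ioo (-Real.pi) Real.pi, ∫⁻ ρ in Ioi (0 : ℝ), g (Real.sqrt ρ • RP_u θ) := by
  have h1 : ∫⁻ x, g x = ∫⁻ z : ℂ, g (Complex.orthonormalBasisOneI.repr z) :=
    (Complex.orthonormalBasisOneI.measurePreserving_repr.lintegral_comp hg).symm
  have h2 := Complex.lintegral_comp_polarCoord_symm
    (fun z : ℂ => g (Complex.orthonormalBasisOneI.repr z))
  have e : ∀ p : ℝ × ℝ, Complex.orthonormalBasisOneI.repr (Complex.polarCoord.symm p) =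
      p.1 • RP_u p.2 := by
    intro p
    unfold RP_u
    rw [← map_smul, Complex.polarCoord_symm_apply, Complex.real_smul]
  simp only [e, smul_eq_mul] at h2
  have hm : Measurable (fun p : ℝ × ℝ => ENNReal.ofReal p.1 * g (p.1 • RP_u p.2)) := by
    refine (ENNReal.measurable_ofReal.comp measurable_fst).mul (hg.comp ?_)
    exact (continuous_fst.smul (RP_cont.comp continuous_snd)).measurable
  have ht : polarCoord.target = Ioi (0 : ℝ) ×ˢ Ioo (-Real.pi) Real.pi := rfl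
  rw [h1, ← h2, ht, Measure.volume_eq_prod, ← Measure.prod_restrict,
    lintegral_prod_symm _ hm.aemeasurable, ← lintegral_const_mul' _ _ (by norm_num)]
  refine lintegral_congr (fun θ => ?_)
  exact (RP_sq (fun r => g (r • RP_u θ))).symm

theorem RP_vol : volume (Ioo (-Real.pi) Real.pi) = 2 * ENNReal.ofReal Real.pi := by
  rw [Real.volume_Ioo, show Real.pi - -Real.pi = 2 * Real.pi by ring,
    ENNReal.ofReal_mul (by norm_num)]
  simp

theorem p_le : P_le := by
  intro g b hg hb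
  have h := RP_polar g hg
  have h2 : ∫⁻ θ in Ioo (-Real.pi) Real.pi, ∫⁻ ρ in Ioi (0 : ℝ), g (Real.sqrt ρ • RP_u θ) ≤
      ∫⁻ _θ in Ioo (-Real.pi) Real.pi, b := lintegral_mono (fun θ => hb _ (RP_norm θ))
  rw [setLIntegral_const, RP_vol, ← h] at h2
  have h4 : ENNReal.ofReal Real.pi ≤ 4 := by
    have := ENNReal.ofReal_le_ofReal Real.pi_le_four
    simpa using this
  have h5 : 2 * ∫⁻ x, g x ≤ 2 * (4 * b) := by
    refine h2.trans ?_
    calc b * (2 * ENNReal.ofReal Real.pi) ≤ b * (2 * 4) := by gcongr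
      _ = 2 * (4 * b) := by ring
  exact (ENNReal.mul_le_mul_iff_right (by norm_num) (by norm_num)).1 h5

theorem p_ge : P_ge := by
  intro G hG
  have hg : Measurable (fun x : E2 => G (‖x‖ ^ 2)) := hG.comp (by fun_prop)
  have h := RP_polar _ hg
  have e : ∀ θ : ℝ, ∫⁻ ρ in Ioi (0 : ℝ), G (‖Real.sqrt ρ • RP_u θ‖ ^ 2) =
      ∫⁻ ρ in Ioi (0 : ℝ), G ρ := by
    intro θ
    refine setLIntegral_congr_fun measurableSet_Ioi (fun ρ hρ => ?_)
    rw [norm_smul, RP_norm, mul_one, Real.norm_eq_abs, sq_abs, Real.sq_sqrt (le_of_lt hρ)]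
  simp only [e] at h
  rw [setLIntegral_const, RP_vol] at h
  have h1 : (1 : ℝ≥0∞) ≤ ENNReal.ofReal Real.pi := by
    have := ENNReal.ofReal_le_ofReal (show (1 : ℝ) ≤ Real.pi by linarith [Real.pi_gt_three])
    simpa using this
  have h5 : 2 * ∫⁻ ρ in Ioi (0 : ℝ), G ρ ≤ 2 * ∫⁻ x : E2, G (‖x‖ ^ 2) := by
    rw [h]
    calc 2 * ∫⁻ ρ in Ioi (0 : ℝ), G ρ = (∫⁻ ρ in Ioi (0 : ℝ), G ρ) * (2 * 1) := by ring
      _ ≤ _ := by gcongr
  exact (ENNReal.mul_le_mul_iff_right (by norm_num) (by norm_num)).1 h5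

theorem p_anti : P_anti := by
  intro S B D hD hB
  have hinj : InjOn D S := by
    intro p hp q hq hpq
    have h := hD p hp q hq
    rw [hpq, sub_self, abs_zero, mul_zero] at h
    exact sub_eq_zero.1 (abs_nonpos_iff.1 h)
  have hl : LipschitzOnWith 2 (Function.invFunOn D S) (D '' S) := by
    refine LipschitzOnWith.of_dist_le_mul ?_
    rintro _ ⟨p, hp, rfl⟩ _ ⟨q, hq, rfl⟩
    rw [hinj.leftInvOn_invFunOn hp, hinj.leftInvOn_invFunOn hq, Real.dist_eq, Real.dist_eq]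
    simpa using hD p hp q hq
  have h := hl.hausdorffMeasure_image_le (d := 1) zero_le_one
  rw [hinj.invFunOn_image subset_rfl, hausdorffMeasure_real] at h
  have hs : D '' S ⊆ B := by
    rintro _ ⟨p, hp, rfl⟩
    exact hB p hp
  refine h.trans ?_
  have h2 : ((2 : NNReal) : ℝ≥0∞) ^ (1 : ℝ) = 2 := by simp
  rw [h2]
  exact mul_le_mul_right (measure_mono hs) 2

end Vale.Agent.P112
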