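import Vale.Agent.P112.ADefs
import Vale.Agent.P112.RP

/-! Polar comparison, integrability along rays, measurability of the transform. -/

namespace Vale.Agent.P112

open MeasureTheory Set
open scoped ENNReal

theorem p_cmp : P_cmp := by
  intro g1 g2 K h1 h2 h
  have hm : Measurable fun θ : ℝ => ∫⁻ ρ in Ioi (0 : ℝ), g2 (Real.sqrt ρ • RP_u θ) := by
    refine Measurable.lintegral_prod_right (f := fun θ ρ : ℝ => g2 (Real.sqrt ρ • RP_u θ))
      (h2.comp (Continuous.measurable ?_))
    exact (Real.continuous_sqrt.comp continuous_snd).smul (RP_cont.comp continuous_fst)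
  have h5 : 2 * ∫⁻ x, g1 x ≤ 2 * (K * ∫⁻ x, g2 x) := by
    rw [mul_left_comm, RP_polar g1 h1, RP_polar g2 h2, ← lintegral_const_mul K hm]
    exact lintegral_mono fun θ => h _ (RP_norm θ)
  exact (ENNReal.mul_le_mul_iff_right (by norm_num) (by norm_num)).1 h5

theorem AQ_abs {G : ℝ → ℝ≥0∞} (hG : Measurable G) :
    ∫⁻ ρ, G |ρ| ≤ 2 * ∫⁻ ρ in Ioi (0 : ℝ), G ρ := by
  have h1 : ∀ ρ, G |ρ| ≤ (Ici (0 : ℝ)).indicator G ρ + (Ici (0 : ℝ)).indicator G (-ρ) := by
    intro ρ
    rcases le_total 0 ρ with h | h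
    · rw [abs_of_nonneg h, indicator_of_mem (by exact h)]; exact le_self_add
    · rw [abs_of_nonpos h, indicator_of_mem (a := -ρ) (by rw [mem_Ici]; linarith)]
      exact le_add_self
  refine (lintegral_mono h1).trans ?_
  rw [lintegral_add_left (hG.indicator measurableSet_Ici), lintegral_neg_eq_self,
    lintegral_indicator measurableSet_Ici, ← two_mul, ← setLIntegral_congr Ioi_ae_eq_Ici]

theorem r_int : R_int := by
  intro f u hu
  have hfc := f.continuous
  have hc : Continuous fun ρ : ℝ => f (Real.sqrt ρ • u) := by fun_prop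
  refine ⟨?_, AQ_abs (G := fun ρ => ‖f (Real.sqrt ρ • u)‖ₑ ^ 2)
    (hc.measurable.enorm.pow_const 2)⟩
  obtain ⟨C0, -, h0⟩ := f.decay 0 0
  obtain ⟨C4, -, h4⟩ := f.decay 4 0
  refine Integrable.mono' (integrable_inv_one_add_sq.const_mul (C0 + C4))
    (Continuous.aestronglyMeasurable (by fun_prop)) (Filter.Eventually.of_forall fun ρ => ?_)
  have a0 := h0 (Real.sqrt |ρ| • u)
  have a4 := h4 (Real.sqrt |ρ| • u)
  have e : ‖Real.sqrt |ρ| • u‖ ^ 4 = ρ ^ 2 := by
    rw [norm_smul, hu, mul_one, Real.norm_of_nonneg (Real.sqrt_nonneg _),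
      show 4 = 2 * 2 from rfl, pow_mul, Real.sq_sqrt (abs_nonneg ρ), sq_abs]
  rw [norm_iteratedFDeriv_zero] at a0 a4
  rw [pow_zero, one_mul] at a0
  rw [e] at a4
  rw [← div_eq_mul_inv, le_div_iff₀ (by positivity)]
  linarith

theorem g_meas : G_meas := by
  intro f v a hf hv
  have hm : StronglyMeasurable (Function.uncurry fun (x : E2) (t : ℝ) => kk f x (v x) t) := by
    refine Measurable.stronglyMeasurable (Measurable.div (Continuous.measurable ?_)
      (Complex.measurable_ofReal.comp measurable_snd))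
    fun_prop
  exact (hm.integral_prod_right.sub hm.integral_prod_right).measurable

end Vale.Agent.P112
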