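import Vale.Agent.P112.Defs

/-! The weak bound restricted to radial inputs. -/

namespace Vale.Agent.P112

open MeasureTheory

/-- `f` is radial about some centre. -/
def Radial (f : E2 → ℂ) : Prop :=
  ∃ c : E2, ∀ x y : E2, ‖x - c‖ = ‖y - c‖ → f x = f y

/-- The weak (2,2) bound with constant `C` for the field `v` at truncation length `a`, for all
radial Schwartz inputs. -/
def RadBound (v : E2 → E2) (a C : ℝ) : Prop :=
  ∀ (f : SchwartzMap E2 ℂ), Radial f → ∀ lam : ℝ, 0 < lam →
    volume {x : E2 | lam < ‖Hpv v a f x‖} ≤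
      ENNReal.ofReal (C * (lam ^ 2)⁻¹ * ∫ x, ‖f x‖ ^ 2)

end Vale.Agent.P112
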