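import Vale.Agent.P112.RMain
import Vale.Agent.P112.RDefs2

namespace Vale.Agent.P112

open MeasureTheory Set Filter Topology
open scoped ENNReal

theorem rf_conv {s I : ℝ} {V C : ℝ≥0∞} (hs : 0 < s) (hC : C ≠ ∞)
    (h : ENNReal.ofReal s ^ 2 * V ≤ C * ENNReal.ofReal I) :
    V ≤ ENNReal.ofReal (C.toReal * (s ^ 2)⁻¹ * I) := by
  rw [← ENNReal.ofReal_toReal hC, ← ENNReal.ofReal_pow hs.le,
    ← ENNReal.ofReal_mul ENNReal.toReal_nonneg] at h
  have h2 : ENNReal.ofReal ((s ^ 2)⁻¹) * ENNReal.ofReal (s ^ 2) = 1 := by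
    rw [← ENNReal.ofReal_mul (by positivity), inv_mul_cancel₀ (by positivity), ENNReal.ofReal_one]
  calc V = ENNReal.ofReal ((s ^ 2)⁻¹) * (ENNReal.ofReal (s ^ 2) * V) := by
        rw [← mul_assoc, h2, one_mul]
    _ ≤ ENNReal.ofReal ((s ^ 2)⁻¹) * ENNReal.ofReal (C.toReal * I) := mul_le_mul_right h _
    _ = _ := by
        rw [← ENNReal.ofReal_mul (by positivity)]; congr 1; ring

theorem rf_neg (f : E2 → ℂ) (x u : E2) (a : ℝ) :
    ‖∫ t in (0 : ℝ)..a, kk f x (-u) t‖ = ‖∫ t in (0 : ℝ)..a, kk f x u t‖ := by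
  have : kk f x (-u) = fun t => -kk f x u t := by
    funext t; unfold kk; rw [smul_neg, sub_neg_eq_add, ← sub_eq_add_neg]; ring
  rw [this, intervalIntegral.integral_neg, norm_neg]

theorem rf_half : ∃ C : ℝ, 0 ≤ C ∧ ∀ (v : E2 → E2) (f : SchwartzMap E2 ℂ) (lam : ℝ), UnitLip v →
    Differentiable ℝ v → (∀ x y : E2, ‖x‖ = ‖y‖ → f x = f y) → 0 < lam →
    volume {x | lam < ‖∫ t in (0 : ℝ)..(1 / 2), kk f x (v x) t‖} ≤
      ENNReal.ofReal (C * (lam ^ 2)⁻¹ * ∫ x, ‖f x‖ ^ 2) := by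
  obtain ⟨C, hC, h⟩ := rm_half
  refine ⟨1800 * C.toReal, by positivity, fun v f lam hv hd hf hl => ?_⟩
  have hv' : UnitLip fun y => -v y := ⟨fun x => by rw [norm_neg, hv.1 x], hv.2.neg⟩
  have hm : 0 < lam / 30 := by positivity
  have h1 := h v f _ hv hd hf hm
  have h2 := h _ f _ hv' hd.neg hf hm
  rw [schw_sq] at h1 h2
  have hsub : {x | lam < ‖∫ t in (0 : ℝ)..(1 / 2), kk f x (v x) t‖} ⊆
      {x | 0 ≤ inner ℝ x (v x) ∧ 30 * (lam / 30) < ‖∫ t in (0 : ℝ)..(1 / 2), kk f x (v x) t‖} ∪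
      {x | 0 ≤ inner ℝ x (-v x) ∧ 30 * (lam / 30) < ‖∫ t in (0 : ℝ)..(1 / 2), kk f x (-v x) t‖} := by
    intro x hx
    have hx' : lam < ‖∫ t in (0 : ℝ)..(1 / 2), kk f x (v x) t‖ := hx
    rcases le_total 0 (inner ℝ x (v x)) with h0 | h0
    · exact Or.inl ⟨h0, by linarith⟩
    · exact Or.inr ⟨by rw [inner_neg_right]; linarith, by rw [rf_neg]; linarith⟩
  refine (measure_mono hsub).trans ((measure_union_le _ _).trans ?_)
  refine (add_le_add (rf_conv hm hC h1) (rf_conv hm hC h2)).trans ?_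
  have hI : 0 ≤ ∫ x, ‖f x‖ ^ 2 := integral_nonneg fun x => by positivity
  rw [← ENNReal.ofReal_add (by positivity) (by positivity)]
  apply le_of_eq
  congr 1
  field_simp
  ring

theorem rf_any {a : ℝ} (ha : 0 < a) (ha1 : a ≤ 1) : ∃ C : ℝ, ∀ (v : E2 → E2)
    (f : SchwartzMap E2 ℂ) (lam : ℝ), UnitLip v →
    Differentiable ℝ v → (∀ x y : E2, ‖x‖ = ‖y‖ → f x = f y) → 0 < lam →
    volume {x | lam < ‖∫ t in (0 : ℝ)..a, kk f x (v x) t‖} ≤
      ENNReal.ofReal (C * (lam ^ 2)⁻¹ * ∫ x, ‖f x‖ ^ 2) := by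
  obtain ⟨C, hC, h⟩ := rf_half
  refine ⟨4 * C + 4 * (8 * KK.toReal ^ 2 * ((min (1 / 2) a) ^ 2)⁻¹),
    fun v f lam hv hd hf hl => ?_⟩
  obtain ⟨L, hL⟩ := schw_lip f
  have hl2 : 0 < lam / 2 := by positivity
  have hm : 0 < min (1 / 2) a := lt_min (by norm_num) ha
  have hsub : {x | lam < ‖∫ t in (0 : ℝ)..a, kk f x (v x) t‖} ⊆
      {x | lam / 2 < ‖∫ t in (0 : ℝ)..(1 / 2), kk f x (v x) t‖} ∪
      {x | lam / 2 < ‖∫ t in (min (1 / 2) a)..(max (1 / 2) a), kk f x (v x) t‖} := by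
    intro x hx
    have hx' : lam < ‖∫ t in (0 : ℝ)..a, kk f x (v x) t‖ := hx
    by_contra hc
    simp only [mem_union, mem_ofPred_eq, not_or, not_lt] at hc
    obtain ⟨h1, h2⟩ := hc
    rw [← intervalIntegral.integral_add_adjacent_intervals
      (kk_int hL x _ (hv.1 x) 0 (1 / 2)) (kk_int hL x _ (hv.1 x) (1 / 2) a)] at hx'
    rw [intervalIntegral.norm_integral_min_max] at h2
    linarith [norm_add_le (∫ t in (0 : ℝ)..(1 / 2), kk f x (v x) t)
      (∫ t in (1 / 2)..a, kk f x (v x) t)]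
  refine (measure_mono hsub).trans ((measure_union_le _ _).trans ?_)
  have hI : 0 ≤ ∫ x, ‖f x‖ ^ 2 := integral_nonneg fun x => by positivity
  refine (add_le_add (h v f _ hv hd hf hl2)
    (tail_weak hv hd f hm min_le_max (max_le (by norm_num) ha1) hl2)).trans ?_
  rw [← ENNReal.ofReal_add (by positivity) (by positivity)]
  apply le_of_eq
  congr 1
  field_simp
  ring

theorem rf_smooth {v : E2 → E2} (hv : UnitLip v) (f : SchwartzMap E2 ℂ) (a lam : ℝ) {b : ℝ≥0∞}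
    (h : ∀ w : E2 → E2, UnitLip w → Differentiable ℝ w →
      volume {x | lam < ‖∫ t in (0 : ℝ)..a, kk f x (w x) t‖} ≤ b) :
    volume {x | lam < ‖∫ t in (0 : ℝ)..a, kk f x (v x) t‖} ≤ b := by
  have hr : ∀ n : ℕ, (0 : ℝ) < 1 / ((n : ℝ) + 1) / 2 := fun n => by positivity
  have hr2 : ∀ n : ℕ, (1 : ℝ) / ((n : ℝ) + 1) / 2 ≤ 1 / 2 := fun n => by
    have : (1 : ℝ) / ((n : ℝ) + 1) ≤ 1 := by
      rw [div_le_one (by positivity)]; linarith [Nat.cast_nonneg (α := ℝ) n]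
    linarith
  choose w hw1 hw2 hw3 using fun n : ℕ => exists_smooth hv (hr n) (hr2 n)
  have hlim : ∀ x, Tendsto (fun n => w n x) atTop (𝓝 (v x)) := by
    intro x
    rw [tendsto_iff_norm_sub_tendsto_zero]
    refine squeeze_zero (fun n => norm_nonneg _) (fun n => hw3 n x) ?_
    have h1 := ((tendsto_one_div_add_atTop_nhds_zero_nat (𝕜 := ℝ)).div_const 2).const_mul 2
    have h2 := h1.mul_const (1 + ‖x‖)
    simpa using h2
  let A : ℕ → Set E2 := fun N => ⋂ n ≥ N, {x | lam < ‖∫ t in (0 : ℝ)..a, kk f x (w n x) t‖}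
  have hmono : Monotone A := by
    intro N M hNM x hx
    simp only [A, mem_iInter] at hx ⊢
    exact fun n hn => hx n (hNM.trans hn)
  have hsub : {x | lam < ‖∫ t in (0 : ℝ)..a, kk f x (v x) t‖} ⊆ ⋃ N, A N := by
    intro x hx
    have h1 := kk_cont f a x (v x) (fun n => w n x) (fun n => (hw1 n).1 x) (hlim x)
    have hx' : lam < ‖∫ t in (0 : ℝ)..a, kk f x (v x) t‖ := hx
    have h2 := h1.norm.eventually (lt_mem_nhds hx')
    obtain ⟨N, hN⟩ := eventually_atTop.1 h2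
    refine mem_iUnion.2 ⟨N, ?_⟩
    simp only [A, mem_iInter]
    exact fun n hn => hN n hn
  refine (measure_mono hsub).trans ?_
  rw [hmono.measure_iUnion]
  refine iSup_le fun N => ?_
  refine (measure_mono ?_).trans (h (w N) (hw1 N) ((hw2 N 1).differentiable (by simp)))
  intro x hx
  simp only [A, mem_iInter] at hx
  exact hx N le_rfl

theorem radial_bound {a : ℝ} (ha : 0 < a) (ha1 : a ≤ 1) :
    ∃ C : ℝ, ∀ v : E2 → E2, UnitLip v → RadBound v a C := by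
  obtain ⟨C, h⟩ := rf_any ha ha1
  refine ⟨C, fun v hv f ⟨c, hc⟩ lam hl => ?_⟩
  let g : SchwartzMap E2 ℂ := f.compSubConstCLM ℝ (-c)
  have hg : ∀ x, g x = f (x + c) := fun x => by
    simp only [g, SchwartzMap.compSubConstCLM_apply, sub_neg_eq_add]
  have hgr : ∀ x y : E2, ‖x‖ = ‖y‖ → g x = g y := fun x y hxy => by
    rw [hg, hg]; exact hc _ _ (by simpa using hxy)
  have hv' : UnitLip fun x => v (x + c) := ⟨fun x => hv.1 _, by
    simpa [Function.comp_def] using hv.2.comp (isometry_add_right c).lipschitz⟩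
  have h1 := rf_smooth hv' g a lam fun w hw hd => h w g lam hw hd hgr hl
  have hI : ∫ x, ‖g x‖ ^ 2 = ∫ x, ‖f x‖ ^ 2 := by
    simp only [hg]
    exact integral_add_right_eq_self (fun x => ‖f x‖ ^ 2) c
  rw [hI] at h1
  rw [← measure_preimage_add_right volume c]
  refine le_trans (measure_mono fun x hx => ?_) h1
  have hx' : lam < ‖Hpv v a f (x + c)‖ := hx
  rw [hpv_eq f v ha _ (hv.1 _)] at hx'
  have e : kk f (x + c) (v (x + c)) = kk g x (v (x + c)) := by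
    funext t; unfold kk; rw [hg, hg, add_sub_right_comm, add_right_comm]
  rw [e] at hx'
  exact hx'

end Vale.Agent.P112
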