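import Vale.Agent.P112.AD2
import Vale.Agent.P112.RFin
import Vale.Agent.P112.AM
import Vale.Agent.P112.AF
import Vale.Agent.P112.AP
import Vale.Agent.P112.AE
import Vale.Agent.P112.AQ

namespace Vale.Agent.P112

open MeasureTheory Set Filter Topology
open scoped ENNReal

theorem am_ray {v : E2 → E2} (hv : UnitLip v) {u : E2} (hu : ‖u‖ = 1) (B : Set ℝ) :
    volume {ρ : ℝ | 0 < ρ ∧ 0 ≤ inner ℝ (Real.sqrt ρ • u) (v (Real.sqrt ρ • u)) ∧
      inner ℝ (Real.sqrt ρ • u) (v (Real.sqrt ρ • u)) ≤ ‖Real.sqrt ρ • u‖ / 2 ∧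
      inner ℝ (Real.sqrt ρ • u) (v (Real.sqrt ρ • u)) ≤ 1 / 4 ∧
      ‖Real.sqrt ρ • u‖ ^ 2 - inner ℝ (Real.sqrt ρ • u) (v (Real.sqrt ρ • u)) ^ 2 ∈ B} ≤
      2 * volume B := by
  refine p_anti _ _ (fun ρ => ‖Real.sqrt ρ • u‖ ^ 2 -
    inner ℝ (Real.sqrt ρ • u) (v (Real.sqrt ρ • u)) ^ 2) ?_ fun p hp => hp.2.2.2.2
  have key : ∀ p q : ℝ, p ≤ q → 0 < p →
      (0 ≤ inner ℝ (Real.sqrt p • u) (v (Real.sqrt p • u)) ∧
        inner ℝ (Real.sqrt p • u) (v (Real.sqrt p • u)) ≤ ‖Real.sqrt p • u‖ / 2 ∧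
        inner ℝ (Real.sqrt p • u) (v (Real.sqrt p • u)) ≤ 1 / 4) →
      (0 ≤ inner ℝ (Real.sqrt q • u) (v (Real.sqrt q • u)) ∧
        inner ℝ (Real.sqrt q • u) (v (Real.sqrt q • u)) ≤ ‖Real.sqrt q • u‖ / 2 ∧
        inner ℝ (Real.sqrt q • u) (v (Real.sqrt q • u)) ≤ 1 / 4) →
      q - p ≤ 2 * ((‖Real.sqrt q • u‖ ^ 2 - inner ℝ (Real.sqrt q • u) (v (Real.sqrt q • u)) ^ 2) -
        (‖Real.sqrt p • u‖ ^ 2 - inner ℝ (Real.sqrt p • u) (v (Real.sqrt p • u)) ^ 2)) := by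
    intro p q hpq hp h1 h2
    have hq : 0 < q := hp.trans_le hpq
    rw [rm_sqrt hp hu, real_inner_smul_left] at *
    rw [rm_sqrt hq hu, real_inner_smul_left] at *
    have hr : Real.sqrt p ≤ Real.sqrt q := Real.sqrt_le_sqrt hpq
    have hl : |inner ℝ u (v (Real.sqrt q • u)) - inner ℝ u (v (Real.sqrt p • u))| ≤
        Real.sqrt q - Real.sqrt p := by
      rw [← inner_sub_right]
      refine (abs_real_inner_le_norm _ _).trans ?_
      have h3 := hv.2.dist_le_mul (Real.sqrt q • u) (Real.sqrt p • u)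
      rw [dist_eq_norm, dist_eq_norm, NNReal.coe_one, one_mul, ← sub_smul, norm_smul, hu, mul_one,
        Real.norm_of_nonneg (by linarith)] at h3
      rw [hu, one_mul]; exact h3
    have := rm_anti (Real.sqrt_pos.2 hp) hr hl h1.1 h2.1 h1.2.1 h2.2.1 h1.2.2 h2.2.2
    rw [Real.sq_sqrt hp.le, Real.sq_sqrt hq.le] at this ⊢
    exact this
  intro p hp q hq
  rcases le_total p q with h | h
  · have := key p q h hp.1 ⟨hp.2.1, hp.2.2.1, hp.2.2.2.1⟩ ⟨hq.2.1, hq.2.2.1, hq.2.2.2.1⟩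
    rw [abs_sub_comm, abs_of_nonneg (by linarith), abs_sub_comm]
    exact this.trans (mul_le_mul_of_nonneg_left (le_abs_self _) zero_le_two)
  · have := key q p h hq.1 ⟨hq.2.1, hq.2.2.1, hq.2.2.2.1⟩ ⟨hp.2.1, hp.2.2.1, hp.2.2.2.1⟩
    rw [abs_of_nonneg (by linarith)]
    exact this.trans (mul_le_mul_of_nonneg_left (le_abs_self _) zero_le_two)

theorem am_half : ∃ C : ℝ≥0∞, C ≠ ∞ ∧ ∀ (δ : ℝ) (v : E2 → E2) (f : SchwartzMap E2 ℂ) (m : ℝ),
    0 < δ → δ ≤ 1 / 8 → UnitLip v → Differentiable ℝ v → 0 < m →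
    ENNReal.ofReal m ^ 2 * volume {x | 0 ≤ inner ℝ x (v x) ∧
      60 * m < ‖∫ t in (0 : ℝ)..(1 / 2), kk f x (v x) t‖} ≤
      C * (ENNReal.ofReal (Real.log δ⁻¹ ^ 2) * (∫⁻ x, ‖f x‖ₑ ^ 2) + ENNReal.ofReal (δ ^ 2) *
        ∫⁻ y, (‖Ang 0 f y‖ₑ * ENNReal.ofReal (1 + ‖y‖)⁻¹) ^ 2) := by
  obtain ⟨C1, hC1, h1⟩ := c_star a_weak a_sq a_k3 b_cauchy
  obtain ⟨C2, hC2, h2⟩ := n_weak
  obtain ⟨C3, hC3, h3⟩ := m_weak
  obtain ⟨C4, hC4, h4⟩ := f_weak
  obtain ⟨C5, hC5, h5⟩ := e_weak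
  refine ⟨(C1 * 2 + 80 + 2 * 80) + ((C3 + C2 + C4 + C5) + (C3 + C2 + C4 + C5)), by finiteness, ?_⟩
  intro δ v f m hδ hδ1 hv hd hm
  obtain ⟨L, hL⟩ := schw_lip f
  have hfc := f.continuous
  have hvc := hv.2.continuous
  have hf1 : ContDiff ℝ 1 f := f.smooth 1
  have hv' : UnitLip fun y => -v y := ⟨fun x => by rw [norm_neg, hv.1 x], hv.2.neg⟩
  have hang : Measurable fun y => ‖Ang 0 f y‖ₑ := by
    refine (Continuous.measurable ?_).enorm
    unfold Ang rot90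
    have := hf1.continuous_fderiv (by simp)
    fun_prop
  set J := ∫⁻ x, ‖f x‖ₑ ^ 2 with hJd
  set J2 := ∫⁻ y, (‖Ang 0 f y‖ₑ * ENNReal.ofReal (1 + ‖y‖)⁻¹) ^ 2 with hJ2
  set T := ENNReal.ofReal (Real.log δ⁻¹ ^ 2) * J + ENNReal.ofReal (δ ^ 2) * J2 with hT
  set M := ENNReal.ofReal m with hM
  have t1 : ENNReal.ofReal (Real.log δ⁻¹ ^ 2) * J ≤ T := le_self_add
  have t2 : ENNReal.ofReal (δ ^ 2) * J2 ≤ T := le_add_self
  have t3 : J ≤ T := by
    refine le_trans ?_ t1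
    refine le_mul_of_one_le_left' (ENNReal.one_le_ofReal.2 ?_)
    have a1 : (8 : ℝ) ≤ δ⁻¹ := by rw [le_inv_comm₀ (by norm_num) hδ]; linarith
    have a2 : 1 ≤ Real.log δ⁻¹ := by
      rw [Real.le_log_iff_exp_le (by positivity)]
      linarith [Real.exp_one_lt_d9]
    nlinarith
  let U : (E2 → E2) → Set E2 := fun w => {x | M ≤ MM δ w f x} ∪ {x | M ≤ NN w f x} ∪
    {x | M ≤ FF w f x} ∪ {x | M ≤ EE δ w (fun y => ‖Ang 0 f y‖ₑ) x}
  have u1 := measure_union_le (μ := (volume : Measure E2))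
  have bU : ∀ w, UnitLip w → Differentiable ℝ w →
      M ^ 2 * volume (U w) ≤ (C3 + C2 + C4 + C5) * T := by
    intro w hw hwd
    refine (mul_le_mul_right ((u1 _ _).trans (add_le_add_left ((u1 _ _).trans
      (add_le_add_left (u1 _ _) _)) _)) _).trans ?_
    simp only [mul_add (M ^ 2), add_mul]
    exact add_le_add (add_le_add (add_le_add
      ((h3 δ w f M hδ hδ1 hw hwd hfc).trans (mul_le_mul_right t1 _))
      ((h2 w f M hw hwd hfc).trans (mul_le_mul_right t3 _)))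
      ((h4 w f M hw hwd hfc).trans (mul_le_mul_right t3 _)))
      ((h5 δ w _ M hδ hδ1 hw hwd hang).trans (mul_le_mul_right t2 _))
  set Z := {x | 0 ≤ inner ℝ x (v x) ∧ 60 * m < ‖∫ t in (0 : ℝ)..(1 / 2), kk f x (v x) t‖} with hZ
  have hsc : Continuous fun x : E2 => inner ℝ x (v x) := by fun_prop
  have hZm : MeasurableSet Z :=
    (measurableSet_le (measurable_const (a := (0 : ℝ))) hsc.measurable).inter
      (measurableSet_lt (measurable_const (a := 60 * m)) (g_meas f v (1 / 2) hfc hvc).norm)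
  set V := toMeasurable volume (U v ∪ U fun y => -v y) with hV
  have hAm : MeasurableSet (Z \ V) := hZm.diff (measurableSet_toMeasurable _ _)
  have bA : M ^ 2 * volume (Z \ V) ≤ (C1 * 2 + 80 + 2 * 80) * J := by
    rw [← lintegral_indicator_const hAm]
    refine p_cmp _ (fun x => ‖f x‖ₑ ^ 2) _ (measurable_const.indicator hAm)
      (hfc.measurable.enorm.pow_const 2) fun u hu => ?_
    obtain ⟨hi, hJ⟩ := r_int f u hu
    set F : ℝ → ℂ := fun ρ => f (Real.sqrt |ρ| • u) with hFd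
    have hF : Continuous F := by rw [hFd]; fun_prop
    set I := ∫⁻ ρ in Ioi (0 : ℝ), ‖f (Real.sqrt ρ • u)‖ₑ ^ 2 with hI
    set W := {ρ : ℝ | ∃ R : ℝ, 0 < R ∧ m < ‖HR F ρ R‖} with hW
    set B := {ρ : ℝ | ¬ Good (fun y => ‖F y‖ₑ) ρ (ENNReal.ofReal m)} with hB
    have bW : M ^ 2 * volume W ≤ C1 * 2 * I := by
      rw [mul_assoc]
      exact (h1 F m hF.measurable hi hm).trans (mul_le_mul_right hJ _)
    have bB : M ^ 2 * volume B ≤ 80 * I := by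
      have e : M = 2 * ENNReal.ofReal (m / 2) := by
        rw [← ENNReal.ofReal_ofNat 2, ← ENNReal.ofReal_mul (by norm_num), hM]; congr 1; ring
      have k3 := a_weak (fun y => ‖F y‖ₑ ^ 2) (ENNReal.ofReal (m / 2) ^ 2)
      have k4 : B ⊆ {ρ : ℝ | ¬ Good (fun y => ‖F y‖ₑ ^ 2) ρ (ENNReal.ofReal (m / 2) ^ 2)} := by
        intro ρ hρ hg
        have k5 := a_sq _ ρ _ hF.measurable.enorm hg
        rw [← e] at k5
        exact hρ k5
      calc M ^ 2 * volume B = 4 * (ENNReal.ofReal (m / 2) ^ 2 * volume B) := by rw [e]; ring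
        _ ≤ 4 * (10 * (2 * I)) := mul_le_mul_right
            (((mul_le_mul_right (measure_mono k4) _).trans k3).trans (mul_le_mul_right hJ _)) _
        _ = 80 * I := by ring
    have hpm : MeasurableSet ((fun ρ : ℝ => Real.sqrt ρ • u) ⁻¹' (Z \ V)) :=
      (Continuous.measurable (by fun_prop)) hAm
    have e : (fun ρ : ℝ => (Z \ V).indicator (fun _ => M ^ 2) (Real.sqrt ρ • u)) =
        ((fun ρ : ℝ => Real.sqrt ρ • u) ⁻¹' (Z \ V)).indicator fun _ => M ^ 2 := by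
      funext ρ
      by_cases hρ : Real.sqrt ρ • u ∈ Z \ V
      · rw [indicator_of_mem hρ, indicator_of_mem (by exact hρ)]
      · rw [indicator_of_notMem hρ, indicator_of_notMem (by exact hρ)]
    rw [e, lintegral_indicator_const hpm, Measure.restrict_apply hpm]
    have hsub : (fun ρ : ℝ => Real.sqrt ρ • u) ⁻¹' (Z \ V) ∩ Ioi 0 ⊆ W ∪ B ∪
        {ρ : ℝ | 0 < ρ ∧ 0 ≤ inner ℝ (Real.sqrt ρ • u) (v (Real.sqrt ρ • u)) ∧
      inner ℝ (Real.sqrt ρ • u) (v (Real.sqrt ρ • u)) ≤ ‖Real.sqrt ρ • u‖ / 2 ∧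
      inner ℝ (Real.sqrt ρ • u) (v (Real.sqrt ρ • u)) ≤ 1 / 4 ∧
      ‖Real.sqrt ρ • u‖ ^ 2 - inner ℝ (Real.sqrt ρ • u) (v (Real.sqrt ρ • u)) ^ 2 ∈ B} := by
      rintro ρ ⟨⟨hx, hxV⟩, hρ⟩
      have hρ0 : 0 < ρ := hρ
      have hsq := Real.sqrt_pos.2 hρ0
      have n1 : ‖Real.sqrt ρ • u‖ = Real.sqrt ρ := rm_sqrt hρ0 hu
      have n2 : ‖Real.sqrt ρ • u‖ ^ 2 = ρ := by rw [n1, Real.sq_sqrt hρ0.le]
      have n3 : ‖Real.sqrt ρ • u‖⁻¹ • Real.sqrt ρ • u = u := by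
        rw [n1, inv_smul_smul₀ hsq.ne']
      have n4 : Real.sqrt ρ • u ≠ 0 := norm_pos_iff.1 (by rw [n1]; exact hsq)
      have hU : Real.sqrt ρ • u ∉ U v ∪ U fun y => -v y := fun h =>
        hxV (subset_toMeasurable _ _ h)
      by_contra hc
      simp only [U, mem_union, mem_ofPred_eq, not_or, not_le] at hU
      simp only [mem_union, mem_ofPred_eq, not_or, hW, hB, not_exists, not_and, not_lt,
        not_not] at hc
      obtain ⟨⟨c1, c2⟩, c3⟩ := hc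
      obtain ⟨⟨⟨⟨d1, d2⟩, d3⟩, d4⟩, ⟨⟨d5, d6⟩, d7⟩, d8⟩ := hU
      refine absurd hx.2 (not_lt.2 (ad_point a_k1 a_k2 e_pt hf1 hL hδ hδ1 n4 (hv.1 _) (F := F)
        (fun ρ' => by rw [n3]) hi hm.le hx.1 (by rw [n2]; exact c1) (by rw [n2]; exact c2)
        (c3 hρ0 hx.1) d1.le d2.le d3.le d4.le d5.le d6.le d7.le d8.le))
    refine (mul_le_mul_right ((measure_mono hsub).trans ((measure_union_le _ _).trans
      (add_le_add (measure_union_le _ _) (am_ray hv hu B)))) _).trans ?_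
    simp only [mul_add (M ^ 2), add_mul]
    refine add_le_add (add_le_add bW bB) ?_
    rw [mul_left_comm, mul_assoc 2]
    exact mul_le_mul_right bB _
  have hZs : Z ⊆ (Z \ V) ∪ V := fun x hx => by
    by_cases h : x ∈ V
    · exact Or.inr h
    · exact Or.inl ⟨hx, h⟩
  refine (mul_le_mul_right ((measure_mono hZs).trans (u1 _ _)) _).trans ?_
  rw [mul_add, add_mul, hV, measure_toMeasurable]
  refine add_le_add (bA.trans (mul_le_mul_right t3 _)) ?_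
  refine (mul_le_mul_right (u1 _ _) _).trans ?_
  rw [mul_add, add_mul]
  exact add_le_add (bU v hv hd) (bU _ hv' hd.neg)

end Vale.Agent.P112
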