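import Vale.Agent.P112.Defs

namespace Vale.Agent.P112

open MeasureTheory Filter Topology Set

/-- the symmetrized kernel -/
noncomputable def kk (f : E2 → ℂ) (x u : E2) (t : ℝ) : ℂ :=
  (f (x - t • u) - f (x + t • u)) / (t : ℂ)

theorem schw_lip (f : SchwartzMap E2 ℂ) : ∃ L : NNReal, LipschitzWith L f := by
  refine ⟨⟨SchwartzMap.seminorm ℝ 0 1 f, apply_nonneg _ _⟩, ?_⟩
  apply lipschitzWith_of_nnnorm_fderiv_le (𝕜 := ℝ) f.differentiable
  intro x
  have h := SchwartzMap.norm_iteratedFDeriv_le_seminorm ℝ f 1 x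
  rw [norm_iteratedFDeriv_one] at h
  exact h

theorem kk_meas {f : E2 → ℂ} (hf : Continuous f) (x u : E2) : Measurable (kk f x u) := by
  unfold kk
  apply Measurable.div
  · exact (Continuous.measurable (by fun_prop))
  · exact Complex.measurable_ofReal

theorem kk_le {f : E2 → ℂ} {L : NNReal} (hf : LipschitzWith L f) (x u : E2) (hu : ‖u‖ = 1)
    (t : ℝ) : ‖kk f x u t‖ ≤ 2 * L := by
  unfold kk
  by_cases ht : t = 0
  · simp [ht]
  have h1 := hf.dist_le_mul (x - t • u) (x + t • u)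
  rw [dist_eq_norm, dist_eq_norm] at h1
  have h2 : x - t • u - (x + t • u) = (-2 * t) • u := by module
  rw [h2, norm_smul, hu] at h1
  rw [norm_div, Complex.norm_real, div_le_iff₀ (norm_pos_iff.2 ht)]
  simp only [Real.norm_eq_abs, abs_mul, abs_neg, mul_one] at h1 ⊢
  rw [abs_two] at h1
  linarith

theorem kk_int {f : E2 → ℂ} {L : NNReal} (hf : LipschitzWith L f) (x u : E2) (hu : ‖u‖ = 1)
    (a b : ℝ) : IntervalIntegrable (kk f x u) volume a b := by
  refine IntervalIntegrable.mono_fun' (g := fun _ => (2 * L : ℝ)) intervalIntegrable_const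
    (kk_meas hf.continuous x u).aestronglyMeasurable ?_
  exact Eventually.of_forall fun t => kk_le hf x u hu t

theorem htr_eq {f : E2 → ℂ} (hf : Continuous f) (v : E2 → E2) {a ε : ℝ} (h0 : 0 < ε)
    (h1 : ε < a) (x : E2) : Htr v a ε f x = ∫ t in ε..a, kk f x (v x) t := by
  have hset : {t : ℝ | ε < |t| ∧ |t| < a} = Ioo (-a) (-ε) ∪ Ioo ε a := by
    ext t
    simp only [mem_ofPred_eq, mem_union, mem_Ioo]
    rcases le_total 0 t with h | h
    · rw [abs_of_nonneg h]
      constructor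
      · intro hh; exact Or.inr hh
      · rintro (hh | hh)
        · exfalso; linarith [hh.2]
        · exact hh
    · rw [abs_of_nonpos h]
      constructor
      · intro hh; exact Or.inl ⟨by linarith [hh.2], by linarith [hh.1]⟩
      · rintro (hh | hh)
        · exact ⟨by linarith [hh.2], by linarith [hh.1]⟩
        · exfalso; linarith [hh.1]
  set g : ℝ → ℂ := fun t => f (x - t • v x) / (t : ℂ) with hg
  have hc : ContinuousOn g {t | t ≠ 0} := by
    apply ContinuousOn.div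
    · exact Continuous.continuousOn (by fun_prop)
    · exact Complex.continuous_ofReal.continuousOn
    · intro t ht; exact Complex.ofReal_ne_zero.2 ht
  have i1 : IntervalIntegrable g volume (-a) (-ε) := by
    apply ContinuousOn.intervalIntegrable
    apply hc.mono
    intro t ht
    rw [uIcc_of_le (by linarith)] at ht
    have := ht.2
    simp only [mem_ofPred_eq]; linarith
  have i2 : IntervalIntegrable g volume ε a := by
    apply ContinuousOn.intervalIntegrable
    apply hc.mono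
    intro t ht
    rw [uIcc_of_le (by linarith)] at ht
    have := ht.1
    simp only [mem_ofPred_eq]; linarith
  have i3 : IntervalIntegrable (fun t => g (-t)) volume ε a := by
    have := i1.comp_mul_left (c := -1)
    simpa using this.symm
  unfold Htr
  rw [hset, setIntegral_union ?_ measurableSet_Ioo
    ((intervalIntegrable_iff_integrableOn_Ioo_of_le (by linarith)).1 i1)
    ((intervalIntegrable_iff_integrableOn_Ioo_of_le (by linarith)).1 i2),
    ← integral_Ioc_eq_integral_Ioo, ← integral_Ioc_eq_integral_Ioo,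
    ← intervalIntegral.integral_of_le (by linarith), ← intervalIntegral.integral_of_le h1.le,
    ← intervalIntegral.integral_comp_neg, ← intervalIntegral.integral_add i3 i2]
  · congr 1
    funext t
    simp only [hg, kk, neg_smul, sub_neg_eq_add, Complex.ofReal_neg]
    ring
  · rw [Set.disjoint_left]
    intro t ht ht'
    linarith [ht.2, ht'.1]

theorem htr_tendsto {f : E2 → ℂ} {L : NNReal} (hf : LipschitzWith L f) (v : E2 → E2) {a : ℝ}
    (ha : 0 < a) (x : E2) (hu : ‖v x‖ = 1) :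
    Tendsto (fun ε => Htr v a ε f x) (𝓝[>] (0 : ℝ)) (𝓝 (∫ t in (0 : ℝ)..a, kk f x (v x) t)) := by
  have hc : Continuous fun ε : ℝ => ∫ t in a..ε, kk f x (v x) t :=
    intervalIntegral.continuous_primitive (fun a b => kk_int hf x _ hu a b) a
  have h1 : Tendsto (fun ε : ℝ => ∫ t in ε..a, kk f x (v x) t) (𝓝 0)
      (𝓝 (∫ t in (0 : ℝ)..a, kk f x (v x) t)) := by
    have h2 : Continuous fun ε : ℝ => ∫ t in ε..a, kk f x (v x) t := by
      have h3 : (fun ε : ℝ => ∫ t in ε..a, kk f x (v x) t) =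
          fun ε : ℝ => -∫ t in a..ε, kk f x (v x) t := by
        funext ε; exact intervalIntegral.integral_symm _ _
      rw [h3]; exact hc.neg
    exact h2.tendsto 0
  refine (h1.mono_left nhdsWithin_le_nhds).congr' ?_
  filter_upwards [Ioo_mem_nhdsGT ha] with ε hε
  exact (htr_eq hf.continuous v hε.1 hε.2 x).symm

theorem hpv_eq (f : SchwartzMap E2 ℂ) (v : E2 → E2) {a : ℝ}
    (ha : 0 < a) (x : E2) (hu : ‖v x‖ = 1) :
    Hpv v a f x = ∫ t in (0 : ℝ)..a, kk f x (v x) t := by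
  obtain ⟨L, hL⟩ := schw_lip f
  exact (htr_tendsto hL v ha x hu).limUnder_eq

theorem hpv_tendsto (f : SchwartzMap E2 ℂ) (v : E2 → E2) {a : ℝ}
    (ha : 0 < a) (x : E2) (hu : ‖v x‖ = 1) :
    Tendsto (fun ε => Htr v a ε f x) (𝓝[>] (0 : ℝ)) (𝓝 (Hpv v a f x)) := by
  obtain ⟨L, hL⟩ := schw_lip f
  rw [hpv_eq f v ha x hu]
  exact htr_tendsto hL v ha x hu

theorem kk_cont (f : SchwartzMap E2 ℂ) (a : ℝ) (x u : E2) (w : ℕ → E2) (hw : ∀ n, ‖w n‖ = 1)
    (h : Tendsto w atTop (𝓝 u)) :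
    Tendsto (fun n => ∫ t in (0 : ℝ)..a, kk f x (w n) t) atTop
      (𝓝 (∫ t in (0 : ℝ)..a, kk f x u t)) := by
  obtain ⟨L, hL⟩ := schw_lip f
  refine intervalIntegral.tendsto_integral_filter_of_dominated_convergence
    (fun _ => (2 * L : ℝ)) ?_ ?_ intervalIntegrable_const ?_
  · exact Eventually.of_forall fun n => (kk_meas hL.continuous x _).aestronglyMeasurable
  · exact Eventually.of_forall fun n => Eventually.of_forall fun t _ => kk_le hL x _ (hw n) t
  · refine Eventually.of_forall fun t _ => ?_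
    have hc : Continuous fun u : E2 => kk f x u t := by
      unfold kk
      have := hL.continuous
      fun_prop
    exact (hc.tendsto u).comp h

/-- normalization is Lipschitz away from the origin -/
theorem norm_lip {p q : E2} {m : ℝ} (hm : 0 < m) (hp : m ≤ ‖p‖) (hq : m ≤ ‖q‖) :
    m * ‖‖p‖⁻¹ • p - ‖q‖⁻¹ • q‖ ≤ ‖p - q‖ := by
  have hp0 : 0 < ‖p‖ := hm.trans_le hp
  have hq0 : 0 < ‖q‖ := hm.trans_le hq
  have e1 : ‖‖p‖⁻¹ • p - ‖q‖⁻¹ • q‖ ^ 2 = 2 - 2 * (‖p‖⁻¹ * ‖q‖⁻¹ * inner ℝ p q) := by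
    rw [norm_sub_sq_real, norm_smul, norm_smul, real_inner_smul_left, real_inner_smul_right,
      norm_inv, norm_inv, norm_norm, norm_norm, inv_mul_cancel₀ hp0.ne', inv_mul_cancel₀ hq0.ne']
    ring
  have e2 : ‖p - q‖ ^ 2 = ‖p‖ ^ 2 - 2 * inner ℝ p q + ‖q‖ ^ 2 := norm_sub_sq_real p q
  have e3 : ‖p‖ * ‖q‖ * ‖‖p‖⁻¹ • p - ‖q‖⁻¹ • q‖ ^ 2 = 2 * (‖p‖ * ‖q‖) - 2 * inner ℝ p q := by
    rw [e1]; field_simp
  refine (pow_le_pow_iff_left₀ (by positivity) (norm_nonneg _) two_ne_zero).1 ?_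
  have h4 : m * m ≤ ‖p‖ * ‖q‖ := mul_le_mul hp hq hm.le hp0.le
  have h5 := mul_le_mul_of_nonneg_right h4 (sq_nonneg ‖‖p‖⁻¹ • p - ‖q‖⁻¹ • q‖)
  nlinarith [sq_nonneg (‖p‖ - ‖q‖)]

end Vale.Agent.P112
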