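import Vale.Agent.P112.Jac

namespace Vale.Agent.P112

open MeasureTheory Filter Topology Set Metric
open scoped ENNReal ContDiff

theorem exists_field : ∃ v : E2 → E2, UnitLip v ∧ ∀ x : E2, 1 ≤ x 0 → v x = ‖x‖⁻¹ • x := by
  let P : E2 → E2 := fun x => WithLp.toLp 2 ![max (x 0) 1, x 1]
  have hP0 : ∀ x, P x 0 = max (x 0) 1 := fun x => by simp [P]
  have hP1 : ∀ x, P x 1 = x 1 := fun x => by simp [P]
  have hn : ∀ x, 1 ≤ ‖P x‖ := by
    intro x
    refine (pow_le_pow_iff_left₀ zero_le_one (norm_nonneg _) two_ne_zero).1 ?_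
    rw [← real_inner_self_eq_norm_sq, inner_two, hP0, hP1]
    nlinarith [le_max_right (x 0) 1, mul_self_nonneg (x 1)]
  have hl : ∀ x y, ‖P x - P y‖ ≤ ‖x - y‖ := by
    intro x y
    refine (pow_le_pow_iff_left₀ (norm_nonneg _) (norm_nonneg _) two_ne_zero).1 ?_
    rw [← real_inner_self_eq_norm_sq, ← real_inner_self_eq_norm_sq, inner_two, inner_two]
    simp only [PiLp.sub_apply, hP0, hP1]
    have h1 := abs_max_sub_max_le_abs (x 0) (y 0) 1
    have h2 := sq_le_sq.2 h1
    linarith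
  refine ⟨fun x => ‖P x‖⁻¹ • P x, ⟨fun x => ?_, ?_⟩, fun x hx => ?_⟩
  · exact norm_smul_inv_norm (norm_pos_iff.1 (one_pos.trans_le (hn x)))
  · apply LipschitzWith.of_dist_le_mul
    intro x y
    rw [dist_eq_norm, dist_eq_norm, NNReal.coe_one, one_mul]
    have h3 := norm_lip one_pos (hn x) (hn y)
    rw [one_mul] at h3
    exact h3.trans (hl x y)
  · have : P x = x := by
      ext i
      fin_cases i
      · exact (hP0 x).trans (max_eq_left hx)
      · exact hP1 x
    simp only [this]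

theorem exists_fun {δ : ℝ} (hδ : 0 < δ) (N : ℕ) : ∃ (g : E2 → ℝ) (G : ℝ), 1 ≤ G ∧
    ContDiff ℝ ∞ g ∧ (∀ x, 0 ≤ g x) ∧ (∀ x, g x ≤ G) ∧ (∀ x, δ ≤ ‖x‖ → g x = 0) ∧
    (∀ u : E2, ‖u‖ = 1 → N * δ ≤ ∫ s in (-δ)..δ, g (s • u)) ∧
    ∫ x, g x ^ 2 ≤ N * (3 * δ ^ 2 * Real.pi) := by
  induction N with
  | zero =>
    exact ⟨fun _ => 0, 1, le_rfl, contDiff_const, fun _ => le_rfl, fun _ => zero_le_one,
      fun _ _ => rfl, fun u _ => by simp, by simp⟩
  | succ N ih =>
    obtain ⟨g, G, hG, hg, h0, h1, h2, h3, h4⟩ := ih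
    have hG0 : 0 < G := one_pos.trans_le hG
    have hr : 0 < δ / G := div_pos hδ hG0
    have hrδ : δ / G ≤ δ := div_le_self hδ.le hG
    let φ : ContDiffBump (0 : E2) := ⟨δ / G / 2, δ / G, by linarith, by linarith⟩
    have hφ0 : ∀ x : E2, δ / G ≤ ‖x‖ → φ x = 0 := fun x hx =>
      φ.zero_of_le_dist (by rw [dist_zero_right]; exact hx)
    have hcs : ∀ F : E2 → ℝ, (∀ x, δ ≤ ‖x‖ → F x = 0) → HasCompactSupport F := fun F hF =>
      HasCompactSupport.intro (isCompact_closedBall (0 : E2) δ) fun x hx =>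
        hF x (by rw [mem_closedBall, dist_zero_right, not_le] at hx; exact hx.le)
    have hgc := hg.continuous
    have hφc := φ.continuous
    have hz : ∀ x, δ ≤ ‖x‖ → g x + G * φ x = 0 := fun x hx => by
      rw [h2 x hx, hφ0 x (hrδ.trans hx)]; simp
    refine ⟨fun x => g x + G * φ x, 2 * G, by linarith, hg.add (contDiff_const.mul φ.contDiff),
      fun x => add_nonneg (h0 x) (mul_nonneg hG0.le φ.nonneg), fun x => ?_, hz, fun u hu => ?_, ?_⟩
    · have := mul_le_of_le_one_right hG0.le (φ.le_one (x := x))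
      linarith [h1 x]
    · rw [intervalIntegral.integral_add (Continuous.intervalIntegrable (by fun_prop) _ _)
        (Continuous.intervalIntegrable (by fun_prop) _ _)]
      have h5 : ∫ s in (-(δ / G / 2))..(δ / G / 2), G * φ (s • u) ≤
          ∫ s in (-δ)..δ, G * φ (s • u) :=
        intervalIntegral.integral_mono_interval (by linarith) (by linarith) (by linarith)
          (Eventually.of_forall fun s => mul_nonneg hG0.le φ.nonneg)
          (Continuous.intervalIntegrable (by fun_prop) _ _)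
      have h6 : ∫ s in (-(δ / G / 2))..(δ / G / 2), G * φ (s • u) =
          ∫ s in (-(δ / G / 2))..(δ / G / 2), G := by
        refine intervalIntegral.integral_congr fun s hs => ?_
        rw [uIcc_of_le (by linarith)] at hs
        have : φ (s • u) = 1 := φ.one_of_mem_closedBall (by
          rw [mem_closedBall, dist_zero_right, norm_smul, hu, mul_one, Real.norm_eq_abs]
          exact abs_le.2 hs)
        simp only [this, mul_one]
      rw [h6, intervalIntegral.integral_const, smul_eq_mul] at h5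
      have h7 : (δ / G / 2 - -(δ / G / 2)) * G = δ := by field_simp; ring
      push_cast
      linarith [h3 u hu]
    · have i1 : Integrable (fun x => g x ^ 2) volume :=
        Continuous.integrable_of_hasCompactSupport (by fun_prop)
          (hcs _ fun x hx => by rw [h2 x hx]; simp)
      have i2 : Integrable (fun x => (g x + G * φ x) ^ 2) volume :=
        Continuous.integrable_of_hasCompactSupport (by fun_prop)
          (hcs _ fun x hx => by rw [hz x hx]; simp)
      have i3 : Integrable ((ball (0 : E2) (δ / G)).indicator fun _ => 3 * G ^ 2) volume :=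
        (integrableOn_const measure_ball_lt_top.ne).integrable_indicator measurableSet_ball
      have h5 : ∫ x, (g x + G * φ x) ^ 2 ≤
          ∫ x, (g x ^ 2 + (ball (0 : E2) (δ / G)).indicator (fun _ => 3 * G ^ 2) x) := by
        refine integral_mono i2 (i1.add i3) fun x => ?_
        by_cases hx : x ∈ ball (0 : E2) (δ / G)
        · simp only [indicator_of_mem hx]
          have a1 := mul_le_of_le_one_right hG0.le (φ.le_one (x := x))
          have a2 := mul_nonneg hG0.le (φ.nonneg (x := x))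
          nlinarith [h0 x, h1 x]
        · simp only [indicator_of_notMem hx]
          rw [mem_ball, dist_zero_right, not_lt] at hx
          rw [hφ0 x hx]; simp
      rw [integral_add i1 i3, integral_indicator measurableSet_ball, setIntegral_const,
        Measure.real, EuclideanSpace.volume_ball_fin_two, ENNReal.toReal_mul, ENNReal.toReal_pow,
        ENNReal.toReal_ofReal hr.le, ENNReal.toReal_ofReal Real.pi_pos.le, smul_eq_mul] at h5
      have h7 : (δ / G) ^ 2 * Real.pi * (3 * G ^ 2) = 3 * δ ^ 2 * Real.pi := by field_simp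
      push_cast
      linarith

theorem hpv_lower {v : E2 → E2} {a δ : ℝ} (hδ : 0 < δ) (f : SchwartzMap E2 ℂ) {g : E2 → ℝ}
    (hfg : ∀ x, f x = (g x : ℂ)) (hg : Continuous g) (h0 : ∀ x, 0 ≤ g x)
    (h2 : ∀ x, δ ≤ ‖x‖ → g x = 0) {m : ℝ}
    (h3 : ∀ u : E2, ‖u‖ = 1 → m ≤ ∫ s in (-δ)..δ, g (s • u)) {x : E2}
    (hx : v x = ‖x‖⁻¹ • x) (hx1 : δ < ‖x‖) (hx2 : ‖x‖ + δ ≤ a) : m / a ≤ ‖Hpv v a f x‖ := by
  obtain ⟨L, hL⟩ := schw_lip f
  have hr : 0 < ‖x‖ := hδ.trans hx1
  have ha : 0 < a := by linarith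
  have hu : ‖v x‖ = 1 := by rw [hx]; exact norm_smul_inv_norm (norm_pos_iff.1 hr)
  have hxu : x = ‖x‖ • v x := by rw [hx, smul_inv_smul₀ hr.ne']
  set u := v x with hudef
  set r := ‖x‖ with hrdef
  let p : ℝ → ℝ := fun t => g ((r - t) • u) / t
  have hk : ∀ t, 0 ≤ t → kk f x u t = (p t : ℂ) := by
    intro t ht
    have e1 : x - t • u = (r - t) • u := by rw [sub_smul, ← hxu]
    have e2 : x + t • u = (r + t) • u := by rw [add_smul, ← hxu]
    have e3 : g ((r + t) • u) = 0 := h2 _ (by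
      rw [norm_smul, hu, mul_one, Real.norm_of_nonneg (by linarith)]; linarith)
    unfold kk
    rw [e1, e2, hfg, hfg, e3]
    simp [p]
  have hp0 : ∀ t, 0 ≤ t → 0 ≤ p t := fun t ht => div_nonneg (h0 _) ht
  have hpi : IntervalIntegrable p volume 0 a := by
    refine (kk_int hL x u hu 0 a).norm.congr_uIoo fun t ht => ?_
    rw [uIoo_of_le ha.le] at ht
    simp only
    rw [hk t ht.1.le, Complex.norm_real, Real.norm_of_nonneg (hp0 t ht.1.le)]
  have e4 : Hpv v a f x = ((∫ t in (0 : ℝ)..a, p t : ℝ) : ℂ) := by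
    rw [hpv_eq f v ha x hu, ← intervalIntegral.integral_ofReal]
    refine intervalIntegral.integral_congr fun t ht => ?_
    rw [uIcc_of_le ha.le] at ht
    exact hk t ht.1
  rw [e4, Complex.norm_real]
  refine le_trans ?_ (le_abs_self _)
  have h5 : ∫ t in (r - δ)..(r + δ), p t ≤ ∫ t in (0 : ℝ)..a, p t :=
    intervalIntegral.integral_mono_interval (by linarith) (by linarith) hx2
      ((ae_restrict_iff' measurableSet_Ioc).2 (Eventually.of_forall fun t ht => hp0 t ht.1.le)) hpi
  have h6 : ∫ t in (r - δ)..(r + δ), g ((r - t) • u) / a ≤ ∫ t in (r - δ)..(r + δ), p t := by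
    refine intervalIntegral.integral_mono_on (by linarith)
      (Continuous.intervalIntegrable (by fun_prop) _ _) (hpi.mono_set ?_) fun t ht => ?_
    · rw [uIcc_of_le (by linarith), uIcc_of_le ha.le]
      exact Icc_subset_Icc (by linarith) hx2
    · exact div_le_div_of_nonneg_left (h0 _) (by linarith [ht.1]) (by linarith [ht.2])
  rw [intervalIntegral.integral_div,
    intervalIntegral.integral_comp_sub_left (fun s => g (s • u)) r] at h6
  have e5 : r - (r + δ) = -δ := by ring
  have e6 : r - (r - δ) = δ := by ring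
  rw [e5, e6] at h6
  exact (div_le_div_of_nonneg_right (h3 u hu) ha.le).trans (h6.trans h5)

theorem exists_bad {a : ℝ} (ha : 1 < a) : ∃ v : E2 → E2, UnitLip v ∧ ∀ C, ¬ Bound v a C := by
  obtain ⟨v, hv, hv2⟩ := exists_field
  refine ⟨v, hv, fun C hC => ?_⟩
  obtain ⟨δ, hδ, hδ1, hδ2⟩ : ∃ δ : ℝ, 0 < δ ∧ δ ≤ 1 / 2 ∧ 1 + 3 * δ ≤ a :=
    ⟨min (1 / 2) ((a - 1) / 3), lt_min (by norm_num) (by linarith), min_le_left _ _,
      by linarith [min_le_right (1 / 2) ((a - 1) / 3)]⟩
  have ha0 : 0 < a := by linarith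
  obtain ⟨N, hN⟩ := exists_nat_gt (12 * |C| * a ^ 2 / δ ^ 2)
  have hN0 : (0 : ℝ) < N := lt_of_le_of_lt (by positivity) hN
  obtain ⟨g, G, -, hg, h0, -, h2, h3, h4⟩ := exists_fun hδ N
  have hcs : HasCompactSupport fun x => (g x : ℂ) :=
    HasCompactSupport.intro (isCompact_closedBall (0 : E2) δ) fun x hx => by
      rw [mem_closedBall, dist_zero_right, not_le] at hx
      rw [h2 x hx.le, Complex.ofReal_zero]
  let f : SchwartzMap E2 ℂ := hcs.toSchwartzMap (Complex.ofRealCLM.contDiff.comp hg)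
  have hfg : ∀ x, f x = (g x : ℂ) := fun x => rfl
  have hl : 0 < N * δ / a / 2 := by positivity
  let c : E2 := EuclideanSpace.single 0 (1 + δ)
  have hc0 : c 0 = 1 + δ := by simp [c]
  have hcn : ‖c‖ = 1 + δ := by simp [c, abs_of_pos (by linarith : 0 < 1 + δ)]
  have hsub : ball c δ ⊆ {x | N * δ / a / 2 < ‖Hpv v a f x‖} := by
    intro x hx
    rw [mem_ball, dist_eq_norm] at hx
    have b1 : |(x - c) 0| ≤ ‖x - c‖ := by
      rw [← Real.norm_eq_abs]; exact PiLp.norm_apply_le _ _
    rw [PiLp.sub_apply, hc0] at b1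
    have b2 : 1 ≤ x 0 := by linarith [neg_abs_le (x 0 - (1 + δ))]
    have b3 := norm_sub_norm_le x c
    have b4 := norm_sub_norm_le c x
    rw [norm_sub_rev] at b4
    have b5 := hpv_lower (v := v) (a := a) hδ f hfg hg.continuous h0 h2 h3 (hv2 x b2)
      (by linarith) (by linarith)
    change N * δ / a / 2 < _
    linarith
  have h5 := (measure_mono hsub).trans (hC f _ hl)
  have hI : ∫ x, ‖f x‖ ^ 2 = ∫ x, g x ^ 2 := by
    congr 1; funext x; rw [hfg, Complex.norm_real, Real.norm_eq_abs, sq_abs]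
  have hI0 : 0 ≤ ∫ x, g x ^ 2 := integral_nonneg fun x => by positivity
  have h6 : C * ((N * δ / a / 2) ^ 2)⁻¹ * ∫ x, g x ^ 2 ≤
      |C| * ((N * δ / a / 2) ^ 2)⁻¹ * (N * (3 * δ ^ 2 * Real.pi)) := by
    gcongr
    exact le_abs_self C
  rw [hI, EuclideanSpace.volume_ball_fin_two, ← ENNReal.ofReal_pow hδ.le,
    ← ENNReal.ofReal_mul (by positivity)] at h5
  have h7 := (ENNReal.ofReal_le_ofReal_iff (by positivity)).1
    (h5.trans (ENNReal.ofReal_le_ofReal h6))
  have h8 : |C| * ((N * δ / a / 2) ^ 2)⁻¹ * (N * (3 * δ ^ 2 * Real.pi)) =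
      (12 * |C| * a ^ 2 / N) * Real.pi := by field_simp; ring
  rw [h8] at h7
  have h9 := le_of_mul_le_mul_right h7 Real.pi_pos
  rw [le_div_iff₀ hN0] at h9
  rw [div_lt_iff₀ (by positivity)] at hN
  linarith

end Vale.Agent.P112
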