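import Mathlib

/-! Definitions for the directional Hilbert transform along a unit vector field of the plane. -/

namespace Vale.Agent.P112

open MeasureTheory Filter Topology

/-- The Euclidean plane. -/
abbrev E2 : Type := EuclideanSpace ℝ (Fin 2)

/-- The truncated directional Hilbert transform: the integral of `f (x - t v(x)) / t`
over `ε < |t| < a`. -/
noncomputable def Htr (v : E2 → E2) (a ε : ℝ) (f : E2 → ℂ) (x : E2) : ℂ :=
  ∫ t in {t : ℝ | ε < |t| ∧ |t| < a}, f (x - t • v x) / (t : ℂ)

/-- The principal value: the limit of the truncated transforms as `ε` decreases to `0`. -/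
noncomputable def Hpv (v : E2 → E2) (a : ℝ) (f : E2 → ℂ) (x : E2) : ℂ :=
  limUnder (𝓝[>] (0 : ℝ)) (fun ε => Htr v a ε f x)

/-- Unit vector fields with Lipschitz seminorm at most one. -/
def UnitLip (v : E2 → E2) : Prop :=
  (∀ x, ‖v x‖ = 1) ∧ LipschitzWith 1 v

/-- The weak (2,2) bound with constant `C` for the field `v` at truncation length `a`. -/
def Bound (v : E2 → E2) (a C : ℝ) : Prop :=
  ∀ (f : SchwartzMap E2 ℂ) (lam : ℝ), 0 < lam →
    volume {x : E2 | lam < ‖Hpv v a f x‖} ≤
      ENNReal.ofReal (C * (lam ^ 2)⁻¹ * ∫ x, ‖f x‖ ^ 2)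

/-- The bound holds with the same constant for all admissible fields. -/
def Weak (a C : ℝ) : Prop :=
  ∀ v : E2 → E2, UnitLip v → Bound v a C

/-- The bound holds with the same constant for all infinitely differentiable admissible fields. -/
def WeakSmooth (a C : ℝ) : Prop :=
  ∀ v : E2 → E2, UnitLip v → (∀ n : ℕ, ContDiff ℝ n v) → Bound v a C

end Vale.Agent.P112
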