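import Vale.Agent.P112.Basic

namespace Vale.Agent.P112

open MeasureTheory Filter Topology Set
open scoped ENNReal

theorem inner_two (x y : E2) : inner ℝ x y = x 0 * y 0 + x 1 * y 1 := by
  simp [PiLp.inner_apply, Fin.sum_univ_two]; ring

theorem det_lower (A : E2 →L[ℝ] E2) (u : E2) (hu : ‖u‖ = 1) (hA : ∀ w, ‖A w‖ ≤ ‖w‖)
    (ho : ∀ w, inner ℝ u (A w) = 0) (t : ℝ) :
    1 - |t| ≤ |(ContinuousLinearMap.id ℝ E2 - t • A).det| := by
  set e0 : E2 := EuclideanSpace.single 0 1 with he0
  set e1 : E2 := EuclideanSpace.single 1 1 with he1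
  have hdet : (ContinuousLinearMap.id ℝ E2 - t • A).det =
      (1 - t * A e0 0) * (1 - t * A e1 1) - (t * A e1 0) * (t * A e0 1) := by
    rw [ContinuousLinearMap.det, ← LinearMap.det_toMatrix (EuclideanSpace.basisFun (Fin 2) ℝ).toBasis,
      Matrix.det_fin_two]
    simp [LinearMap.toMatrix_apply, he0, he1]
  have hcs : u 0 * u 0 + u 1 * u 1 = 1 := by
    rw [← inner_two, real_inner_self_eq_norm_sq, hu]; norm_num
  have h0 := ho e0
  have h1 := ho e1
  rw [inner_two] at h0 h1
  set w : E2 := (-u 1) • e0 + (u 0) • e1 with hw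
  have hw0 : w 0 = -u 1 := by simp [hw, he0, he1]
  have hw1 : w 1 = u 0 := by simp [hw, he0, he1]
  have hwn : ‖w‖ = 1 := by
    have : ‖w‖ ^ 2 = 1 := by
      rw [← real_inner_self_eq_norm_sq, inner_two, hw0, hw1]; linarith
    exact (pow_eq_one_iff_of_nonneg (norm_nonneg _) two_ne_zero).1 this
  have hAw : A w = (-u 1) • A e0 + (u 0) • A e1 := by rw [hw, map_add, map_smul, map_smul]
  have htr : inner ℝ w (A w) = A e0 0 + A e1 1 := by
    rw [inner_two, hw0, hw1, hAw]
    simp only [PiLp.add_apply, PiLp.smul_apply, smul_eq_mul]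
    linear_combination (A e0 0 + A e1 1) * hcs - u 0 * h0 - u 1 * h1
  have hle : |A e0 0 + A e1 1| ≤ 1 := by
    rw [← htr]
    refine (abs_real_inner_le_norm _ _).trans ?_
    rw [hwn, one_mul]
    exact (hA w).trans hwn.le
  have hd : A e0 0 * A e1 1 - A e1 0 * A e0 1 = 0 := by
    linear_combination (-(A e0 0 * A e1 1 - A e1 0 * A e0 1)) * hcs +
      (u 0 * A e1 1 - u 1 * A e1 0) * h0 + (u 1 * A e0 0 - u 0 * A e0 1) * h1
  have hdet2 : (ContinuousLinearMap.id ℝ E2 - t • A).det = 1 - t * (A e0 0 + A e1 1) := by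
    rw [hdet]; linear_combination t ^ 2 * hd
  rw [hdet2]
  have h2 : t * (A e0 0 + A e1 1) ≤ |t| := by
    refine (le_abs_self _).trans ?_
    rw [abs_mul]
    exact mul_le_of_le_one_right (abs_nonneg t) hle
  linarith [le_abs_self (1 - t * (A e0 0 + A e1 1))]

theorem jac_bound {v : E2 → E2} (hv : UnitLip v) (hd : Differentiable ℝ v) {t : ℝ} (ht : |t| < 1)
    (g : E2 → ℝ≥0∞) : ENNReal.ofReal (1 - |t|) * ∫⁻ x, g (x - t • v x) ≤ ∫⁻ x, g x := by
  have hder : ∀ x ∈ (univ : Set E2), HasFDerivWithinAt (fun x => x - t • v x)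
      (ContinuousLinearMap.id ℝ E2 - t • fderiv ℝ v x) univ x := fun x _ =>
    ((hasFDerivAt_id x).sub ((hd x).hasFDerivAt.const_smul t)).hasFDerivWithinAt
  have hinj : InjOn (fun x => x - t • v x) univ := by
    intro x _ y _ hxy
    have h1 : x - y = t • (v x - v y) := by
      have h2 : x - t • v x = y - t • v y := hxy
      rw [smul_sub, sub_eq_sub_iff_sub_eq_sub]
      exact h2
    have h3 := hv.2.dist_le_mul x y
    rw [dist_eq_norm, dist_eq_norm, NNReal.coe_one, one_mul] at h3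
    have h4 : ‖x - y‖ = |t| * ‖v x - v y‖ := by rw [h1, norm_smul, Real.norm_eq_abs]
    have h5 : ‖x - y‖ ≤ 0 := by
      by_contra h6
      push Not at h6
      nlinarith [abs_nonneg t]
    exact sub_eq_zero.1 (norm_le_zero_iff.1 h5)
  have key := lintegral_image_eq_lintegral_abs_det_fderiv_mul volume MeasurableSet.univ hder hinj g
  rw [Measure.restrict_univ] at key
  refine le_trans ?_ (key.symm.le.trans (setLIntegral_le_lintegral _ _))
  rw [← lintegral_const_mul' _ _ ENNReal.ofReal_ne_top]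
  refine lintegral_mono fun x => ?_
  refine mul_le_mul_left (ENNReal.ofReal_le_ofReal ?_) _
  refine det_lower _ (v x) (hv.1 x) (fun w => ?_) (fun w => ?_) t
  · have h1 := norm_fderiv_le_of_lipschitz ℝ hv.2 (x₀ := x)
    refine ((fderiv ℝ v x).le_opNorm w).trans ?_
    exact mul_le_of_le_one_left (norm_nonneg w) h1
  · have h1 : HasFDerivAt (fun y => inner ℝ (v y) (v y)) _ x :=
      (hd x).hasFDerivAt.inner ℝ (hd x).hasFDerivAt
    have h2 : (fun y => inner ℝ (v y) (v y)) = fun _ => (1 : ℝ) := by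
      funext y; rw [real_inner_self_eq_norm_sq, hv.1 y]; norm_num
    rw [h2] at h1
    have h3 := h1.unique (hasFDerivAt_const (1 : ℝ) x)
    have h4 := congrArg (fun L => L w) h3
    simp only [ContinuousLinearMap.comp_apply, ContinuousLinearMap.prod_apply,
      fderivInnerCLM_apply, zero_apply] at h4
    rw [real_inner_comm (v x) (fderiv ℝ v x w)] at h4
    linarith

end Vale.Agent.P112
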