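import Vale.Agent.P112.RCex

namespace Vale.Agent.P112

open MeasureTheory Filter Topology Set Metric
open scoped ENNReal ContDiff

theorem mc_field {D w : ℝ} (hD : 0 < D) (hw : 0 ≤ w) : ∃ v : E2 → E2, (∀ x, ‖v x‖ = 1) ∧
    (∀ x y, D * ‖v x - v y‖ ≤ ‖x - y‖) ∧ (∀ x y, D * ‖v x - v y‖ ≤ 2 * w) ∧
    ∀ x : E2, D ≤ x 0 → |x 1| ≤ w → v x = ‖x‖⁻¹ • x := by
  let P : E2 → E2 := fun x => WithLp.toLp 2 ![max (x 0) D, max (min (x 1) w) (-w)]
  have hP0 : ∀ x, P x 0 = max (x 0) D := fun x => by simp [P]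
  have hP1 : ∀ x, P x 1 = max (min (x 1) w) (-w) := fun x => by simp [P]
  have hn : ∀ x, D ≤ ‖P x‖ := by
    intro x
    refine (pow_le_pow_iff_left₀ hD.le (norm_nonneg _) two_ne_zero).1 ?_
    rw [← real_inner_self_eq_norm_sq, inner_two, hP0]
    nlinarith [le_max_right (x 0) D, mul_self_nonneg (P x 1)]
  have hl : ∀ x y, ‖P x - P y‖ ≤ ‖x - y‖ := by
    intro x y
    refine (pow_le_pow_iff_left₀ (norm_nonneg _) (norm_nonneg _) two_ne_zero).1 ?_
    rw [← real_inner_self_eq_norm_sq, ← real_inner_self_eq_norm_sq, inner_two, inner_two]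
    simp only [PiLp.sub_apply, hP0, hP1]
    have h1 := sq_le_sq.2 (abs_max_sub_max_le_abs (x 0) (y 0) D)
    have h2 := sq_le_sq.2 ((abs_max_sub_max_le_abs (min (x 1) w) (min (y 1) w) (-w)).trans
      (abs_min_sub_min_le_max _ _ _ _ |>.trans (by simp) : |min (x 1) w - min (y 1) w| ≤ |x 1 - y 1|))
    linarith
  let e : E2 := EuclideanSpace.single 0 1
  have he : ‖e‖ = 1 := by simp [e]
  have ho : ∀ x, D * ‖‖P x‖⁻¹ • P x - e‖ ≤ w := by
    intro x
    have h0 : D ≤ P x 0 := by rw [hP0]; exact le_max_right _ _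
    have h1 : ‖P x 0 • e‖ = P x 0 := by
      rw [norm_smul, he, mul_one, Real.norm_of_nonneg (by linarith)]
    have h2 := norm_lip hD (hn x) (q := P x 0 • e) (by rw [h1]; exact h0)
    rw [h1, inv_smul_smul₀ (by linarith)] at h2
    refine h2.trans ?_
    refine (pow_le_pow_iff_left₀ (norm_nonneg _) hw two_ne_zero).1 ?_
    rw [← real_inner_self_eq_norm_sq, inner_two]
    have a1 : (P x - P x 0 • e) 0 = 0 := by simp [e]
    have a2 : (P x - P x 0 • e) 1 = P x 1 := by simp [e]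
    have a3 : P x 1 ≤ w := by rw [hP1]; exact max_le (min_le_right _ _) (by linarith)
    have a4 : -w ≤ P x 1 := by rw [hP1]; exact le_max_right _ _
    rw [a1, a2]
    nlinarith
  refine ⟨fun x => ‖P x‖⁻¹ • P x, fun x => ?_, fun x y => (norm_lip hD (hn x) (hn y)).trans (hl x y),
    fun x y => ?_, fun x hx hx1 => ?_⟩
  · exact norm_smul_inv_norm (norm_pos_iff.1 (hD.trans_le (hn x)))
  · have h1 := norm_sub_le_norm_sub_add_norm_sub (‖P x‖⁻¹ • P x) e (‖P y‖⁻¹ • P y)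
    rw [norm_sub_rev e] at h1
    have h2 := mul_le_mul_of_nonneg_left h1 hD.le
    linarith [ho x, ho y]
  · have : P x = x := by
      ext i
      fin_cases i
      · exact (hP0 x).trans (max_eq_left hx)
      · refine (hP1 x).trans ?_
        rw [min_eq_left (abs_le.1 hx1).2, max_eq_left (abs_le.1 hx1).1]
        rfl
    simp only [this]

theorem mc_bad {v : E2 → E2} {a δ D : ℝ} (hδ : 0 < δ) (hδ1 : δ ≤ D / 2) (hδ2 : D + 3 * δ ≤ a)
    (hv2 : ∀ x : E2, D ≤ x 0 → |x 1| ≤ δ → v x = ‖x‖⁻¹ • x) (C : ℝ) : ¬ RadBound v a C := by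
  intro hC
  have ha0 : 0 < a := by linarith
  obtain ⟨N, hN⟩ := exists_nat_gt (12 * |C| * a ^ 2 / δ ^ 2)
  have hN0 : (0 : ℝ) < N := lt_of_le_of_lt (by positivity) hN
  obtain ⟨g, G, -, hg, h0, -, h2, h3, hrad, h4⟩ := exists_fun_rad hδ N
  have hcs : HasCompactSupport fun x => (g x : ℂ) :=
    HasCompactSupport.intro (isCompact_closedBall (0 : E2) δ) fun x hx => by
      rw [mem_closedBall, dist_zero_right, not_le] at hx
      rw [h2 x hx.le, Complex.ofReal_zero]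
  let f : SchwartzMap E2 ℂ := hcs.toSchwartzMap (Complex.ofRealCLM.contDiff.comp hg)
  have hfg : ∀ x, f x = (g x : ℂ) := fun x => rfl
  have hl : 0 < N * δ / a / 2 := by positivity
  let c : E2 := EuclideanSpace.single 0 (D + δ)
  have hc0 : c 0 = D + δ := by simp [c]
  have hcn : ‖c‖ = D + δ := by simp [c, abs_of_pos (by linarith : 0 < D + δ)]
  have hsub : ball c δ ⊆ {x | N * δ / a / 2 < ‖Hpv v a f x‖} := by
    intro x hx
    rw [mem_ball, dist_eq_norm] at hx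
    have b1 : |(x - c) 0| ≤ ‖x - c‖ := by
      rw [← Real.norm_eq_abs]; exact PiLp.norm_apply_le _ _
    rw [PiLp.sub_apply, hc0] at b1
    have b2 : D ≤ x 0 := by linarith [neg_abs_le (x 0 - (D + δ))]
    have b6 : |x 1| ≤ δ := by
      have b7 : |(x - c) 1| ≤ ‖x - c‖ := by
        rw [← Real.norm_eq_abs]; exact PiLp.norm_apply_le _ _
      have b8 : (x - c) 1 = x 1 := by simp [c]
      rw [b8] at b7
      linarith
    have b3 := norm_sub_norm_le x c
    have b4 := norm_sub_norm_le c x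
    rw [norm_sub_rev] at b4
    have b5 := hpv_lower (v := v) (a := a) hδ f hfg hg.continuous h0 h2 h3 (hv2 x b2 b6)
      (by linarith) (by linarith)
    change N * δ / a / 2 < _
    linarith
  have h5 := (measure_mono hsub).trans (hC f ⟨0, fun x y hxy => by
    rw [hfg, hfg, hrad x y (by simpa using hxy)]⟩ _ hl)
  have hI : ∫ x, ‖f x‖ ^ 2 = ∫ x, g x ^ 2 := by
    congr 1; funext x; rw [hfg, Complex.norm_real, Real.norm_eq_abs, sq_abs]
  have hI0 : 0 ≤ ∫ x, g x ^ 2 := integral_nonneg fun x => by positivity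
  have h6 : C * ((N * δ / a / 2) ^ 2)⁻¹ * ∫ x, g x ^ 2 ≤
      |C| * ((N * δ / a / 2) ^ 2)⁻¹ * (N * (3 * δ ^ 2 * Real.pi)) := by
    gcongr
    exact le_abs_self C
  rw [hI, EuclideanSpace.volume_ball_fin_two, ← ENNReal.ofReal_pow hδ.le,
    ← ENNReal.ofReal_mul (by positivity)] at h5
  have h7 := (ENNReal.ofReal_le_ofReal_iff (by positivity)).1
    (h5.trans (ENNReal.ofReal_le_ofReal h6))
  have h8 : |C| * ((N * δ / a / 2) ^ 2)⁻¹ * (N * (3 * δ ^ 2 * Real.pi)) =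
      (12 * |C| * a ^ 2 / N) * Real.pi := by field_simp; ring
  rw [h8] at h7
  have h9 := le_of_mul_le_mul_right h7 Real.pi_pos
  rw [le_div_iff₀ hN0] at h9
  rw [div_lt_iff₀ (by positivity)] at hN
  linarith

theorem modulus_bad {om : ℝ → ℝ} (h0 : 0 ≤ om 0) (hm : MonotoneOn om (Ici 0))
    (hom : Tendsto (fun t => om t / t) (𝓝[>] 0) atTop) {a : ℝ} (ha : 0 < a) :
    ∃ v : E2 → E2, (∀ x, ‖v x‖ = 1) ∧ (∀ x y, ‖v x - v y‖ ≤ om ‖x - y‖) ∧
      ∀ C, ¬ RadBound v a C := by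
  have hD : 0 < a / 2 := by positivity
  obtain ⟨t0, ht0, h1⟩ := (nhdsGT_basis (0 : ℝ)).eventually_iff.1
    (hom.eventually_ge_atTop (a / 2)⁻¹)
  obtain ⟨δ, hδ, d1, d2⟩ : ∃ δ : ℝ, 0 < δ ∧ δ ≤ a / 6 ∧ 2 * δ < t0 :=
    ⟨min (a / 6) (t0 / 4), lt_min (by positivity) (by positivity), min_le_left _ _,
      by linarith [min_le_right (a / 6) (t0 / 4)]⟩
  have key : ∀ t, 0 < t → t ≤ 2 * δ → t ≤ a / 2 * om t := fun t h2 h3 => by
    have h4 := h1 (show t ∈ Ioo 0 t0 from ⟨h2, by linarith⟩)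
    rw [le_div_iff₀ h2, inv_mul_le_iff₀ hD] at h4
    exact h4
  obtain ⟨v, v1, v2, v3, v4⟩ := mc_field hD hδ.le
  refine ⟨v, v1, fun x y => ?_, mc_bad hδ (by linarith) (by linarith) v4⟩
  rcases (norm_nonneg (x - y)).eq_or_lt with h2 | h2
  · have h3 := v2 x y
    rw [← h2] at h3 ⊢
    nlinarith [norm_nonneg (v x - v y)]
  · refine le_of_mul_le_mul_left ?_ hD
    rcases le_total ‖x - y‖ (2 * δ) with h3 | h3
    · exact (v2 x y).trans (key _ h2 h3)
    · refine (v3 x y).trans ((key _ (by positivity) le_rfl).trans ?_)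
      exact mul_le_mul_of_nonneg_left (hm (mem_Ici.2 (by positivity)) (mem_Ici.2 h2.le) h3) hD.le

end Vale.Agent.P112
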