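import Vale.Agent.P112.RDefs

/-! Weak type bound for centred averages on the line, and the square comparison. -/

namespace Vale.Agent.P112

open MeasureTheory Set
open scoped ENNReal

theorem a_weak : A_weak := by
  intro G m
  set I := ∫⁻ y, G y with hI
  rcases eq_or_ne m 0 with rfl | hm
  · simp
  rcases eq_or_ne I ∞ with hT | hT
  · rw [hT]; simp
  set t : Set ℝ := {ρ : ℝ | ¬ Good G ρ m} with ht
  have hex : ∀ ρ : ℝ, ∃ r : ℝ, ρ ∈ t →
      0 < r ∧ m * ENNReal.ofReal r < ∫⁻ y in Metric.ball ρ r, G y := by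
    intro ρ
    by_cases h : ρ ∈ t
    · have h' : ¬ Good G ρ m := h
      unfold Good at h'
      push Not at h'
      obtain ⟨r, hr, hr'⟩ := h'
      exact ⟨r, fun _ => ⟨hr, hr'⟩⟩
    · exact ⟨1, fun h' => absurd h' h⟩
  choose r hr using hex
  have hle : ∀ ρ ∈ t, r ρ ≤ (I / m).toReal := by
    intro ρ hρ
    have h1 : m * ENNReal.ofReal (r ρ) ≤ I :=
      (hr ρ hρ).2.le.trans (setLIntegral_le_lintegral _ _)
    have h2 : ENNReal.ofReal (r ρ) ≤ I / m := by
      rw [ENNReal.le_div_iff_mul_le (Or.inl hm) (Or.inr hT), mul_comm]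
      exact h1
    exact (ENNReal.ofReal_le_iff_le_toReal (ENNReal.div_ne_top hT hm)).mp h2
  obtain ⟨u, hut, hdis, hcov⟩ := Vitali.exists_disjoint_subfamily_covering_enlargement_ball t
    (fun a => a) r _ hle 5 (by norm_num)
  have hc : u.Countable := hdis.countable_of_isOpen (fun _ _ => Metric.isOpen_ball)
    (fun a ha => Metric.nonempty_ball.mpr (hr a (hut ha)).1)
  have hsub : t ⊆ ⋃ b ∈ u, Metric.ball b (5 * r b) := by
    intro a ha
    obtain ⟨b, hb, hab⟩ := hcov a ha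
    exact mem_biUnion hb (hab (Metric.mem_ball_self (hr a ha).1))
  calc m * volume t ≤ m * ∑' b : u, volume (Metric.ball (b : ℝ) (5 * r b)) := by
        gcongr
        exact (measure_mono hsub).trans (measure_biUnion_le _ hc _)
    _ = ∑' b : u, 10 * (m * ENNReal.ofReal (r b)) := by
        rw [← ENNReal.tsum_mul_left]
        refine tsum_congr fun b => ?_
        rw [Real.volume_ball, show 2 * (5 * r b) = 10 * r b by ring,
          ENNReal.ofReal_mul (by norm_num), ENNReal.ofReal_ofNat, mul_left_comm]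
    _ ≤ ∑' b : u, 10 * ∫⁻ y in Metric.ball (b : ℝ) (r b), G y := by
        refine ENNReal.tsum_le_tsum fun b => ?_
        gcongr
        exact (hr b (hut b.2)).2.le
    _ = 10 * ∫⁻ y in ⋃ b ∈ u, Metric.ball b (r b), G y := by
        rw [ENNReal.tsum_mul_left, lintegral_biUnion hc (fun _ _ => Metric.isOpen_ball.measurableSet)
          hdis]
    _ ≤ 10 * I := by
        gcongr
        exact setLIntegral_le_lintegral _ _

theorem a_sq : A_sq := by
  intro G ρ m hG h r hr
  have h1 := ENNReal.lintegral_mul_le_Lp_mul_Lq (volume.restrict (Metric.ball ρ r))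
    Real.HolderConjugate.two_two (f := fun _ : ℝ => (1 : ℝ≥0∞)) (g := G)
    aemeasurable_const hG.aemeasurable
  have e1 : ∫⁻ y in Metric.ball ρ r, ((fun _ : ℝ => (1 : ℝ≥0∞)) * G) y =
      ∫⁻ y in Metric.ball ρ r, G y := by
    simp
  have e2 : ∫⁻ _y in Metric.ball ρ r, (1 : ℝ≥0∞) ^ (2 : ℝ) ≤ 4 * ENNReal.ofReal r := by
    rw [ENNReal.one_rpow, setLIntegral_one, Real.volume_ball, ENNReal.ofReal_mul (by norm_num),
      ENNReal.ofReal_ofNat]
    gcongr
    norm_num
  have e3 : ∫⁻ y in Metric.ball ρ r, G y ^ (2 : ℝ) ≤ m ^ 2 * ENNReal.ofReal r := by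
    have := h r hr
    simpa only [ENNReal.rpow_two] using this
  rw [e1] at h1
  refine h1.trans ?_
  calc (∫⁻ _y in Metric.ball ρ r, (1 : ℝ≥0∞) ^ (2 : ℝ)) ^ (1 / 2 : ℝ) *
        (∫⁻ y in Metric.ball ρ r, G y ^ (2 : ℝ)) ^ (1 / 2 : ℝ)
      ≤ (4 * ENNReal.ofReal r) ^ (1 / 2 : ℝ) * (m ^ 2 * ENNReal.ofReal r) ^ (1 / 2 : ℝ) := by
        gcongr
    _ = ((2 * m * ENNReal.ofReal r) ^ (2 : ℝ)) ^ (1 / 2 : ℝ) := by
        rw [← ENNReal.mul_rpow_of_nonneg _ _ (by norm_num), ENNReal.rpow_two]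
        congr 1
        ring
    _ = 2 * m * ENNReal.ofReal r := by
        rw [← ENNReal.rpow_mul]
        norm_num

end Vale.Agent.P112
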