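import Vale.Agent.P112.RDefs

/-! Kernel bounds from centred averages. -/

namespace Vale.Agent.P112

open MeasureTheory Set
open scoped ENNReal

theorem ra2_k0 (H φ w : ℝ → ℝ≥0∞) (S : Set ℝ) (hH : Measurable H) (hw : Measurable w)
    (hS : MeasurableSet S) (h : ∀ u ∈ S, φ u ≤ ∫⁻ r in Ioi |u|, w r) :
    ∫⁻ u in S, H u * φ u ≤ ∫⁻ r, w r * ∫⁻ u in S ∩ Metric.ball 0 r, H u := by
  have hm : MeasurableSet {p : ℝ × ℝ | |p.1| < p.2} :=
    measurableSet_lt (continuous_abs.measurable.comp measurable_fst) measurable_snd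
  have hF : Measurable fun p : ℝ × ℝ =>
      {p : ℝ × ℝ | |p.1| < p.2}.indicator (fun p => H p.1 * w p.2) p :=
    ((hH.comp measurable_fst).mul (hw.comp measurable_snd)).indicator hm
  calc ∫⁻ u in S, H u * φ u
      ≤ ∫⁻ u in S, ∫⁻ r, {p : ℝ × ℝ | |p.1| < p.2}.indicator (fun p => H p.1 * w p.2) (u, r) := by
        refine setLIntegral_mono' hS fun u hu => ?_
        refine (mul_le_mul_right (h u hu) _).trans (le_of_eq ?_)
        rw [← lintegral_const_mul _ hw, ← lintegral_indicator measurableSet_Ioi]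
        rfl
    _ = ∫⁻ r, ∫⁻ u in S, {p : ℝ × ℝ | |p.1| < p.2}.indicator (fun p => H p.1 * w p.2) (u, r) :=
        lintegral_lintegral_swap hF.aemeasurable
    _ = _ := by
        refine lintegral_congr fun r => ?_
        rw [← lintegral_const_mul _ hH, inter_comm,
          ← Measure.restrict_restrict measurableSet_ball, ← lintegral_indicator measurableSet_ball]
        refine lintegral_congr fun u => ?_
        simp only [indicator, mem_setOf_eq, mem_ball_zero_iff, Real.norm_eq_abs, mul_comm]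

theorem ra2_pow {a c K : ℝ} (ha : a < -1) (hc : 0 < c) (hK : 0 ≤ K) :
    ∫⁻ r in Ioi c, ENNReal.ofReal (K * r ^ a) = ENNReal.ofReal (K * (-c ^ (a + 1) / (a + 1))) := by
  rw [← ofReal_integral_eq_lintegral_ofReal ((integrableOn_Ioi_rpow_of_lt ha hc).const_mul K),
    integral_const_mul, integral_Ioi_rpow_of_lt ha hc]
  filter_upwards [ae_restrict_mem measurableSet_Ioi] with r hr
  exact mul_nonneg hK (Real.rpow_nonneg (hc.trans hr).le _)

theorem ra2_shift {G : ℝ → ℝ≥0∞} {ρ : ℝ} {m : ℝ≥0∞} (h : Good G ρ m) :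
    Good (fun u => G (ρ + u)) 0 m := by
  intro r hr
  refine le_trans (le_of_eq ?_) (h r hr)
  rw [← lintegral_indicator measurableSet_ball, ← lintegral_indicator measurableSet_ball,
    ← lintegral_add_left_eq_self ((Metric.ball ρ r).indicator G) ρ]
  refine lintegral_congr fun u => ?_
  simp [indicator, Real.dist_eq]

theorem ra2_mul {K r : ℝ} (a : ℝ) (m : ℝ≥0∞) (hK : 0 ≤ K) (hr : 0 < r) :
    ENNReal.ofReal (K * r ^ a) * (m * ENNReal.ofReal r) = m * ENNReal.ofReal (K * r ^ (a + 1)) := by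
  rw [mul_left_comm, ← ENNReal.ofReal_mul (by positivity), Real.rpow_add_one hr.ne', mul_assoc]

theorem ra2_tail {H φ : ℝ → ℝ≥0∞} {S : Set ℝ} {m : ℝ≥0∞} {a K h : ℝ} (hH : Measurable H)
    (hG : Good H 0 m) (hS : MeasurableSet S) (ha : a + 1 < -1) (hK : 0 ≤ K) (hh : 0 < h)
    (h1 : ∀ u ∈ S, h ≤ |u|)
    (h2 : ∀ u ∈ S, φ u ≤ ENNReal.ofReal (K * (-|u| ^ (a + 1) / (a + 1)))) :
    ∫⁻ u in S, H u * φ u ≤ m * ENNReal.ofReal (K * (-h ^ (a + 1 + 1) / (a + 1 + 1))) := by
  refine (ra2_k0 H φ (fun r => ENNReal.ofReal (K * r ^ a)) S hH (by fun_prop) hS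
    fun u hu => ?_).trans ?_
  · rw [ra2_pow (by linarith) (hh.trans_le (h1 u hu)) hK]
    exact h2 u hu
  rw [← ra2_pow ha hh hK, ← lintegral_const_mul _ (by fun_prop),
    ← lintegral_indicator measurableSet_Ioi]
  refine lintegral_mono fun r => ?_
  by_cases hr : h < r
  · rw [indicator_of_mem (show r ∈ Ioi h from hr), ← ra2_mul a m hK (hh.trans hr)]
    exact mul_le_mul_right ((lintegral_mono_set inter_subset_right).trans (hG r (hh.trans hr))) _
  · have : S ∩ Metric.ball 0 r = ∅ := eq_empty_of_forall_notMem fun u hu => by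
      have h3 := h1 u hu.1
      have h4 : |u| < r := by simpa using hu.2
      linarith
    simp [this]

theorem a_k1 : A_k1 := by
  intro G ρ m h hG hg hh
  refine (ra2_tail (a := -(5 / 2)) (K := 3 / 2) (H := fun u => G (ρ + u)) (by fun_prop)
    (ra2_shift hg) measurableSet_Ioi (by norm_num) (by norm_num) hh
    (fun u hu => (le_of_lt hu).trans (le_abs_self u)) fun u hu => ?_).trans (le_of_eq ?_)
  · rw [abs_of_pos (hh.trans hu), show (-(5 / 2) + 1 : ℝ) = -(3 / 2) by norm_num]
    exact le_of_eq (congrArg _ (by ring))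
  · rw [show (-(5 / 2) + 1 + 1 : ℝ) = -(1 / 2) by norm_num,
      show (3 / 2 : ℝ) * (-h ^ (-(1 / 2) : ℝ) / -(1 / 2)) = 3 * h ^ (-(1 / 2) : ℝ) by ring,
      ENNReal.ofReal_mul (by norm_num), ENNReal.ofReal_ofNat]
    ring

theorem a_k3 : A_k3 := by
  intro G ρ m R hG hg hR
  have hS : MeasurableSet {y : ℝ | R ≤ |y - ρ|} := measurableSet_le (by fun_prop) (by fun_prop)
  have hS' : MeasurableSet {y : ℝ | R ≤ |y|} := measurableSet_le (by fun_prop) (by fun_prop)
  have e : ∫⁻ y in {y : ℝ | R ≤ |y - ρ|}, G y * ENNReal.ofReal (((y - ρ) ^ 2)⁻¹) =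
      ∫⁻ u in {y : ℝ | R ≤ |y|}, G (ρ + u) * ENNReal.ofReal ((u ^ 2)⁻¹) := by
    rw [← lintegral_indicator hS, ← lintegral_indicator hS', ← lintegral_add_left_eq_self _ ρ]
    refine lintegral_congr fun u => ?_
    simp [indicator]
  rw [e]
  refine (ra2_tail (a := -3) (K := 2) (H := fun u => G (ρ + u)) (by fun_prop)
    (ra2_shift hg) hS' (by norm_num) (by norm_num) hR (fun u hu => hu) fun u hu => ?_).trans
    (le_of_eq ?_)
  · rw [show (-3 + 1 : ℝ) = -(2 : ℕ) by norm_num, Real.rpow_neg (abs_nonneg u), Real.rpow_natCast,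
      sq_abs]
    exact le_of_eq (congrArg _ (by push_cast; ring))
  · rw [show (-3 + 1 + 1 : ℝ) = -1 by norm_num, Real.rpow_neg_one,
      show (2 : ℝ) * (-R⁻¹ / -1) = 2 * R⁻¹ by ring,
      ENNReal.ofReal_mul (by norm_num), ENNReal.ofReal_ofNat]
    ring

theorem a_k2 : A_k2 := by
  intro G ρ m h hG hg hh
  have hg' := ra2_shift hg
  refine (ra2_k0 (fun u => G (ρ + u)) _ (fun r => ENNReal.ofReal (1 / 2 * r ^ (-(3 / 2) : ℝ))) _
    (by fun_prop) (by fun_prop) measurableSet_Ioo fun u hu => ?_).trans ?_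
  · rw [abs_of_pos hu.1, ra2_pow (by norm_num) hu.1 (by norm_num),
      show (-(3 / 2) + 1 : ℝ) = -(1 / 2) by norm_num]
    exact le_of_eq (congrArg _ (by ring))
  have i1 : ∫⁻ r in Ioc 0 h, ENNReal.ofReal (1 / 2 * r ^ (-(3 / 2) + 1 : ℝ)) =
      ENNReal.ofReal (h ^ (1 / 2 : ℝ)) := by
    have hi := (intervalIntegrable_iff_integrableOn_Ioc_of_le hh.le).1
      (intervalIntegral.intervalIntegrable_rpow' (a := 0) (b := h) (r := -(3 / 2) + 1)
        (by norm_num))
    rw [← ofReal_integral_eq_lintegral_ofReal (hi.const_mul (1 / 2)), integral_const_mul,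
      ← intervalIntegral.integral_of_le hh.le, integral_rpow (Or.inl (by norm_num)),
      show (-(3 / 2) + 1 + 1 : ℝ) = 1 / 2 by norm_num, Real.zero_rpow (by norm_num)]
    · exact congrArg _ (by ring)
    · filter_upwards [ae_restrict_mem measurableSet_Ioc] with r hr
      exact mul_nonneg (by norm_num) (Real.rpow_nonneg hr.1.le _)
  have i2 : ∫⁻ r in Ioi h, ENNReal.ofReal (h / 2 * r ^ (-(3 / 2) : ℝ)) =
      ENNReal.ofReal (h ^ (1 / 2 : ℝ)) := by
    rw [ra2_pow (by norm_num) hh (by positivity), show (1 / 2 : ℝ) = -(3 / 2) + 1 + 1 by norm_num,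
      Real.rpow_add_one hh.ne' (-(3 / 2) + 1)]
    exact congrArg _ (by ring)
  calc _ ≤ ∫⁻ r, ((Ioc 0 h).indicator
          (fun r => m * ENNReal.ofReal (1 / 2 * r ^ (-(3 / 2) + 1 : ℝ))) r +
        (Ioi h).indicator (fun r => m * ENNReal.ofReal (h / 2 * r ^ (-(3 / 2) : ℝ))) r) := by
        refine lintegral_mono fun r => ?_
        rcases le_or_gt r 0 with h0 | h0
        · simp [Metric.ball_eq_empty.2 h0]
        rcases le_or_gt r h with h1 | h1
        · refine le_trans ?_ le_self_add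
          rw [indicator_of_mem (show r ∈ Ioc 0 h from ⟨h0, h1⟩), ← ra2_mul _ m (by norm_num) h0]
          exact mul_le_mul_right ((lintegral_mono_set inter_subset_right).trans (hg' r h0)) _
        · refine le_trans ?_ le_add_self
          rw [indicator_of_mem (show r ∈ Ioi h from h1)]
          have hs : Ioo 0 h ∩ Metric.ball 0 r ⊆ Metric.ball 0 h := fun u hu => by
            simpa [abs_of_pos hu.1.1] using hu.1.2
          refine (mul_le_mul_right ((lintegral_mono_set hs).trans (hg' h hh)) _).trans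
            (le_of_eq ?_)
          rw [mul_left_comm, ← ENNReal.ofReal_mul (by positivity)]
          exact congrArg _ (congrArg _ (by ring))
    _ = _ := by
        rw [lintegral_add_left (Measurable.indicator (by fun_prop) measurableSet_Ioc),
          lintegral_indicator measurableSet_Ioc, lintegral_indicator measurableSet_Ioi,
          lintegral_const_mul _ (by fun_prop), lintegral_const_mul _ (by fun_prop), i1, i2]
        ring

end Vale.Agent.P112
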