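import Vale.Agent.P112.RDefs

/-! The Cauchy transform is bounded on square integrable functions. -/

namespace Vale.Agent.P112

open MeasureTheory Set FourierTransform SchwartzMap
open scoped ENNReal ContDiff

theorem RB_swap {f g : ℝ → ℂ} (hf : Integrable f) (hg : Integrable g) :
    ∫ x, 𝓕 f x • g x = ∫ x, f x • 𝓕 g x := by
  have h := VectorFourier.integral_fourierIntegral_smul_eq_flip (L := innerₗ ℝ)
    Real.continuous_fourierChar continuous_inner hf hg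
  rw [flip_innerₗ] at h
  exact h

theorem RB_cont {f : ℝ → ℂ} (hf : Integrable f) : Continuous (𝓕 f) :=
  VectorFourier.fourierIntegral_continuous Real.continuous_fourierChar continuous_inner hf

theorem RB_sq (f : ℝ → ℂ) : eLpNorm f 2 volume ^ 2 = ∫⁻ x, ‖f x‖ₑ ^ 2 := by
  have := eLpNorm_nnreal_pow_eq_lintegral (f := f) (μ := volume) (p := 2) two_ne_zero
  simpa using this

theorem RB_pl {G : ℝ → ℂ} (h1 : Integrable G) (h2 : ∫⁻ x, ‖G x‖ₑ ^ 2 ≠ ⊤) :
    ∫⁻ x, ‖𝓕 G x‖ₑ ^ 2 = ∫⁻ x, ‖G x‖ₑ ^ 2 := by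
  have hm : MemLp G 2 volume := by
    refine ⟨h1.1, lt_top_iff_ne_top.2 fun h => h2 ?_⟩
    rw [← RB_sq, h]
    simp
  have e1 : eLpNorm (𝓕 (hm.toLp G) : Lp ℂ 2 (volume : Measure ℝ)) 2 volume =
      eLpNorm (hm.toLp G) 2 volume :=
    (ENNReal.toReal_eq_toReal_iff' (Lp.eLpNorm_ne_top _) (Lp.eLpNorm_ne_top _)).1
      (Lp.norm_fourier_eq (hm.toLp G))
  have e2 : ((𝓕 (hm.toLp G) : Lp ℂ 2 (volume : Measure ℝ)) : ℝ → ℂ) =ᵐ[volume] 𝓕 G := by
    refine ae_eq_of_integral_contDiff_smul_eq ((Lp.memLp _).locallyIntegrable one_le_two)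
      (RB_cont h1).locallyIntegrable fun g g1 g2 => ?_
    have hg₁ : HasCompactSupport (Complex.ofRealCLM ∘ g) := g2.comp_left rfl
    have hg₂ : ContDiff ℝ ∞ (Complex.ofRealCLM ∘ g) := by fun_prop
    have a1 := Lp.toTemperedDistribution_apply (𝓕 (hm.toLp G) : Lp ℂ 2 (volume : Measure ℝ))
      (hg₁.toSchwartzMap hg₂)
    rw [← Lp.fourier_toTemperedDistribution_eq, TemperedDistribution.fourier_apply,
      Lp.toTemperedDistribution_apply] at a1
    have a2 : ∫ x, (𝓕 (hg₁.toSchwartzMap hg₂)) x • (hm.toLp G) x =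
        ∫ x, 𝓕 (hg₁.toSchwartzMap hg₂ : ℝ → ℂ) x • G x := by
      refine integral_congr_ae ?_
      filter_upwards [hm.coeFn_toLp] with x hx
      rw [hx, SchwartzMap.fourier_coe]
    rw [a2, RB_swap (hg₁.toSchwartzMap hg₂).integrable h1] at a1
    exact a1.symm
  rw [← RB_sq, ← RB_sq, ← eLpNorm_congr_ae e2, e1, eLpNorm_congr_ae hm.coeFn_toLp]

/-- the kernel on the Fourier side -/
noncomputable def RB_k (ε z ξ : ℝ) : ℂ :=
  (Ioi (0 : ℝ)).indicator (fun ξ : ℝ => -(2 * Real.pi * Complex.I) *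
    Complex.exp (2 * Real.pi * Complex.I * ((z : ℂ) + ε * Complex.I) * ξ)) ξ

theorem RB_re {ε : ℝ} (hε : 0 < ε) (z : ℝ) :
    (2 * Real.pi * Complex.I * ((z : ℂ) + ε * Complex.I)).re < 0 := by
  have := mul_pos Real.pi_pos hε
  simp
  linarith

theorem RB_int {ε : ℝ} (hε : 0 < ε) (z : ℝ) : Integrable (RB_k ε z) :=
  (integrable_indicator_iff measurableSet_Ioi).2
    ((integrableOn_exp_mul_complex_Ioi (RB_re hε z) 0).const_mul _)

theorem RB_sh (ε z y ξ : ℝ) :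
    Complex.exp (↑(-2 * Real.pi * ξ * y) * Complex.I) • RB_k ε z ξ = RB_k ε (z - y) ξ := by
  unfold RB_k
  by_cases h : ξ ∈ Ioi (0 : ℝ)
  · rw [indicator_of_mem h, indicator_of_mem h, smul_eq_mul, mul_left_comm, ← Complex.exp_add]
    congr 2
    push_cast
    ring
  · rw [indicator_of_notMem h, indicator_of_notMem h, smul_zero]

theorem RB_ft {ε : ℝ} (hε : 0 < ε) (z y : ℝ) :
    𝓕 (RB_k ε z) y = 1 / (((z - y : ℝ) : ℂ) + (ε : ℂ) * Complex.I) := by
  rw [Real.fourier_real_eq_integral_exp_smul]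
  simp only [RB_sh]
  unfold RB_k
  have h0 : (2 * Real.pi * Complex.I * (((z - y : ℝ) : ℂ) + ε * Complex.I)) ≠ 0 := fun h => by
    have := RB_re hε (z - y)
    rw [h] at this
    simp at this
  have h1 := left_ne_zero_of_mul h0
  have h2 := right_ne_zero_of_mul h0
  rw [integral_indicator measurableSet_Ioi, integral_const_mul,
    integral_exp_mul_complex_Ioi (RB_re hε _) 0, Complex.ofReal_zero, mul_zero, Complex.exp_zero]
  generalize (2 * Real.pi * Complex.I : ℂ) = a at h1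
  generalize (((z - y : ℝ) : ℂ) + ε * Complex.I) = b at h2
  field_simp

theorem RB_le {ε : ℝ} (hε : 0 < ε) (ξ : ℝ) : ‖RB_k ε 0 ξ‖ₑ ^ 2 ≤ 40 := by
  have h1 : ‖RB_k ε 0 ξ‖ ≤ 2 * Real.pi := by
    unfold RB_k
    by_cases h : ξ ∈ Ioi (0 : ℝ)
    · rw [indicator_of_mem h, norm_mul, Complex.norm_exp, Complex.mul_re, Complex.ofReal_re,
        Complex.ofReal_im, mul_zero, sub_zero]
      have e : ‖-(2 * Real.pi * Complex.I : ℂ)‖ = 2 * Real.pi := by
        simp [abs_of_pos Real.pi_pos]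
      rw [e]
      exact mul_le_of_le_one_right (by positivity) (Real.exp_le_one_iff.2
        (mul_nonpos_of_nonpos_of_nonneg (RB_re hε 0).le (le_of_lt h)))
    · rw [indicator_of_notMem h, norm_zero]
      positivity
  have h2 : ‖RB_k ε 0 ξ‖ ^ 2 ≤ 40 := by
    have := Real.pi_lt_d2
    have := Real.pi_pos
    nlinarith [norm_nonneg (RB_k ε 0 ξ)]
  rw [← ofReal_norm_eq_enorm, ← ENNReal.ofReal_pow (norm_nonneg _)]
  exact (ENNReal.ofReal_le_ofReal h2).trans_eq (by simp)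

theorem b_cauchy : B_cauchy := by
  intro G ε hG hε
  by_cases h2 : ∫⁻ x, ‖G x‖ₑ ^ 2 = ⊤
  · rw [h2, ENNReal.mul_top (by norm_num)]
    exact le_top
  have hH : Integrable fun ξ => RB_k ε 0 ξ * 𝓕 G ξ :=
    (RB_int hε 0).mul_bdd (RB_cont hG).aestronglyMeasurable (Filter.Eventually.of_forall fun ξ =>
      VectorFourier.norm_fourierIntegral_le_integral_norm _ _ _ G ξ)
  have hb : ∫⁻ ξ, ‖RB_k ε 0 ξ * 𝓕 G ξ‖ₑ ^ 2 ≤ 40 * ∫⁻ x, ‖G x‖ₑ ^ 2 := by
    rw [← RB_pl hG h2, ← lintegral_const_mul' _ _ (by norm_num)]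
    refine lintegral_mono fun ξ => ?_
    rw [enorm_mul, mul_pow]
    exact mul_le_mul_left (RB_le hε ξ) _
  have key : ∀ z : ℝ, ∫ y : ℝ, G y / (((z - y : ℝ) : ℂ) + (ε : ℂ) * Complex.I) =
      𝓕 (fun ξ => RB_k ε 0 ξ * 𝓕 G ξ) (-z) := fun z => by
    have h := RB_swap hG (RB_int hε z)
    simp only [RB_ft hε, smul_eq_mul, mul_one_div] at h
    rw [← h, Real.fourier_real_eq_integral_exp_smul]
    refine integral_congr_ae (Filter.Eventually.of_forall fun ξ => ?_)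
    have e := RB_sh ε 0 (-z) ξ
    rw [zero_sub, neg_neg] at e
    beta_reduce
    rw [← e, smul_eq_mul, smul_eq_mul]
    ring
  simp only [key]
  rw [lintegral_neg_eq_self fun z => ‖𝓕 (fun ξ => RB_k ε 0 ξ * 𝓕 G ξ) z‖ₑ ^ 2,
    RB_pl hH (ne_top_of_le_ne_top (ENNReal.mul_ne_top (by norm_num) h2) hb)]
  exact hb

end Vale.Agent.P112
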