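import Vale.Agent.P112.RDefs

/-! Cotlar's inequality: weak type bound for the maximal truncated Hilbert transform. -/

namespace Vale.Agent.P112

open MeasureTheory Set
open scoped ENNReal

/-- regularized Cauchy transform -/
noncomputable def rc_c (F : ℝ → ℂ) (ε z : ℝ) : ℂ :=
  ∫ y : ℝ, F y / (((z - y : ℝ) : ℂ) + (ε : ℂ) * Complex.I)

theorem rc_int {F : ℝ → ℂ} (hF : Integrable F volume) (k : ℝ → ℂ) (hk : Measurable k) (T : Set ℝ)
    (hT : MeasurableSet T) {c : ℝ} (hc : 0 < c) (h : ∀ y ∈ T, c ≤ ‖k y‖) :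
    IntegrableOn (fun y => F y / k y) T volume := by
  refine Integrable.mono' (hF.norm.div_const c).integrableOn
    (hF.aestronglyMeasurable.restrict.aemeasurable.div hk.aemeasurable).aestronglyMeasurable ?_
  filter_upwards [ae_restrict_mem hT] with y hy
  rw [norm_div]
  exact div_le_div_of_nonneg_left (norm_nonneg _) hc (h y hy)

theorem rc_HR {F : ℝ → ℂ} (hF : Integrable F volume) (ρ : ℝ) {R : ℝ} (hR : 0 < R) :
    HR F ρ R = ∫ y in {y : ℝ | R < |y - ρ|}, F y / ((ρ - y : ℝ) : ℂ) := by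
  have hk : Measurable fun y : ℝ => ((ρ - y : ℝ) : ℂ) := by fun_prop
  have hs : {y : ℝ | R < |y - ρ|} = Iio (ρ - R) ∪ Ioi (ρ + R) := by
    ext y
    simp only [mem_ofPred_eq, mem_union, mem_Iio, mem_Ioi, lt_abs]
    constructor <;> rintro (h | h) <;> [right; left; right; left] <;> linarith
  have i1 : IntegrableOn (fun y => F y / ((ρ - y : ℝ) : ℂ)) (Iio (ρ - R)) volume :=
    rc_int hF _ hk _ measurableSet_Iio hR fun y hy => by
      rw [Complex.norm_real, Real.norm_eq_abs, le_abs]; left; linarith [mem_Iio.1 hy]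
  have i2 : IntegrableOn (fun y => F y / ((ρ - y : ℝ) : ℂ)) (Ioi (ρ + R)) volume :=
    rc_int hF _ hk _ measurableSet_Ioi hR fun y hy => by
      rw [Complex.norm_real, Real.norm_eq_abs, le_abs]; right; linarith [mem_Ioi.1 hy]
  rw [hs, setIntegral_union (disjoint_left.2 fun y h h' => by
    linarith [mem_Iio.1 h, mem_Ioi.1 h']) measurableSet_Ioi i1 i2]
  have e1 := (Measure.measurePreserving_sub_left volume ρ).setIntegral_preimage_emb
    (MeasurableEquiv.subLeft ρ).measurableEmbedding (fun y => F y / ((ρ - y : ℝ) : ℂ))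
    (Iio (ρ - R))
  have e2 := (measurePreserving_add_left volume ρ).setIntegral_preimage_emb
    (MeasurableEquiv.addLeft ρ).measurableEmbedding (fun y => F y / ((ρ - y : ℝ) : ℂ))
    (Ioi (ρ + R))
  have p1 : (fun σ => ρ - σ) ⁻¹' Iio (ρ - R) = Ioi R := by ext σ; simp
  have p2 : (fun σ => ρ + σ) ⁻¹' Ioi (ρ + R) = Ioi R := by ext σ; simp
  rw [← e1, ← e2, p1, p2]
  have hn : ∀ y ∈ Ioi R, R ≤ ‖((y : ℝ) : ℂ)‖ := fun y hy => by
    rw [Complex.norm_real, Real.norm_eq_abs]; exact (mem_Ioi.1 hy).le.trans (le_abs_self y)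
  have j1 := rc_int (hF.comp_sub_left ρ) (fun y : ℝ => (y : ℂ)) (by fun_prop) _
    measurableSet_Ioi hR hn
  have j2 := rc_int (hF.comp_add_left ρ) (fun y : ℝ => (y : ℂ)) (by fun_prop) _
    measurableSet_Ioi hR hn
  simp only [HR, sub_div, sub_sub_cancel, sub_add_cancel_left, Complex.ofReal_neg, div_neg]
  rw [integral_sub j1 j2, integral_neg, sub_eq_add_neg]

theorem rc_low (x ε : ℝ) : |x| ≤ ‖(x : ℂ) + (ε : ℂ) * Complex.I‖ ∧
    |ε| ≤ ‖(x : ℂ) + (ε : ℂ) * Complex.I‖ := by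
  constructor
  · simpa using Complex.abs_re_le_norm ((x : ℂ) + (ε : ℂ) * Complex.I)
  · simpa using Complex.abs_im_le_norm ((x : ℂ) + (ε : ℂ) * Complex.I)

theorem rc_ker {ρ R ε z y : ℝ} (hε : 0 < ε) (hR : 2 * ε ≤ R) (hz : |z - ρ| < R / 2)
    (hy : R < |y - ρ|) (w : ℂ) :
    ‖w / ((ρ - y : ℝ) : ℂ) - w / (((z - y : ℝ) : ℂ) + (ε : ℂ) * Complex.I)‖ ≤
      ‖w‖ * (2 * R * ((y - ρ) ^ 2)⁻¹) := by
  have h0 : 0 < |y - ρ| := by linarith
  have h1 : |y - ρ| / 2 ≤ ‖((z - y : ℝ) : ℂ) + (ε : ℂ) * Complex.I‖ := by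
    refine le_trans ?_ (rc_low _ _).1
    have := abs_sub_le y z ρ
    rw [abs_sub_comm y z] at this
    linarith
  have h2 : ‖((ρ - y : ℝ) : ℂ)‖ = |y - ρ| := by
    rw [Complex.norm_real, Real.norm_eq_abs, abs_sub_comm]
  have n1 : ((z - y : ℝ) : ℂ) + (ε : ℂ) * Complex.I ≠ 0 := norm_pos_iff.1 (by linarith)
  have n2 : ((ρ - y : ℝ) : ℂ) ≠ 0 := norm_pos_iff.1 (by linarith)
  have h3 : ‖((z - ρ : ℝ) : ℂ) + (ε : ℂ) * Complex.I‖ ≤ R := by
    refine (norm_add_le _ _).trans ?_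
    rw [norm_mul, Complex.norm_I, Complex.norm_real, Complex.norm_real, Real.norm_eq_abs,
      Real.norm_eq_abs, abs_of_pos hε]
    linarith
  have e : w / ((ρ - y : ℝ) : ℂ) - w / (((z - y : ℝ) : ℂ) + (ε : ℂ) * Complex.I) =
      w * ((((z - ρ : ℝ) : ℂ) + (ε : ℂ) * Complex.I) /
        (((ρ - y : ℝ) : ℂ) * (((z - y : ℝ) : ℂ) + (ε : ℂ) * Complex.I))) := by
    rw [div_sub_div _ _ n2 n1, ← mul_div_assoc]
    congr 1
    push_cast
    ring
  rw [e, norm_mul, norm_div, norm_mul, h2]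
  refine mul_le_mul_of_nonneg_left ?_ (norm_nonneg _)
  calc _ ≤ R / (|y - ρ| * (|y - ρ| / 2)) := by
        gcongr
        linarith
    _ = _ := by
        rw [← sq_abs (y - ρ)]
        field_simp

theorem rc_sq (x y z : ℝ≥0∞) : (x + y + z) ^ 2 ≤ 9 * (x ^ 2 + y ^ 2 + z ^ 2) := by
  have k : ∀ M : ℝ≥0∞, x ≤ M → y ≤ M → z ≤ M → M ^ 2 ≤ x ^ 2 + y ^ 2 + z ^ 2 →
      (x + y + z) ^ 2 ≤ 9 * (x ^ 2 + y ^ 2 + z ^ 2) := fun M a b c d =>
    calc (x + y + z) ^ 2 ≤ (M + M + M) ^ 2 := by gcongr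
      _ = 9 * M ^ 2 := by ring
      _ ≤ _ := by gcongr
  rcases le_total x y with a | a <;> rcases le_total y z with b | b <;>
    rcases le_total x z with c | c
  all_goals first
    | exact k z (by assumption) (by assumption) le_rfl le_add_self
    | exact k y (by assumption) le_rfl (by assumption) (le_add_right le_add_self)
    | exact k x le_rfl (by assumption) (by assumption) (le_add_right (le_add_right le_rfl))
    | exact k z (a.trans b) b le_rfl le_add_self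
    | exact k x le_rfl a (b.trans a) (le_add_right (le_add_right le_rfl))

theorem rc_meas {F : ℝ → ℂ} (hm : Measurable F) (ε : ℝ) : Measurable (rc_c F ε) := by
  have : StronglyMeasurable (Function.uncurry fun z y : ℝ =>
      F y / (((z - y : ℝ) : ℂ) + (ε : ℂ) * Complex.I)) := by
    refine Measurable.stronglyMeasurable ?_
    unfold Function.uncurry
    fun_prop
  exact (this.integral_prod_right (ν := volume)).measurable

theorem rc_pt (h2 : A_sq) (h3 : A_k3) {F : ℝ → ℂ} (hm : Measurable F) (hF : Integrable F volume)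
    {ρ R ε z : ℝ} {m : ℝ≥0∞} (hε : 0 < ε) (hR : 2 * ε ≤ R) (hz : |z - ρ| < R / 2)
    (hg : Good (fun y => ‖F y‖ₑ ^ 2) ρ (m ^ 2)) :
    ‖HR F ρ R‖ₑ ≤ 8 * m + ‖rc_c F ε z‖ₑ +
      ‖rc_c (({y : ℝ | R < |y - ρ|}ᶜ).indicator F) ε z‖ₑ := by
  have hR0 : 0 < R := by linarith
  set T := {y : ℝ | R < |y - ρ|} with hT
  have hTm : MeasurableSet T := measurableSet_lt measurable_const (by fun_prop)
  have hk : Measurable fun y : ℝ => ((z - y : ℝ) : ℂ) + (ε : ℂ) * Complex.I := by fun_prop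
  have hl : ∀ y : ℝ, ε ≤ ‖((z - y : ℝ) : ℂ) + (ε : ℂ) * Complex.I‖ := fun y =>
    (le_abs_self ε).trans (rc_low _ _).2
  have i0 := integrableOn_univ.1 (rc_int hF _ hk univ MeasurableSet.univ hε fun y _ => hl y)
  have i1 : IntegrableOn (fun y => F y / ((ρ - y : ℝ) : ℂ)) T volume :=
    rc_int hF _ (by fun_prop) _ hTm hR0 fun y hy => by
      rw [Complex.norm_real, Real.norm_eq_abs, abs_sub_comm]; exact le_of_lt hy
  have e1 : rc_c (Tᶜ.indicator F) ε z =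
      ∫ y in Tᶜ, F y / (((z - y : ℝ) : ℂ) + (ε : ℂ) * Complex.I) := by
    rw [rc_c, ← integral_indicator hTm.compl]
    congr 1
    ext y
    by_cases hy : y ∈ Tᶜ <;> simp [hy]
  have e2 : HR F ρ R = (∫ y in T, (F y / ((ρ - y : ℝ) : ℂ) -
      F y / (((z - y : ℝ) : ℂ) + (ε : ℂ) * Complex.I))) + rc_c F ε z -
      rc_c (Tᶜ.indicator F) ε z := by
    rw [rc_HR hF ρ hR0, integral_sub i1 i0.integrableOn, e1, rc_c, ← integral_add_compl hTm i0]
    ring
  rw [e2]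
  refine (enorm_sub_le).trans (add_le_add_left ((enorm_add_le _ _).trans
    (add_le_add_left ?_ _)) _)
  have hG : Measurable fun y => ‖F y‖ₑ := hm.enorm
  have k3 := h3 _ ρ (2 * m) R hG (h2 _ ρ m hG hg) hR0
  calc _ ≤ ∫⁻ y in T, ‖F y / ((ρ - y : ℝ) : ℂ) -
        F y / (((z - y : ℝ) : ℂ) + (ε : ℂ) * Complex.I)‖ₑ := enorm_integral_le_lintegral_enorm _
    _ ≤ ∫⁻ y in T, ENNReal.ofReal (2 * R) * (‖F y‖ₑ * ENNReal.ofReal (((y - ρ) ^ 2)⁻¹)) := by
        refine setLIntegral_mono' hTm fun y hy => ?_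
        rw [← ofReal_norm, ← ofReal_norm, ← ENNReal.ofReal_mul (norm_nonneg _),
          ← ENNReal.ofReal_mul (by positivity)]
        refine ENNReal.ofReal_le_ofReal ((rc_ker hε hR hz hy _).trans_eq (by ring))
    _ ≤ ENNReal.ofReal (2 * R) * (2 * (2 * m) * ENNReal.ofReal R⁻¹) := by
        rw [lintegral_const_mul' _ _ ENNReal.ofReal_ne_top]
        gcongr
        have hsub : T ⊆ {y : ℝ | R ≤ |y - ρ|} := fun y (hy : R < |y - ρ|) => hy.le
        exact (lintegral_mono_set hsub).trans k3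
    _ = 4 * m * (ENNReal.ofReal (2 * R) * ENNReal.ofReal R⁻¹) := by ring
    _ = 8 * m := by
        rw [← ENNReal.ofReal_mul (by positivity), mul_assoc 2 R, mul_inv_cancel₀ hR0.ne', mul_one,
          ENNReal.ofReal_ofNat]
        ring

theorem rc_main (h2 : A_sq) (h3 : A_k3) (h4 : B_cauchy) {F : ℝ → ℂ} (hm : Measurable F)
    (hF : Integrable F volume) {ρ R ε : ℝ} {m : ℝ≥0∞} (hε : 0 < ε) (hR : 2 * ε ≤ R)
    (hg : Good (fun y => ‖F y‖ₑ ^ 2) ρ (m ^ 2))
    (hc : Good (fun z => ‖rc_c F ε z‖ₑ ^ 2) ρ (m ^ 2)) : ‖HR F ρ R‖ₑ ≤ 37 * m := by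
  have hR0 : 0 < R := by linarith
  set T := {y : ℝ | R < |y - ρ|} with hT
  have hTm : MeasurableSet T := measurableSet_lt measurable_const (by fun_prop)
  have hv : volume (Metric.ball ρ (R / 2)) = ENNReal.ofReal R := by
    rw [Real.volume_ball]; congr 1; ring
  have b1 : ∫⁻ z in Metric.ball ρ (R / 2), ‖rc_c F ε z‖ₑ ^ 2 ≤ m ^ 2 * ENNReal.ofReal R :=
    (hc _ (by positivity)).trans (by gcongr; linarith)
  have b2 : ∫⁻ z in Metric.ball ρ (R / 2), ‖rc_c (Tᶜ.indicator F) ε z‖ₑ ^ 2 ≤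
      40 * (m ^ 2 * (2 * ENNReal.ofReal R)) := by
    refine (setLIntegral_le_lintegral _ _).trans ((h4 _ ε (hF.indicator hTm.compl) hε).trans ?_)
    gcongr
    have e : ENNReal.ofReal (2 * R) = 2 * ENNReal.ofReal R := by
      rw [ENNReal.ofReal_mul (by norm_num), ENNReal.ofReal_ofNat]
    rw [← e]
    refine le_trans ?_ (hg _ (by positivity))
    rw [← lintegral_indicator Metric.isOpen_ball.measurableSet]
    refine lintegral_mono fun y => ?_
    by_cases hy : y ∈ Tᶜ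
    · have : y ∈ Metric.ball ρ (2 * R) := by
        have : |y - ρ| ≤ R := not_lt.1 hy
        rw [Metric.mem_ball, Real.dist_eq]; linarith
      simp [hy, this]
    · simp [hy]
  have key : ‖HR F ρ R‖ₑ ^ 2 * ENNReal.ofReal R ≤ (37 * m) ^ 2 * ENNReal.ofReal R :=
    calc ‖HR F ρ R‖ₑ ^ 2 * ENNReal.ofReal R
        = ∫⁻ _ in Metric.ball ρ (R / 2), ‖HR F ρ R‖ₑ ^ 2 := by rw [setLIntegral_const, hv]
      _ ≤ ∫⁻ z in Metric.ball ρ (R / 2), 9 * ((8 * m) ^ 2 + ‖rc_c F ε z‖ₑ ^ 2 +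
          ‖rc_c (Tᶜ.indicator F) ε z‖ₑ ^ 2) := by
          refine setLIntegral_mono' Metric.isOpen_ball.measurableSet fun z hz => ?_
          refine le_trans ?_ (rc_sq _ _ _)
          gcongr
          exact rc_pt h2 h3 hm hF hε hR (by rwa [Metric.mem_ball, Real.dist_eq] at hz) hg
      _ ≤ 9 * ((8 * m) ^ 2 * ENNReal.ofReal R + m ^ 2 * ENNReal.ofReal R +
          40 * (m ^ 2 * (2 * ENNReal.ofReal R))) := by
          have hms : Measurable fun z => (8 * m) ^ 2 + ‖rc_c F ε z‖ₑ ^ 2 :=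
            measurable_const.add ((rc_meas hm ε).enorm.pow_const 2)
          rw [lintegral_const_mul' _ _ (by simp), lintegral_add_left hms,
            lintegral_add_left measurable_const, setLIntegral_const, hv]
          gcongr
      _ = 1305 * (m ^ 2 * ENNReal.ofReal R) := by ring
      _ ≤ 1369 * (m ^ 2 * ENNReal.ofReal R) := by gcongr; norm_num
      _ = _ := by ring
  have k2 := (ENNReal.mul_le_mul_iff_left (ENNReal.ofReal_pos.2 hR0).ne'
    ENNReal.ofReal_ne_top).1 key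
  exact (ENNReal.pow_le_pow_left_iff two_ne_zero).1 k2

theorem c_star (h1 : A_weak) (h2 : A_sq) (h3 : A_k3) (h4 : B_cauchy) : C_star := by
  refine ⟨1369 * 410, by norm_num, fun F lam hm hF hl => ?_⟩
  set m := ENNReal.ofReal (lam / 37) with hmd
  have hlm : ENNReal.ofReal lam = 37 * m := by
    rw [hmd, ← ENNReal.ofReal_ofNat 37, ← ENNReal.ofReal_mul (by norm_num)]
    congr 1; ring
  let W : ℕ → Set ℝ := fun n => {ρ | ∃ R : ℝ, 2 * (1 / ((n : ℝ) + 1)) ≤ R ∧ lam < ‖HR F ρ R‖}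
  have hW : Monotone W := fun a b hab ρ ⟨R, hR, h⟩ =>
    ⟨R, le_trans (by gcongr) hR, h⟩
  have hs : {ρ : ℝ | ∃ R : ℝ, 0 < R ∧ lam < ‖HR F ρ R‖} ⊆ ⋃ n, W n := by
    rintro ρ ⟨R, hR, h⟩
    obtain ⟨n, hn⟩ := exists_nat_one_div_lt (half_pos hR)
    exact mem_iUnion.2 ⟨n, R, by linarith, h⟩
  refine (mul_le_mul_right (measure_mono hs) _).trans ?_
  rw [hW.measure_iUnion, ENNReal.mul_iSup]
  refine iSup_le fun n => ?_
  have hε : (0 : ℝ) < 1 / ((n : ℝ) + 1) := by positivity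
  have hsub : W n ⊆ {ρ | ¬ Good (fun y => ‖F y‖ₑ ^ 2) ρ (m ^ 2)} ∪
      {ρ | ¬ Good (fun z => ‖rc_c F (1 / ((n : ℝ) + 1)) z‖ₑ ^ 2) ρ (m ^ 2)} := by
    rintro ρ ⟨R, hR, h⟩
    by_contra hc
    simp only [mem_union, mem_ofPred_eq, not_or, not_not] at hc
    have := rc_main h2 h3 h4 hm hF hε hR hc.1 hc.2
    rw [← hlm, ← ofReal_norm, ENNReal.ofReal_le_ofReal_iff hl.le] at this
    linarith
  have a1 := h1 (fun y => ‖F y‖ₑ ^ 2) (m ^ 2)
  have a2 := (h1 (fun z => ‖rc_c F (1 / ((n : ℝ) + 1)) z‖ₑ ^ 2) (m ^ 2)).trans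
    (mul_le_mul_right (h4 F _ hF hε) 10)
  calc ENNReal.ofReal lam ^ 2 * volume (W n) = 1369 * (m ^ 2 * volume (W n)) := by
        rw [hlm]; ring
    _ ≤ 1369 * (10 * (∫⁻ y, ‖F y‖ₑ ^ 2) + 10 * (40 * ∫⁻ y, ‖F y‖ₑ ^ 2)) := by
        gcongr
        have hu := (measure_mono (μ := volume) hsub).trans (measure_union_le _ _)
        refine (mul_le_mul_right hu _).trans ?_
        rw [mul_add]
        exact add_le_add a1 a2
    _ = _ := by ring

end Vale.Agent.P112
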