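import Vale.Agent.P112.Cex
import Vale.Agent.P112.RDefs2

namespace Vale.Agent.P112

open MeasureTheory Filter Topology Set Metric
open scoped ENNReal ContDiff

theorem exists_bump {R : ℝ} (hR : 0 < R) : ∃ φ : E2 → ℝ, ContDiff ℝ ∞ φ ∧ (∀ x, 0 ≤ φ x) ∧
    (∀ x, φ x ≤ 1) ∧ (∀ x, R ≤ ‖x‖ → φ x = 0) ∧ (∀ x, ‖x‖ ≤ R / 2 → φ x = 1) ∧
    ∀ x y, ‖x‖ = ‖y‖ → φ x = φ y := by
  have h0 : 0 < 3 * R ^ 2 / 4 := by positivity
  refine ⟨fun x => Real.smoothTransition ((R ^ 2 - ‖x‖ ^ 2) / (3 * R ^ 2 / 4)), ?_,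
    fun x => Real.smoothTransition.nonneg _, fun x => Real.smoothTransition.le_one _,
    fun x hx => ?_, fun x hx => ?_, fun x y h => by simp only [h]⟩
  · exact Real.smoothTransition.contDiff.comp
      ((contDiff_const.sub (contDiff_norm_sq ℝ)).div_const _)
  · refine Real.smoothTransition.zero_of_nonpos (div_nonpos_of_nonpos_of_nonneg ?_ h0.le)
    nlinarith
  · refine Real.smoothTransition.one_of_one_le ?_
    rw [le_div_iff₀ h0]
    nlinarith [norm_nonneg x]

theorem exists_fun_rad {δ : ℝ} (hδ : 0 < δ) (N : ℕ) : ∃ (g : E2 → ℝ) (G : ℝ), 1 ≤ G ∧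
    ContDiff ℝ ∞ g ∧ (∀ x, 0 ≤ g x) ∧ (∀ x, g x ≤ G) ∧ (∀ x, δ ≤ ‖x‖ → g x = 0) ∧
    (∀ u : E2, ‖u‖ = 1 → N * δ ≤ ∫ s in (-δ)..δ, g (s • u)) ∧
    (∀ x y, ‖x‖ = ‖y‖ → g x = g y) ∧ ∫ x, g x ^ 2 ≤ N * (3 * δ ^ 2 * Real.pi) := by
  induction N with
  | zero =>
    exact ⟨fun _ => 0, 1, le_rfl, contDiff_const, fun _ => le_rfl, fun _ => zero_le_one,
      fun _ _ => rfl, fun u _ => by simp, fun _ _ _ => rfl, by simp⟩
  | succ N ih =>
    obtain ⟨g, G, hG, hg, h0, h1, h2, h3, hrad, h4⟩ := ih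
    have hG0 : 0 < G := one_pos.trans_le hG
    have hr : 0 < δ / G := div_pos hδ hG0
    have hrδ : δ / G ≤ δ := div_le_self hδ.le hG
    obtain ⟨φ, hφd, hφn, hφ1, hφ0, hφo, hφr⟩ := exists_bump hr
    have hcs : ∀ F : E2 → ℝ, (∀ x, δ ≤ ‖x‖ → F x = 0) → HasCompactSupport F := fun F hF =>
      HasCompactSupport.intro (isCompact_closedBall (0 : E2) δ) fun x hx =>
        hF x (by rw [mem_closedBall, dist_zero_right, not_le] at hx; exact hx.le)
    have hgc := hg.continuous
    have hφc := hφd.continuous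
    have hz : ∀ x, δ ≤ ‖x‖ → g x + G * φ x = 0 := fun x hx => by
      rw [h2 x hx, hφ0 x (hrδ.trans hx)]; simp
    refine ⟨fun x => g x + G * φ x, 2 * G, by linarith, hg.add (contDiff_const.mul hφd),
      fun x => add_nonneg (h0 x) (mul_nonneg hG0.le (hφn x)), fun x => ?_, hz, fun u hu => ?_,
      fun x y hxy => by simp only [hrad x y hxy, hφr x y hxy], ?_⟩
    · have := mul_le_of_le_one_right hG0.le (hφ1 x)
      linarith [h1 x]
    · rw [intervalIntegral.integral_add (Continuous.intervalIntegrable (by fun_prop) _ _)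
        (Continuous.intervalIntegrable (by fun_prop) _ _)]
      have h5 : ∫ s in (-(δ / G / 2))..(δ / G / 2), G * φ (s • u) ≤
          ∫ s in (-δ)..δ, G * φ (s • u) :=
        intervalIntegral.integral_mono_interval (by linarith) (by linarith) (by linarith)
          (Eventually.of_forall fun s => mul_nonneg hG0.le (hφn _))
          (Continuous.intervalIntegrable (by fun_prop) _ _)
      have h6 : ∫ s in (-(δ / G / 2))..(δ / G / 2), G * φ (s • u) =
          ∫ s in (-(δ / G / 2))..(δ / G / 2), G := by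
        refine intervalIntegral.integral_congr fun s hs => ?_
        rw [uIcc_of_le (by linarith)] at hs
        have : φ (s • u) = 1 := hφo _ (by
          rw [norm_smul, hu, mul_one, Real.norm_eq_abs]
          exact abs_le.2 hs)
        simp only [this, mul_one]
      rw [h6, intervalIntegral.integral_const, smul_eq_mul] at h5
      have h7 : (δ / G / 2 - -(δ / G / 2)) * G = δ := by field_simp; ring
      push_cast
      linarith [h3 u hu]
    · have i1 : Integrable (fun x => g x ^ 2) volume :=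
        Continuous.integrable_of_hasCompactSupport (by fun_prop)
          (hcs _ fun x hx => by rw [h2 x hx]; simp)
      have i2 : Integrable (fun x => (g x + G * φ x) ^ 2) volume :=
        Continuous.integrable_of_hasCompactSupport (by fun_prop)
          (hcs _ fun x hx => by rw [hz x hx]; simp)
      have i3 : Integrable ((ball (0 : E2) (δ / G)).indicator fun _ => 3 * G ^ 2) volume :=
        (integrableOn_const measure_ball_lt_top.ne).integrable_indicator measurableSet_ball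
      have h5 : ∫ x, (g x + G * φ x) ^ 2 ≤
          ∫ x, (g x ^ 2 + (ball (0 : E2) (δ / G)).indicator (fun _ => 3 * G ^ 2) x) := by
        refine integral_mono i2 (i1.add i3) fun x => ?_
        by_cases hx : x ∈ ball (0 : E2) (δ / G)
        · simp only [indicator_of_mem hx]
          have a1 := mul_le_of_le_one_right hG0.le (hφ1 x)
          have a2 := mul_nonneg hG0.le (hφn x)
          nlinarith [h0 x, h1 x]
        · simp only [indicator_of_notMem hx]
          rw [mem_ball, dist_zero_right, not_lt] at hx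
          rw [hφ0 x hx]; simp
      rw [integral_add i1 i3, integral_indicator measurableSet_ball, setIntegral_const,
        Measure.real, EuclideanSpace.volume_ball_fin_two, ENNReal.toReal_mul, ENNReal.toReal_pow,
        ENNReal.toReal_ofReal hr.le, ENNReal.toReal_ofReal Real.pi_pos.le, smul_eq_mul] at h5
      have h7 : (δ / G) ^ 2 * Real.pi * (3 * G ^ 2) = 3 * δ ^ 2 * Real.pi := by field_simp
      push_cast
      linarith

theorem exists_bad_rad {a : ℝ} (ha : 1 < a) : ∃ v : E2 → E2, UnitLip v ∧ ∀ C, ¬ RadBound v a C := by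
  obtain ⟨v, hv, hv2⟩ := exists_field
  refine ⟨v, hv, fun C hC => ?_⟩
  obtain ⟨δ, hδ, hδ1, hδ2⟩ : ∃ δ : ℝ, 0 < δ ∧ δ ≤ 1 / 2 ∧ 1 + 3 * δ ≤ a :=
    ⟨min (1 / 2) ((a - 1) / 3), lt_min (by norm_num) (by linarith), min_le_left _ _,
      by linarith [min_le_right (1 / 2) ((a - 1) / 3)]⟩
  have ha0 : 0 < a := by linarith
  obtain ⟨N, hN⟩ := exists_nat_gt (12 * |C| * a ^ 2 / δ ^ 2)
  have hN0 : (0 : ℝ) < N := lt_of_le_of_lt (by positivity) hN
  obtain ⟨g, G, -, hg, h0, -, h2, h3, hrad, h4⟩ := exists_fun_rad hδ N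
  have hcs : HasCompactSupport fun x => (g x : ℂ) :=
    HasCompactSupport.intro (isCompact_closedBall (0 : E2) δ) fun x hx => by
      rw [mem_closedBall, dist_zero_right, not_le] at hx
      rw [h2 x hx.le, Complex.ofReal_zero]
  let f : SchwartzMap E2 ℂ := hcs.toSchwartzMap (Complex.ofRealCLM.contDiff.comp hg)
  have hfg : ∀ x, f x = (g x : ℂ) := fun x => rfl
  have hl : 0 < N * δ / a / 2 := by positivity
  let c : E2 := EuclideanSpace.single 0 (1 + δ)
  have hc0 : c 0 = 1 + δ := by simp [c]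
  have hcn : ‖c‖ = 1 + δ := by simp [c, abs_of_pos (by linarith : 0 < 1 + δ)]
  have hsub : ball c δ ⊆ {x | N * δ / a / 2 < ‖Hpv v a f x‖} := by
    intro x hx
    rw [mem_ball, dist_eq_norm] at hx
    have b1 : |(x - c) 0| ≤ ‖x - c‖ := by
      rw [← Real.norm_eq_abs]; exact PiLp.norm_apply_le _ _
    rw [PiLp.sub_apply, hc0] at b1
    have b2 : 1 ≤ x 0 := by linarith [neg_abs_le (x 0 - (1 + δ))]
    have b3 := norm_sub_norm_le x c
    have b4 := norm_sub_norm_le c x
    rw [norm_sub_rev] at b4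
    have b5 := hpv_lower (v := v) (a := a) hδ f hfg hg.continuous h0 h2 h3 (hv2 x b2)
      (by linarith) (by linarith)
    change N * δ / a / 2 < _
    linarith
  have h5 := (measure_mono hsub).trans (hC f ⟨0, fun x y hxy => by
    rw [hfg, hfg, hrad x y (by simpa using hxy)]⟩ _ hl)
  have hI : ∫ x, ‖f x‖ ^ 2 = ∫ x, g x ^ 2 := by
    congr 1; funext x; rw [hfg, Complex.norm_real, Real.norm_eq_abs, sq_abs]
  have hI0 : 0 ≤ ∫ x, g x ^ 2 := integral_nonneg fun x => by positivity
  have h6 : C * ((N * δ / a / 2) ^ 2)⁻¹ * ∫ x, g x ^ 2 ≤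
      |C| * ((N * δ / a / 2) ^ 2)⁻¹ * (N * (3 * δ ^ 2 * Real.pi)) := by
    gcongr
    exact le_abs_self C
  rw [hI, EuclideanSpace.volume_ball_fin_two, ← ENNReal.ofReal_pow hδ.le,
    ← ENNReal.ofReal_mul (by positivity)] at h5
  have h7 := (ENNReal.ofReal_le_ofReal_iff (by positivity)).1
    (h5.trans (ENNReal.ofReal_le_ofReal h6))
  have h8 : |C| * ((N * δ / a / 2) ^ 2)⁻¹ * (N * (3 * δ ^ 2 * Real.pi)) =
      (12 * |C| * a ^ 2 / N) * Real.pi := by field_simp; ring
  rw [h8] at h7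
  have h9 := le_of_mul_le_mul_right h7 Real.pi_pos
  rw [le_div_iff₀ hN0] at h9
  rw [div_lt_iff₀ (by positivity)] at hN
  linarith

end Vale.Agent.P112
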