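import Vale.Agent.P112.RDefs

namespace Vale.Agent.P112

open MeasureTheory Set
open scoped ENNReal

theorem rd_norm_le {g : ℝ → ℂ} {a b c : ℝ} (hab : a ≤ b) (hc : 0 ≤ c)
    (h : ∫⁻ t in Ioo a b, ‖g t‖ₑ ≤ ENNReal.ofReal c) : ‖∫ t in a..b, g t‖ ≤ c := by
  rw [intervalIntegral.integral_of_le hab, integral_Ioc_eq_integral_Ioo,
    ← ENNReal.ofReal_le_ofReal_iff hc, ofReal_norm]
  exact (enorm_integral_le_lintegral_enorm _).trans h

theorem rd_cv {φ φ' : ℝ → ℝ} {a b : ℝ} {T : Set ℝ} {h g : ℝ → ℝ≥0∞}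
    (hd : ∀ t ∈ Ioo a b, HasDerivAt φ (φ' t) t) (hi : InjOn φ (Ioo a b))
    (hT : ∀ t ∈ Ioo a b, φ t ∈ T) (hh : ∀ t ∈ Ioo a b, h t ≤ ENNReal.ofReal |φ' t| * g (φ t)) :
    ∫⁻ t in Ioo a b, h t ≤ ∫⁻ σ in T, g σ := by
  refine (setLIntegral_mono' measurableSet_Ioo hh).trans ?_
  rw [← lintegral_image_eq_lintegral_abs_deriv_mul measurableSet_Ioo
    (fun t ht => (hd t ht).hasDerivWithinAt) hi]
  exact lintegral_mono_set (image_subset_iff.2 hT)

theorem rd_avg {F : ℝ → ℂ} {ρ m : ℝ} (hm : 0 ≤ m)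
    (hG : Good (fun y => ‖F y‖ₑ) ρ (ENNReal.ofReal m)) {φ φ' : ℝ → ℝ} {a b c R : ℝ} {g : ℝ → ℂ}
    (hab : a ≤ b) (hc : 0 ≤ c) (hR : 0 < R)
    (hd : ∀ t ∈ Ioo a b, HasDerivAt φ (φ' t) t) (hi : InjOn φ (Ioo a b))
    (hT : ∀ t ∈ Ioo a b, |φ t - ρ| < R)
    (hh : ∀ t ∈ Ioo a b, ‖g t‖ ≤ |φ' t| * (c * ‖F (φ t)‖)) :
    ‖∫ t in a..b, g t‖ ≤ c * (m * R) := by
  refine rd_norm_le hab (by positivity) ?_
  refine (rd_cv (T := Metric.ball ρ R) (g := fun σ => ENNReal.ofReal c * ‖F σ‖ₑ) hd hi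
    (fun t ht => by rw [Metric.mem_ball, Real.dist_eq]; exact hT t ht) fun t ht => ?_).trans ?_
  · rw [← ofReal_norm, ← ofReal_norm, ← ENNReal.ofReal_mul hc, ← ENNReal.ofReal_mul (abs_nonneg _)]
    exact ENNReal.ofReal_le_ofReal (hh t ht)
  · rw [lintegral_const_mul' _ _ ENNReal.ofReal_ne_top, ENNReal.ofReal_mul hc,
      ENNReal.ofReal_mul hm]
    exact mul_le_mul_right (hG R hR) _

theorem rd_cont {g : ℝ → ℂ} (hg : Continuous g) {d : ℝ → ℝ} (hd : Continuous d) {a b : ℝ}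
    (hab : a ≤ b) (h0 : ∀ t ∈ Icc a b, d t ≠ 0) :
    IntervalIntegrable (fun t => g t / (d t : ℂ)) volume a b := by
  apply ContinuousOn.intervalIntegrable
  rw [uIcc_of_le hab]
  exact hg.continuousOn.div (Complex.continuous_ofReal.comp hd).continuousOn
    fun t ht => Complex.ofReal_ne_zero.2 (h0 t ht)

theorem rd_HR {F : ℝ → ℂ} (hF : Continuous F) (hi : Integrable F volume) (ρ : ℝ) {R1 R2 : ℝ}
    (h0 : 0 < R1) (h12 : R1 ≤ R2) :
    HR F ρ R1 - HR F ρ R2 =
      (∫ σ in R1..R2, F (ρ - σ) / (σ : ℂ)) - ∫ σ in R1..R2, F (ρ + σ) / (σ : ℂ) := by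
  have i1 : IntegrableOn (fun σ : ℝ => (F (ρ - σ) - F (ρ + σ)) / (σ : ℂ)) (Ioi R1) volume := by
    have j : Integrable (fun σ : ℝ => ‖F (ρ - σ) - F (ρ + σ)‖ / R1) volume :=
      ((hi.comp_sub_left ρ).sub (hi.comp_add_left ρ)).norm.div_const R1
    refine Integrable.mono' j.integrableOn ?_ ?_
    · refine Measurable.aestronglyMeasurable (Measurable.div ?_ Complex.measurable_ofReal)
      exact Continuous.measurable (by fun_prop)
    · refine (ae_restrict_iff' measurableSet_Ioi).2 (Filter.Eventually.of_forall fun σ hσ => ?_)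
      have h1 : R1 < σ := hσ
      rw [norm_div, Complex.norm_real, Real.norm_of_nonneg (h0.trans h1).le]
      exact div_le_div_of_nonneg_left (norm_nonneg _) h0 h1.le
  have hne : ∀ t ∈ Icc R1 R2, t ≠ 0 := fun t ht => (h0.trans_le ht.1).ne'
  unfold HR
  rw [intervalIntegral.integral_Ioi_sub_Ioi i1 h12, ← intervalIntegral.integral_sub
    (rd_cont (g := fun σ => F (ρ - σ)) (d := fun σ => σ) (by fun_prop) continuous_id h12 hne)
    (rd_cont (g := fun σ => F (ρ + σ)) (d := fun σ => σ) (by fun_prop) continuous_id h12 hne)]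
  congr 1
  funext σ
  ring

theorem rd_gap {F : ℝ → ℂ} {ρ m : ℝ} (hm : 0 ≤ m)
    (hG : Good (fun y => ‖F y‖ₑ) ρ (ENNReal.ofReal m)) {p q : ℝ} (hp : 0 < p) (hpq : p ≤ q)
    (hq : q ≤ 2 * p) : ‖∫ σ in p..q, F (ρ + σ) / (σ : ℂ)‖ ≤ 2 * m := by
  have h := rd_avg hm hG (φ := fun σ => ρ + σ) (φ' := fun _ => 1) (c := p⁻¹) (R := q)
    (g := fun σ => F (ρ + σ) / (σ : ℂ)) hpq (by positivity) (by linarith)
    (fun t _ => (hasDerivAt_id t).const_add ρ) (fun x _ y _ h => add_left_cancel h)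
    (fun t ht => by rw [add_sub_cancel_left, abs_of_pos (hp.trans ht.1)]; exact ht.2)
    (fun t ht => by
      rw [norm_div, Complex.norm_real, Real.norm_of_nonneg (hp.trans ht.1).le, abs_one, one_mul,
        inv_mul_eq_div]
      exact div_le_div_of_nonneg_left (norm_nonneg _) hp ht.1.le)
  refine h.trans ?_
  rw [inv_mul_le_iff₀ hp]
  nlinarith

/-- the symmetrized kernel of a radial function -/
noncomputable def k1 (F : ℝ → ℂ) (ρ s t : ℝ) : ℂ :=
  (F (ρ - (2 * t * s - t ^ 2)) - F (ρ + (2 * t * s + t ^ 2))) / (t : ℂ)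

theorem rd_part1 {F : ℝ → ℂ} (hF : Continuous F) (hi : Integrable F volume) {ρ m s η b : ℝ}
    (hm : 0 ≤ m) (hG : Good (fun y => ‖F y‖ₑ) ρ (ENNReal.ofReal m))
    (hH : ∀ R, 0 < R → ‖HR F ρ R‖ ≤ m) (hη : 0 < η) (hb : η ≤ b) (hs : b ≤ s / 2) :
    ‖∫ t in η..b, k1 F ρ s t‖ ≤ 8 * m := by
  have hs0 : 0 < s := by linarith
  let φ : ℝ → ℝ := fun t => 2 * t * s - t ^ 2
  let ψ : ℝ → ℝ := fun t => 2 * t * s + t ^ 2
  have dφ : ∀ t, HasDerivAt φ (2 * (s - t)) t := fun t => by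
    have := (((hasDerivAt_id t).const_mul 2).mul_const s).sub (hasDerivAt_pow 2 t)
    refine this.congr_deriv ?_
    simp; ring
  have dψ : ∀ t, HasDerivAt ψ (2 * (s + t)) t := fun t => by
    have := (((hasDerivAt_id t).const_mul 2).mul_const s).add (hasDerivAt_pow 2 t)
    refine this.congr_deriv ?_
    simp; ring
  have φpos : ∀ t, η ≤ t → t ≤ b → 0 < φ t := fun t h1 h2 => by
    simp only [φ]; nlinarith
  have ψpos : ∀ t, η ≤ t → 0 < ψ t := fun t h1 => by
    simp only [ψ]; nlinarith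
  have cp : ContinuousOn (fun σ : ℝ => F (ρ - σ) / (σ : ℂ)) {σ | σ ≠ 0} :=
    (Continuous.continuousOn (by fun_prop)).div Complex.continuous_ofReal.continuousOn
      fun t ht => Complex.ofReal_ne_zero.2 ht
  have cq : ContinuousOn (fun σ : ℝ => F (ρ + σ) / (σ : ℂ)) {σ | σ ≠ 0} :=
    (Continuous.continuousOn (by fun_prop)).div Complex.continuous_ofReal.continuousOn
      fun t ht => Complex.ofReal_ne_zero.2 ht
  have e1 := intervalIntegral.integral_deriv_smul_comp' (a := η) (b := b) (f := φ)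
    (f' := fun t => 2 * (s - t)) (g := fun σ : ℝ => F (ρ - σ) / (σ : ℂ)) (fun t _ => dφ t)
    (Continuous.continuousOn (by fun_prop)) (cp.mono (by
      rintro _ ⟨t, ht, rfl⟩
      rw [uIcc_of_le hb] at ht
      exact (φpos t ht.1 ht.2).ne'))
  have e2 := intervalIntegral.integral_deriv_smul_comp' (a := η) (b := b) (f := ψ)
    (f' := fun t => 2 * (s + t)) (g := fun σ : ℝ => F (ρ + σ) / (σ : ℂ)) (fun t _ => dψ t)
    (Continuous.continuousOn (by fun_prop)) (cq.mono (by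
      rintro _ ⟨t, ht, rfl⟩
      rw [uIcc_of_le hb] at ht
      exact (ψpos t ht.1).ne'))
  have cφ : Continuous φ := by simp only [φ]; fun_prop
  have cψ : Continuous ψ := by simp only [ψ]; fun_prop
  have i1 := rd_cont (g := fun t => ((2 * (s - t) : ℝ) : ℂ) * F (ρ - φ t)) (d := φ) (by fun_prop)
    cφ hb fun t ht => (φpos t ht.1 ht.2).ne'
  have i2 := rd_cont (g := fun t => ((2 * (s + t) : ℝ) : ℂ) * F (ρ + ψ t)) (d := ψ) (by fun_prop)
    cψ hb fun t ht => (ψpos t ht.1).ne'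
  have i3 := rd_cont (g := fun t => F (ρ - φ t)) (d := fun t => 2 * s - t) (by fun_prop)
    (by fun_prop) hb fun t ht => by have := ht.2; linarith
  have i4 := rd_cont (g := fun t => F (ρ + ψ t)) (d := fun t => 2 * s + t) (by fun_prop)
    (by fun_prop) hb fun t ht => by have := ht.1; linarith
  have e3 : ∫ t in η..b, k1 F ρ s t =
      (∫ σ in φ η..φ b, F (ρ - σ) / (σ : ℂ)) - (∫ σ in ψ η..ψ b, F (ρ + σ) / (σ : ℂ)) +
      (∫ t in η..b, F (ρ - φ t) / ((2 * s - t : ℝ) : ℂ)) +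
      ∫ t in η..b, F (ρ + ψ t) / ((2 * s + t : ℝ) : ℂ) := by
    rw [← e1, ← e2]
    simp only [Function.comp_apply, Complex.real_smul, ← mul_div_assoc]
    rw [← intervalIntegral.integral_sub i1 i2, ← intervalIntegral.integral_add (i1.sub i2) i3,
      ← intervalIntegral.integral_add ((i1.sub i2).add i3) i4]
    refine intervalIntegral.integral_congr fun t ht => ?_
    rw [uIcc_of_le hb] at ht
    have n0 : (t : ℂ) ≠ 0 := Complex.ofReal_ne_zero.2 (hη.trans_le ht.1).ne'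
    have n1 : ((2 * s - t : ℝ) : ℂ) ≠ 0 := Complex.ofReal_ne_zero.2 (by have := ht.2; linarith)
    have n2 : ((2 * s + t : ℝ) : ℂ) ≠ 0 := Complex.ofReal_ne_zero.2 (by have := ht.1; linarith)
    have f1 : ((φ t : ℝ) : ℂ) = t * ((2 * s - t : ℝ) : ℂ) := by simp only [φ]; push_cast; ring
    have f2 : ((ψ t : ℝ) : ℂ) = t * ((2 * s + t : ℝ) : ℂ) := by simp only [ψ]; push_cast; ring
    have f3 : ((2 * (s - t) : ℝ) : ℂ) = ((2 * s - t : ℝ) : ℂ) - t := by push_cast; ring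
    have f4 : ((2 * (s + t) : ℝ) : ℂ) = ((2 * s + t : ℝ) : ℂ) + t := by push_cast; ring
    change (F (ρ - φ t) - F (ρ + ψ t)) / (t : ℂ) = _
    simp only [f1, f2, f3, f4]
    field_simp
    ring
  have hφb : φ η ≤ φ b := by simp only [φ]; nlinarith
  have g1 : ∀ t, η ≤ t → t ≤ b → φ t ≤ ψ t ∧ ψ t ≤ 2 * φ t := fun t h1 h2 => by
    simp only [φ, ψ]; constructor <;> nlinarith
  have iq : ∀ p q, 0 < p → 0 < q →
      IntervalIntegrable (fun σ : ℝ => F (ρ + σ) / (σ : ℂ)) volume p q := fun p q hp hq => by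
    apply ContinuousOn.intervalIntegrable
    refine cq.mono fun t ht => ?_
    exact ((lt_min hp hq).trans_le ht.1).ne'
  have p1 := φpos η le_rfl hb
  have p2 := φpos b hb le_rfl
  have p3 := ψpos η le_rfl
  have p4 := ψpos b hb
  have e4 := intervalIntegral.integral_add_adjacent_intervals (iq _ _ p1 p3) (iq _ _ p3 p4)
  have e5 := intervalIntegral.integral_add_adjacent_intervals (iq _ _ p1 p2) (iq _ _ p2 p4)
  have e6 := rd_HR hF hi ρ p1 hφb
  have b1 := rd_gap hm hG p1 (g1 η le_rfl hb).1 (g1 η le_rfl hb).2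
  have b2 := rd_gap hm hG p2 (g1 b hb le_rfl).1 (g1 b hb le_rfl).2
  have b3 := rd_avg hm hG (φ := fun t => ρ - φ t) (φ' := fun t => -(2 * (s - t)))
    (c := (s ^ 2)⁻¹) (R := s ^ 2) (g := fun t => F (ρ - φ t) / ((2 * s - t : ℝ) : ℂ)) hb
    (by positivity) (by positivity) (fun t _ => (dφ t).const_sub ρ)
    (fun x hx y hy h => by
      have h1 : (x - y) * (2 * s - x - y) = 0 := by simp only [φ] at h; linarith
      rcases mul_eq_zero.1 h1 with h2 | h2
      · linarith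
      · linarith [hx.2, hy.2])
    (fun t ht => by
      rw [sub_sub_cancel_left, abs_neg, abs_of_pos (φpos t ht.1.le ht.2.le)]
      simp only [φ]; nlinarith [ht.2])
    (fun t ht => by
      have h1 := ht.2
      rw [norm_div, Complex.norm_real, Real.norm_of_nonneg (by linarith), abs_neg,
        abs_of_pos (by linarith), ← mul_assoc, div_eq_inv_mul]
      refine mul_le_mul_of_nonneg_right ?_ (norm_nonneg _)
      rw [← div_eq_mul_inv, inv_eq_one_div, div_le_div_iff₀ (by linarith) (by positivity)]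
      nlinarith)
  have b4 := rd_avg hm hG (φ := fun t => ρ + ψ t) (φ' := fun t => 2 * (s + t))
    (c := (2 * s ^ 2)⁻¹) (R := 2 * s ^ 2) (g := fun t => F (ρ + ψ t) / ((2 * s + t : ℝ) : ℂ)) hb
    (by positivity) (by positivity) (fun t _ => (dψ t).const_add ρ)
    (fun x hx y hy h => by
      have h1 : (x - y) * (2 * s + x + y) = 0 := by simp only [ψ] at h; linarith
      rcases mul_eq_zero.1 h1 with h2 | h2
      · linarith
      · linarith [hx.1, hy.1])
    (fun t ht => by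
      rw [add_sub_cancel_left, abs_of_pos (ψpos t ht.1.le)]
      simp only [ψ]; nlinarith [ht.2, ht.1])
    (fun t ht => by
      have h1 := ht.1
      rw [norm_div, Complex.norm_real, Real.norm_of_nonneg (by linarith),
        abs_of_pos (by linarith), ← mul_assoc, div_eq_inv_mul]
      refine mul_le_mul_of_nonneg_right ?_ (norm_nonneg _)
      rw [← div_eq_mul_inv, inv_eq_one_div, div_le_div_iff₀ (by linarith) (by positivity)]
      nlinarith)
  have c3 : (s ^ 2)⁻¹ * (m * s ^ 2) = m := by field_simp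
  have c4 : (2 * s ^ 2)⁻¹ * (m * (2 * s ^ 2)) = m := by field_simp
  rw [c3] at b3
  rw [c4] at b4
  have e7 : ∫ t in η..b, k1 F ρ s t = HR F ρ (φ η) - HR F ρ (φ b) +
      (∫ σ in φ η..ψ η, F (ρ + σ) / (σ : ℂ)) - (∫ σ in φ b..ψ b, F (ρ + σ) / (σ : ℂ)) +
      (∫ t in η..b, F (ρ - φ t) / ((2 * s - t : ℝ) : ℂ)) +
      ∫ t in η..b, F (ρ + ψ t) / ((2 * s + t : ℝ) : ℂ) := by
    rw [e3, e6]
    linear_combination e5 - e4
  rw [e7]
  have h1 := hH _ p1
  have h2 := hH _ p2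
  refine (norm_add_le _ _).trans ?_
  refine (add_le_add_left (norm_add_le _ _) _).trans ?_
  refine (add_le_add_left (add_le_add_left (norm_sub_le _ _) _) _).trans ?_
  refine (add_le_add_left (add_le_add_left (add_le_add_left (norm_add_le _ _) _) _) _).trans ?_
  linarith [norm_sub_le (HR F ρ (φ η)) (HR F ρ (φ b))]

end Vale.Agent.P112
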