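import Vale.Agent.P112.RD1

namespace Vale.Agent.P112

open MeasureTheory Set
open scoped ENNReal

theorem rd_rpow_half {s : ℝ} (hs : 0 < s) : (s ^ 2) ^ ((1 / 2) : ℝ) = s := by
  rw [← Real.rpow_natCast, ← Real.rpow_mul hs.le]; norm_num

theorem rd_rpow_neg_half {s : ℝ} (hs : 0 < s) : (s ^ 2) ^ (-(1 / 2) : ℝ) = s⁻¹ := by
  rw [Real.rpow_neg (by positivity), rd_rpow_half hs]

theorem rd_mid (hk : A_k1) {F : ℝ → ℂ} (hF : Continuous F) {ρ m s c : ℝ} (hm : 0 ≤ m)
    (hG : Good (fun y => ‖F y‖ₑ) ρ (ENNReal.ofReal m)) (hs : 0 < s) (hc : s / 2 ≤ c) :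
    ‖∫ t in (s / 2)..c, (F (ρ + (2 * t * s + t ^ 2)) / ((t + 2 * s : ℝ) : ℂ) -
      F (ρ + (2 * t * s + t ^ 2)) / (t : ℂ))‖ ≤ 3 * m := by
  refine rd_norm_le hc (by positivity) ?_
  have dψ : ∀ t, HasDerivAt (fun t : ℝ => 2 * t * s + t ^ 2) (2 * (s + t)) t := fun t => by
    have := (((hasDerivAt_id t).const_mul 2).mul_const s).add (hasDerivAt_pow 2 t)
    refine this.congr_deriv ?_
    simp; ring
  refine (rd_cv (T := Ioi (s ^ 2)) (g := fun σ => ENNReal.ofReal s *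
    (‖F (ρ + σ)‖ₑ * ENNReal.ofReal (σ ^ (-(3 / 2) : ℝ)))) (fun t _ => dψ t)
    (fun x hx y hy h => ?_) (fun t ht => ?_) fun t ht => ?_).trans ?_
  · have h1 : (x - y) * (2 * s + x + y) = 0 := by linarith
    rcases mul_eq_zero.1 h1 with h2 | h2
    · linarith
    · linarith [hx.1, hy.1]
  · have := ht.1
    rw [mem_Ioi]; nlinarith
  · have h1 := ht.1
    have ht0 : 0 < t := by linarith
    have hψ : 0 < 2 * t * s + t ^ 2 := by positivity
    have n0 : (t : ℂ) ≠ 0 := Complex.ofReal_ne_zero.2 ht0.ne'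
    have n1 : ((t + 2 * s : ℝ) : ℂ) ≠ 0 := Complex.ofReal_ne_zero.2 (by linarith)
    have e : F (ρ + (2 * t * s + t ^ 2)) / ((t + 2 * s : ℝ) : ℂ) -
        F (ρ + (2 * t * s + t ^ 2)) / (t : ℂ) =
        ((-(2 * s / (2 * t * s + t ^ 2)) : ℝ) : ℂ) * F (ρ + (2 * t * s + t ^ 2)) := by
      have f : ((-(2 * s / (2 * t * s + t ^ 2)) : ℝ) : ℂ) =
          -((((t + 2 * s : ℝ) : ℂ) - t) / (t * ((t + 2 * s : ℝ) : ℂ))) := by
        push_cast; congr 2 <;> ring
      rw [f]; field_simp; ring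
    rw [e, ← ofReal_norm, ← ofReal_norm, ← ENNReal.ofReal_mul (norm_nonneg _),
      ← ENNReal.ofReal_mul hs.le, ← ENNReal.ofReal_mul (abs_nonneg _)]
    apply ENNReal.ofReal_le_ofReal
    rw [norm_mul, Complex.norm_real, norm_neg, Real.norm_of_nonneg (by positivity),
      abs_of_pos (by linarith)]
    set ψ := 2 * t * s + t ^ 2 with hψd
    have h2 : ψ ^ ((1 / 2) : ℝ) ≤ s + t := by
      rw [← rd_rpow_half (by linarith : 0 < s + t)]
      exact Real.rpow_le_rpow hψ.le (by rw [hψd]; nlinarith) (by norm_num)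
    have h3 : ψ ^ ((1 / 2) : ℝ) * ψ ^ (-(3 / 2) : ℝ) = ψ⁻¹ := by
      rw [← Real.rpow_add hψ, ← Real.rpow_neg_one]; norm_num
    have h4 : ψ⁻¹ ≤ (s + t) * ψ ^ (-(3 / 2) : ℝ) := by
      rw [← h3]; exact mul_le_mul_of_nonneg_right h2 (by positivity)
    have h5 := mul_le_mul_of_nonneg_left h4 (by positivity : 0 ≤ 2 * s * ‖F (ρ + ψ)‖)
    rw [div_eq_mul_inv]
    linarith
  · rw [lintegral_const_mul' _ _ ENNReal.ofReal_ne_top]
    refine (mul_le_mul_right (hk _ ρ _ (s ^ 2) hF.measurable.enorm hG (by positivity)) _).trans ?_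
    rw [rd_rpow_neg_half hs, ← ENNReal.ofReal_ofNat 3, ← ENNReal.ofReal_mul (by norm_num),
      ← ENNReal.ofReal_mul (by positivity), ← ENNReal.ofReal_mul hs.le]
    apply le_of_eq; congr 1; field_simp

theorem rd_half (hk : A_k2) {F : ℝ → ℂ} (hF : Continuous F) {ρ m s a b : ℝ} (hm : 0 ≤ m)
    (hG : Good (fun y => ‖F y‖ₑ) (ρ - s ^ 2) (ENNReal.ofReal m)) (hs : 0 < s) (hab : a ≤ b)
    (ha : s / 2 ≤ a) (hb : b ≤ 5 * s / 2) (hside : b ≤ s ∨ s ≤ a) :
    ‖∫ t in a..b, F (ρ - (2 * t * s - t ^ 2)) / (t : ℂ)‖ ≤ 4 * m := by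
  refine rd_norm_le hab (by positivity) ?_
  have dτ : ∀ t, HasDerivAt (fun t : ℝ => (t - s) ^ 2) (2 * (t - s)) t := fun t => by
    have := ((hasDerivAt_id t).sub_const s).pow 2
    refine this.congr_deriv ?_
    simp
  have hne : ∀ t ∈ Ioo a b, 0 < |t - s| := fun t ht => by
    rw [abs_pos]
    rcases hside with h | h
    · linarith [ht.2]
    · linarith [ht.1]
  refine (rd_cv (T := Ioo 0 ((2 * s) ^ 2)) (g := fun σ => ENNReal.ofReal s⁻¹ *
    (‖F (ρ - s ^ 2 + σ)‖ₑ * ENNReal.ofReal (σ ^ (-(1 / 2) : ℝ)))) (fun t _ => dτ t)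
    (fun x hx y hy h => ?_) (fun t ht => ?_) fun t ht => ?_).trans ?_
  · have h1 : (x - y) * (x + y - 2 * s) = 0 := by linarith
    rcases mul_eq_zero.1 h1 with h2 | h2
    · linarith
    · rcases hside with h | h
      · linarith [hx.2, hy.2]
      · linarith [hx.1, hy.1]
  · have h1 := hne t ht
    refine ⟨by rw [← sq_abs]; positivity, ?_⟩
    nlinarith [ht.1, ht.2]
  · have h1 := hne t ht
    have ht0 : 0 < t := by linarith [ht.1]
    have e : ρ - (2 * t * s - t ^ 2) = ρ - s ^ 2 + (t - s) ^ 2 := by ring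
    rw [e, ← ofReal_norm, ← ofReal_norm, ← ENNReal.ofReal_mul (norm_nonneg _),
      ← ENNReal.ofReal_mul (by positivity), ← ENNReal.ofReal_mul (abs_nonneg _)]
    apply ENNReal.ofReal_le_ofReal
    have e2 : ((t - s) ^ 2) ^ (-(1 / 2) : ℝ) = |t - s|⁻¹ := by
      rw [← sq_abs, rd_rpow_neg_half h1]
    rw [e2, norm_div, Complex.norm_real, Real.norm_of_nonneg ht0.le, abs_mul, abs_two]
    have e3 : 2 * |t - s| * (s⁻¹ * (‖F (ρ - s ^ 2 + (t - s) ^ 2)‖ * |t - s|⁻¹)) =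
        ‖F (ρ - s ^ 2 + (t - s) ^ 2)‖ / (s / 2) := by field_simp
    rw [e3]
    exact div_le_div_of_nonneg_left (norm_nonneg _) (by positivity) (by linarith [ht.1])
  · rw [lintegral_const_mul' _ _ ENNReal.ofReal_ne_top]
    refine (mul_le_mul_right (hk _ _ _ ((2 * s) ^ 2) hF.measurable.enorm hG (by positivity))
      _).trans ?_
    rw [rd_rpow_half (by positivity), ← ENNReal.ofReal_ofNat 2, ← ENNReal.ofReal_mul (by norm_num),
      ← ENNReal.ofReal_mul (by positivity), ← ENNReal.ofReal_mul (by positivity)]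
    apply le_of_eq; congr 1; field_simp; ring

theorem rd_crit (hk : A_k2) {F : ℝ → ℂ} (hF : Continuous F) {ρ m s : ℝ} (hm : 0 ≤ m)
    (hG : Good (fun y => ‖F y‖ₑ) (ρ - s ^ 2) (ENNReal.ofReal m)) (hs : 0 < s) :
    ‖∫ t in (s / 2)..(5 * s / 2), F (ρ - (2 * t * s - t ^ 2)) / (t : ℂ)‖ ≤ 8 * m := by
  have i1 := rd_cont (g := fun t => F (ρ - (2 * t * s - t ^ 2))) (d := fun t => t) (by fun_prop)
    continuous_id (a := s / 2) (b := s) (by linarith) fun t ht => by have := ht.1; linarith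
  have i2 := rd_cont (g := fun t => F (ρ - (2 * t * s - t ^ 2))) (d := fun t => t) (by fun_prop)
    continuous_id (a := s) (b := 5 * s / 2) (by linarith) fun t ht => by have := ht.1; linarith
  rw [← intervalIntegral.integral_add_adjacent_intervals i1 i2]
  have h1 := rd_half hk hF hm hG hs (a := s / 2) (b := s) (by linarith) le_rfl (by linarith)
    (Or.inl le_rfl)
  have h2 := rd_half hk hF hm hG hs (a := s) (b := 5 * s / 2) (by linarith) (by linarith) le_rfl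
    (Or.inr le_rfl)
  refine (norm_add_le _ _).trans ?_
  linarith

theorem rd_part2 {F : ℝ → ℂ} (hF : Continuous F) (ρ : ℝ) {s : ℝ} (hs : 0 < s) (hs1 : s ≤ 1 / 5) :
    ∫ t in (s / 2)..(1 / 2), k1 F ρ s t =
      (∫ t in (s / 2)..(5 * s / 2), F (ρ - (2 * t * s - t ^ 2)) / (t : ℂ)) +
      (∫ t in (s / 2)..(1 / 2 - 2 * s), (F (ρ + (2 * t * s + t ^ 2)) / ((t + 2 * s : ℝ) : ℂ) -
        F (ρ + (2 * t * s + t ^ 2)) / (t : ℂ))) -
      ∫ t in (1 / 2 - 2 * s)..(1 / 2), F (ρ + (2 * t * s + t ^ 2)) / (t : ℂ) := by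
  have iA : ∀ p q, s / 2 ≤ p → p ≤ q → IntervalIntegrable
      (fun t : ℝ => F (ρ - (2 * t * s - t ^ 2)) / (t : ℂ)) volume p q := fun p q hp hq =>
    rd_cont (g := fun t => F (ρ - (2 * t * s - t ^ 2))) (d := fun t => t) (by fun_prop)
      continuous_id hq fun t ht => by have := ht.1; linarith
  have iB : ∀ p q, s / 2 ≤ p → p ≤ q → IntervalIntegrable
      (fun t : ℝ => F (ρ + (2 * t * s + t ^ 2)) / (t : ℂ)) volume p q := fun p q hp hq =>
    rd_cont (g := fun t => F (ρ + (2 * t * s + t ^ 2))) (d := fun t => t) (by fun_prop)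
      continuous_id hq fun t ht => by have := ht.1; linarith
  have iC := rd_cont (g := fun t => F (ρ + (2 * t * s + t ^ 2))) (d := fun t => t + 2 * s)
    (by fun_prop) (by fun_prop) (a := s / 2) (b := 1 / 2 - 2 * s) (by linarith)
    fun t ht => by have := ht.1; linarith
  have e1 := intervalIntegral.integral_add_adjacent_intervals
    (iA (s / 2) (5 * s / 2) le_rfl (by linarith)) (iA (5 * s / 2) (1 / 2) (by linarith) (by linarith))
  have e2 := intervalIntegral.integral_add_adjacent_intervals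
    (iB (s / 2) (1 / 2 - 2 * s) le_rfl (by linarith))
    (iB (1 / 2 - 2 * s) (1 / 2) (by linarith) (by linarith))
  have e3 := intervalIntegral.integral_comp_add_right (a := s / 2) (b := 1 / 2 - 2 * s)
    (fun t : ℝ => F (ρ - (2 * t * s - t ^ 2)) / (t : ℂ)) (2 * s)
  have f1 : s / 2 + 2 * s = 5 * s / 2 := by ring
  have f2 : 1 / 2 - 2 * s + 2 * s = 1 / 2 := by ring
  have f3 : ∀ t : ℝ, ρ - (2 * (t + 2 * s) * s - (t + 2 * s) ^ 2) = ρ + (2 * t * s + t ^ 2) :=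
    fun t => by ring
  simp only [f1, f2, f3] at e3
  have e4 : ∫ t in (s / 2)..(1 / 2), k1 F ρ s t =
      (∫ t in (s / 2)..(1 / 2), F (ρ - (2 * t * s - t ^ 2)) / (t : ℂ)) -
        ∫ t in (s / 2)..(1 / 2), F (ρ + (2 * t * s + t ^ 2)) / (t : ℂ) := by
    rw [← intervalIntegral.integral_sub (iA _ _ le_rfl (by linarith)) (iB _ _ le_rfl (by linarith))]
    congr 1; funext t; unfold k1; ring
  rw [e4, intervalIntegral.integral_sub iC (iB _ _ le_rfl (by linarith)), e3]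
  linear_combination e2 - e1

end Vale.Agent.P112
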