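import Vale.Agent.P112.RD2

namespace Vale.Agent.P112

open MeasureTheory Set Filter Topology
open scoped ENNReal

theorem rd_sq_sub (x u : E2) (hu : ‖u‖ = 1) (t : ℝ) :
    ‖x - t • u‖ ^ 2 = ‖x‖ ^ 2 - (2 * t * inner ℝ x u - t ^ 2) := by
  rw [norm_sub_sq_real, real_inner_smul_right, norm_smul, hu, mul_one, Real.norm_eq_abs, sq_abs]
  ring

theorem rd_sq_add (x u : E2) (hu : ‖u‖ = 1) (t : ℝ) :
    ‖x + t • u‖ ^ 2 = ‖x‖ ^ 2 + (2 * t * inner ℝ x u + t ^ 2) := by
  rw [norm_add_sq_real, real_inner_smul_right, norm_smul, hu, mul_one, Real.norm_eq_abs, sq_abs]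
  ring

theorem rd_point (hk1 : A_k1) (hk2 : A_k2) {F : ℝ → ℂ} (hF : Continuous F)
    (hi : Integrable F volume) {f : E2 → ℂ} {L : NNReal} (hL : LipschitzWith L f)
    (hf : ∀ y, f y = F (‖y‖ ^ 2)) {v : E2 → E2} {x : E2} (hu : ‖v x‖ = 1) {m : ℝ} (hm : 0 ≤ m)
    (hs0 : 0 ≤ inner ℝ x (v x))
    (hH : ∀ R, 0 < R → ‖HR F (‖x‖ ^ 2) R‖ ≤ m)
    (hG : Good (fun y => ‖F y‖ₑ) (‖x‖ ^ 2) (ENNReal.ofReal m))
    (hD : inner ℝ x (v x) ≤ ‖x‖ / 2 → inner ℝ x (v x) ≤ 1 / 4 →
      Good (fun y => ‖F y‖ₑ) (‖x‖ ^ 2 - inner ℝ x (v x) ^ 2) (ENNReal.ofReal m))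
    (hN : NN v f x ≤ ENNReal.ofReal m) (hQ1 : QQ v f x ≤ ENNReal.ofReal m)
    (hQ2 : QQ (fun y => -v y) f x ≤ ENNReal.ofReal m) :
    ‖∫ t in (0 : ℝ)..(1 / 2), kk f x (v x) t‖ ≤ 30 * m := by
  set s := inner ℝ x (v x) with hsd
  set ρ := ‖x‖ ^ 2 with hρ
  have hA : ∀ t, f (x - t • v x) = F (ρ - (2 * t * s - t ^ 2)) := fun t => by
    rw [hf, rd_sq_sub x _ hu]
  have hB : ∀ t, f (x + t • v x) = F (ρ + (2 * t * s + t ^ 2)) := fun t => by
    rw [hf, rd_sq_add x _ hu]
  have hk : kk f x (v x) = k1 F ρ s := by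
    funext t; unfold kk k1; rw [hA, hB]
  rcases hs0.eq_or_lt with h0 | hs
  · have : kk f x (v x) = fun _ => 0 := by
      rw [hk]; funext t; unfold k1; rw [← h0]; simp
    rw [this]; simp only [intervalIntegral.integral_zero, norm_zero]; positivity
  have hint := kk_int hL x _ hu
  have part1 : ∀ b, 0 < b → b ≤ s / 2 → ‖∫ t in (0 : ℝ)..b, kk f x (v x) t‖ ≤ 8 * m := by
    intro b hb hbs
    have hc : Continuous fun ε : ℝ => ∫ t in ε..b, kk f x (v x) t := by
      have h3 : (fun ε : ℝ => ∫ t in ε..b, kk f x (v x) t) =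
          fun ε : ℝ => -∫ t in b..ε, kk f x (v x) t := by
        funext ε; exact intervalIntegral.integral_symm _ _
      rw [h3]; exact (intervalIntegral.continuous_primitive hint b).neg
    refine le_of_tendsto ((hc.norm.tendsto 0).mono_left (nhdsWithin_le_nhds (s := Ioi 0))) ?_
    filter_upwards [Ioo_mem_nhdsGT hb] with η hη
    rw [hk]
    exact rd_part1 hF hi hm hG hH hη.1 hη.2.le hbs
  by_cases hs1 : s ≤ 1 / 5
  · rw [← intervalIntegral.integral_add_adjacent_intervals (hint 0 (s / 2)) (hint (s / 2) (1 / 2))]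
    have p1 := part1 (s / 2) (by linarith) le_rfl
    have p2 := rd_mid hk1 hF hm hG hs (c := 1 / 2 - 2 * s) (by linarith)
    have p3 : ‖∫ t in (1 / 2 - 2 * s)..(1 / 2), F (ρ + (2 * t * s + t ^ 2)) / (t : ℂ)‖ ≤
        10 * m := by
      refine rd_norm_le (by linarith) (by positivity) ?_
      rw [ENNReal.ofReal_mul (by norm_num)]
      refine le_trans ?_ (mul_le_mul_right hQ2 _)
      unfold QQ
      rw [← lintegral_const_mul' _ _ ENNReal.ofReal_ne_top]
      refine le_trans (setLIntegral_mono' measurableSet_Ioo fun t ht => ?_)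
        (lintegral_mono_set (Ioo_subset_Ioo (by linarith) (by norm_num)))
      rw [smul_neg, sub_neg_eq_add, hB, ← ofReal_norm, ← ofReal_norm,
        ← ENNReal.ofReal_mul (by norm_num)]
      apply ENNReal.ofReal_le_ofReal
      have h1 : 1 / 10 < t := by linarith [ht.1]
      rw [norm_div, Complex.norm_real, Real.norm_of_nonneg (by linarith),
        div_le_iff₀ (by linarith)]
      nlinarith [norm_nonneg (F (ρ + (2 * t * s + t ^ 2)))]
    have p4 : ‖∫ t in (s / 2)..(5 * s / 2), F (ρ - (2 * t * s - t ^ 2)) / (t : ℂ)‖ ≤ 8 * m := by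
      by_cases hr : s ≤ ‖x‖ / 2
      · exact rd_crit hk2 hF hm (hD hr (by linarith)) hs
      · have hsr : s ≤ ‖x‖ := by
          have := real_inner_le_norm x (v x)
          rwa [hu, mul_one] at this
        have hr0 : 0 < ‖x‖ := hs.trans_le hsr
        push Not at hr
        refine le_trans (rd_norm_le (c := 4 * m) (by linarith) (by positivity) ?_) (by linarith)
        rw [ENNReal.ofReal_mul (by norm_num)]
        refine le_trans ?_ (mul_le_mul_right hN _)
        unfold NN
        rw [← mul_assoc, ← ENNReal.ofReal_mul (by norm_num),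
          ← lintegral_const_mul' _ _ ENNReal.ofReal_ne_top]
        refine le_trans (setLIntegral_mono' measurableSet_Ioo fun t ht => ?_)
          (lintegral_mono_set (Ioo_subset_Ioo (by linarith) (le_min (by linarith) (by linarith))))
        rw [hA, ← ofReal_norm, ← ofReal_norm, ← ENNReal.ofReal_mul (by positivity)]
        apply ENNReal.ofReal_le_ofReal
        have h1 : ‖x‖ / 4 < t := by linarith [ht.1]
        have e : 4 * ‖x‖⁻¹ * ‖F (ρ - (2 * t * s - t ^ 2))‖ =
            ‖F (ρ - (2 * t * s - t ^ 2))‖ / (‖x‖ / 4) := by field_simp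
        rw [norm_div, Complex.norm_real, Real.norm_of_nonneg (by linarith), e]
        exact div_le_div_of_nonneg_left (norm_nonneg _) (by positivity) h1.le
    have p5 : ‖∫ t in (s / 2)..(1 / 2), kk f x (v x) t‖ ≤ 21 * m := by
      rw [hk, rd_part2 hF ρ hs hs1]
      refine (norm_sub_le _ _).trans ?_
      refine (add_le_add_left (norm_add_le _ _) _).trans ?_
      linarith
    refine (norm_add_le _ _).trans ?_
    linarith
  · push Not at hs1
    rw [← intervalIntegral.integral_add_adjacent_intervals (hint 0 (1 / 10)) (hint (1 / 10) (1 / 2))]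
    have p1 := part1 (1 / 10) (by norm_num) (by linarith)
    have p2 := (tail_le (v := v) hL.continuous (a := 1 / 10) (b := 1 / 2) (by norm_num)
      (by norm_num) (by norm_num) x).trans (add_le_add hQ1 hQ2)
    rw [← ENNReal.ofReal_add hm hm, ENNReal.ofReal_le_ofReal_iff (by positivity)] at p2
    refine (norm_add_le _ _).trans ?_
    linarith

end Vale.Agent.P112
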