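import Vale.Agent.P112.Tail

/-! Statements used for the radial case. -/

namespace Vale.Agent.P112

open MeasureTheory Set
open scoped ENNReal

/-- all centred averages of `G` at `ρ` are bounded in terms of `m` -/
def Good (G : ℝ → ℝ≥0∞) (ρ : ℝ) (m : ℝ≥0∞) : Prop :=
  ∀ r : ℝ, 0 < r → ∫⁻ y in Metric.ball ρ r, G y ≤ m * ENNReal.ofReal r

def A_weak : Prop :=
  ∀ (G : ℝ → ℝ≥0∞) (m : ℝ≥0∞), m * volume {ρ : ℝ | ¬ Good G ρ m} ≤ 10 * ∫⁻ y, G y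

def A_sq : Prop :=
  ∀ (G : ℝ → ℝ≥0∞) (ρ : ℝ) (m : ℝ≥0∞), Measurable G →
    Good (fun y => G y ^ 2) ρ (m ^ 2) → Good G ρ (2 * m)

def A_k1 : Prop :=
  ∀ (G : ℝ → ℝ≥0∞) (ρ : ℝ) (m : ℝ≥0∞) (h : ℝ), Measurable G → Good G ρ m → 0 < h →
    ∫⁻ σ in Ioi h, G (ρ + σ) * ENNReal.ofReal (σ ^ (-(3 / 2) : ℝ)) ≤
      3 * m * ENNReal.ofReal (h ^ (-(1 / 2) : ℝ))

def A_k2 : Prop :=
  ∀ (G : ℝ → ℝ≥0∞) (ρ : ℝ) (m : ℝ≥0∞) (h : ℝ), Measurable G → Good G ρ m → 0 < h →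
    ∫⁻ σ in Ioo 0 h, G (ρ + σ) * ENNReal.ofReal (σ ^ (-(1 / 2) : ℝ)) ≤
      2 * m * ENNReal.ofReal (h ^ ((1 / 2) : ℝ))

def A_k3 : Prop :=
  ∀ (G : ℝ → ℝ≥0∞) (ρ : ℝ) (m : ℝ≥0∞) (R : ℝ), Measurable G → Good G ρ m → 0 < R →
    ∫⁻ y in {y : ℝ | R ≤ |y - ρ|}, G y * ENNReal.ofReal (((y - ρ) ^ 2)⁻¹) ≤
      2 * m * ENNReal.ofReal R⁻¹

def B_cauchy : Prop :=
  ∀ (G : ℝ → ℂ) (ε : ℝ), Integrable G volume → 0 < ε →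
    ∫⁻ z : ℝ, ‖∫ y : ℝ, G y / (((z - y : ℝ) : ℂ) + (ε : ℂ) * Complex.I)‖ₑ ^ 2 ≤
      40 * ∫⁻ y, ‖G y‖ₑ ^ 2

def P_le : Prop :=
  ∀ (g : E2 → ℝ≥0∞) (b : ℝ≥0∞), Measurable g →
    (∀ u : E2, ‖u‖ = 1 → ∫⁻ ρ in Ioi (0 : ℝ), g (Real.sqrt ρ • u) ≤ b) → ∫⁻ x, g x ≤ 4 * b

def P_ge : Prop :=
  ∀ G : ℝ → ℝ≥0∞, Measurable G → ∫⁻ ρ in Ioi (0 : ℝ), G ρ ≤ ∫⁻ x : E2, G (‖x‖ ^ 2)

def P_anti : Prop :=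
  ∀ (S B : Set ℝ) (D : ℝ → ℝ), (∀ p ∈ S, ∀ q ∈ S, |p - q| ≤ 2 * |D p - D q|) →
    (∀ p ∈ S, D p ∈ B) → volume S ≤ 2 * volume B

/-- the average over the part of the line at distance comparable to the norm of the point -/
noncomputable def NN (v : E2 → E2) (f : E2 → ℂ) (x : E2) : ℝ≥0∞ :=
  ENNReal.ofReal ‖x‖⁻¹ *
    ∫⁻ t in Ioo (‖x‖ / 4) (min (5 * ‖x‖ / 2) (1 / 2)), ‖f (x - t • v x)‖ₑ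

def N_weak : Prop :=
  ∃ C : ℝ≥0∞, C ≠ ∞ ∧ ∀ (v : E2 → E2) (f : E2 → ℂ) (s : ℝ≥0∞), UnitLip v → Differentiable ℝ v →
    Continuous f → s ^ 2 * volume {x | s ≤ NN v f x} ≤ C * ∫⁻ x, ‖f x‖ₑ ^ 2

/-- the Hilbert transform truncated below at `R` -/
noncomputable def HR (F : ℝ → ℂ) (ρ R : ℝ) : ℂ :=
  ∫ σ in Ioi R, (F (ρ - σ) - F (ρ + σ)) / (σ : ℂ)

def C_star : Prop :=
  ∃ C : ℝ≥0∞, C ≠ ∞ ∧ ∀ (F : ℝ → ℂ) (lam : ℝ), Measurable F → Integrable F volume → 0 < lam →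
    ENNReal.ofReal lam ^ 2 * volume {ρ : ℝ | ∃ R : ℝ, 0 < R ∧ lam < ‖HR F ρ R‖} ≤
      C * ∫⁻ y, ‖F y‖ₑ ^ 2

end Vale.Agent.P112
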