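import Vale.Agent.P112.Basic

namespace Vale.Agent.P112

open MeasureTheory Filter Topology Set
open scoped Convolution ContDiff

theorem exists_moll {v : E2 → E2} (hv : LipschitzWith 1 v) {r : ℝ} (hr : 0 < r) :
    ∃ c : E2 → E2, ContDiff ℝ ∞ c ∧ (∀ x, ‖c x - v x‖ ≤ r) ∧ ∀ x y, ‖c x - c y‖ ≤ ‖x - y‖ := by
  let φ : ContDiffBump (0 : E2) := ⟨r / 2, r, by linarith, by linarith⟩
  have hvc : Continuous v := hv.continuous
  refine ⟨φ.normed volume ⋆[ContinuousLinearMap.lsmul ℝ ℝ, volume] v, ?_, ?_, ?_⟩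
  · exact φ.hasCompactSupport_normed.contDiff_convolution_left _ φ.contDiff_normed
      hvc.locallyIntegrable
  · intro x
    rw [← dist_eq_norm]
    refine φ.dist_normed_convolution_le hvc.aestronglyMeasurable ?_
    intro y hy
    have h := hv.dist_le_mul y x
    have h2 : dist y x < r := hy
    simp only [NNReal.coe_one, one_mul] at h
    linarith
  · intro x y
    have hi : ∀ z : E2, Integrable (fun t => φ.normed volume t • v (z - t)) volume := by
      intro z
      apply Continuous.integrable_of_hasCompactSupport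
      · exact φ.continuous_normed.smul (hvc.comp (continuous_const.sub continuous_id))
      · exact φ.hasCompactSupport_normed.smul_right
    simp only [convolution_def, ContinuousLinearMap.lsmul_apply]
    rw [← integral_sub (hi x) (hi y)]
    have hb : ∀ t, ‖φ.normed volume t • v (x - t) - φ.normed volume t • v (y - t)‖ ≤
        φ.normed volume t * ‖x - y‖ := by
      intro t
      rw [← smul_sub, norm_smul, Real.norm_of_nonneg (φ.nonneg_normed t)]
      apply mul_le_mul_of_nonneg_left _ (φ.nonneg_normed t)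
      have h := hv.dist_le_mul (x - t) (y - t)
      simpa [dist_eq_norm] using h
    refine (norm_integral_le_of_norm_le (φ.integrable_normed.mul_const _)
      (Eventually.of_forall hb)).trans ?_
    rw [integral_mul_const, φ.integral_normed, one_mul]

theorem exists_smooth {v : E2 → E2} (hv : UnitLip v) {r : ℝ} (hr : 0 < r) (hr2 : r ≤ 1 / 2) :
    ∃ w : E2 → E2, UnitLip w ∧ (∀ n : ℕ, ContDiff ℝ n w) ∧
      ∀ x, ‖w x - v x‖ ≤ 2 * r * (1 + ‖x‖) := by
  obtain ⟨c, hc, h1, h2⟩ := exists_moll hv.2 hr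
  have hm : ∀ x, 1 - r ≤ ‖c x‖ := by
    intro x
    have h3 := norm_sub_norm_le (v x) (c x)
    rw [hv.1 x, norm_sub_rev] at h3
    linarith [h1 x]
  have hm0 : 0 < 1 - r := by linarith
  have hne : ∀ x, c x ≠ 0 := fun x => norm_pos_iff.1 (hm0.trans_le (hm x))
  refine ⟨fun x => ‖c ((1 - r) • x)‖⁻¹ • c ((1 - r) • x), ⟨fun x => ?_, ?_⟩, fun n => ?_,
    fun x => ?_⟩
  · exact norm_smul_inv_norm (hne _)
  · apply LipschitzWith.of_dist_le_mul
    intro x y
    rw [dist_eq_norm, dist_eq_norm, NNReal.coe_one, one_mul]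
    have h3 := norm_lip hm0 (hm ((1 - r) • x)) (hm ((1 - r) • y))
    have h4 := h2 ((1 - r) • x) ((1 - r) • y)
    rw [← smul_sub, norm_smul, Real.norm_of_nonneg hm0.le] at h4
    exact le_of_mul_le_mul_left (h3.trans h4) hm0
  · have h3 : ContDiff ℝ n fun x : E2 => c ((1 - r) • x) :=
      (hc.of_le (by exact_mod_cast le_top)).comp (contDiff_id.const_smul _)
    refine ContDiff.smul (ContDiff.inv (h3.norm ℝ fun x => hne _) fun x => ?_) h3
    exact norm_ne_zero_iff.2 (hne _)
  · have h3 := norm_lip hm0 (hm ((1 - r) • x)) (q := v x) (by rw [hv.1 x]; linarith)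
    rw [hv.1 x, inv_one, one_smul] at h3
    have h4 : ‖c ((1 - r) • x) - v x‖ ≤ r + r * ‖x‖ := by
      have h5 := h1 ((1 - r) • x)
      have h6 := hv.2.dist_le_mul ((1 - r) • x) x
      rw [dist_eq_norm, dist_eq_norm, NNReal.coe_one, one_mul] at h6
      have h7 : (1 - r) • x - x = (-r) • x := by module
      rw [h7, norm_smul, norm_neg, Real.norm_of_nonneg hr.le] at h6
      have h8 := norm_sub_le_norm_sub_add_norm_sub (c ((1 - r) • x)) (v ((1 - r) • x)) (v x)
      linarith
    have h9 := norm_nonneg (‖c ((1 - r) • x)‖⁻¹ • c ((1 - r) • x) - v x)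
    nlinarith

theorem weak_of_smooth {a C : ℝ} (ha : 0 < a) (h : WeakSmooth a C) : Weak a C := by
  intro v hv f lam hlam
  have hr : ∀ n : ℕ, (0 : ℝ) < 1 / ((n : ℝ) + 1) / 2 := fun n => by positivity
  have hr2 : ∀ n : ℕ, (1 : ℝ) / ((n : ℝ) + 1) / 2 ≤ 1 / 2 := fun n => by
    have : (1 : ℝ) / ((n : ℝ) + 1) ≤ 1 := by
      rw [div_le_one (by positivity)]; linarith [Nat.cast_nonneg (α := ℝ) n]
    linarith
  choose w hw1 hw2 hw3 using fun n : ℕ => exists_smooth hv (hr n) (hr2 n)
  have hlim : ∀ x, Tendsto (fun n => w n x) atTop (𝓝 (v x)) := by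
    intro x
    rw [tendsto_iff_norm_sub_tendsto_zero]
    refine squeeze_zero (fun n => norm_nonneg _) (fun n => hw3 n x) ?_
    have h1 := ((tendsto_one_div_add_atTop_nhds_zero_nat (𝕜 := ℝ)).div_const 2).const_mul 2
    have h2 := h1.mul_const (1 + ‖x‖)
    simpa using h2
  let A : ℕ → Set E2 := fun N => ⋂ n ≥ N, {x | lam < ‖Hpv (w n) a f x‖}
  have hmono : Monotone A := by
    intro N M hNM x hx
    simp only [A, mem_iInter] at hx ⊢
    exact fun n hn => hx n (hNM.trans hn)
  have hsub : {x | lam < ‖Hpv v a f x‖} ⊆ ⋃ N, A N := by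
    intro x hx
    have h1 := kk_cont f a x (v x) (fun n => w n x) (fun n => (hw1 n).1 x) (hlim x)
    have hx' : lam < ‖Hpv v a f x‖ := hx
    rw [hpv_eq f v ha x (hv.1 x)] at hx'
    have h2 := h1.norm.eventually (lt_mem_nhds hx')
    obtain ⟨N, hN⟩ := eventually_atTop.1 h2
    refine mem_iUnion.2 ⟨N, ?_⟩
    simp only [A, mem_iInter]
    intro n hn
    change lam < ‖Hpv (w n) a f x‖
    rw [hpv_eq f (w n) ha x ((hw1 n).1 x)]
    exact hN n hn
  refine (measure_mono hsub).trans ?_
  rw [hmono.measure_iUnion]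
  refine iSup_le fun N => ?_
  refine (measure_mono ?_).trans (h (w N) (hw1 N) (hw2 N) f lam hlam)
  intro x hx
  simp only [A, mem_iInter] at hx
  exact hx N le_rfl

end Vale.Agent.P112
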