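import Vale.Agent.P112.RD3
import Vale.Agent.P112.RA1
import Vale.Agent.P112.RA2
import Vale.Agent.P112.RB
import Vale.Agent.P112.RC
import Vale.Agent.P112.RN
import Vale.Agent.P112.RP
import Vale.Agent.P112.Smooth

namespace Vale.Agent.P112

open MeasureTheory Set Filter Topology
open scoped ENNReal

theorem rm_pull {A : Set E2} (hA : MeasurableSet A) {b : ℝ≥0∞}
    (h : ∀ u : E2, ‖u‖ = 1 → volume {ρ : ℝ | 0 < ρ ∧ Real.sqrt ρ • u ∈ A} ≤ b) :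
    volume A ≤ 4 * b := by
  rw [← lintegral_indicator_one hA]
  refine p_le _ b (measurable_one.indicator hA) fun u hu => le_trans ?_ (h u hu)
  have hm : MeasurableSet ((fun ρ : ℝ => Real.sqrt ρ • u) ⁻¹' A) :=
    (Continuous.measurable (by fun_prop)) hA
  have e : (fun ρ : ℝ => A.indicator (1 : E2 → ℝ≥0∞) (Real.sqrt ρ • u)) =
      ((fun ρ : ℝ => Real.sqrt ρ • u) ⁻¹' A).indicator 1 := by
    funext ρ
    by_cases hρ : Real.sqrt ρ • u ∈ A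
    · rw [indicator_of_mem hρ, indicator_of_mem (by exact hρ)]; rfl
    · rw [indicator_of_notMem hρ, indicator_of_notMem (by exact hρ)]
  rw [e, lintegral_indicator_one hm, Measure.restrict_apply hm]
  exact measure_mono fun ρ hρ => ⟨hρ.2, hρ.1⟩

theorem rm_sqrt {ρ : ℝ} (_hρ : 0 < ρ) {u : E2} (hu : ‖u‖ = 1) :
    ‖Real.sqrt ρ • u‖ = Real.sqrt ρ := by
  rw [norm_smul, hu, mul_one, Real.norm_of_nonneg (Real.sqrt_nonneg _)]

theorem rm_pull_sq (B : Set ℝ) : volume {x : E2 | ‖x‖ ^ 2 ∈ B} ≤ 4 * volume B := by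
  have hm : MeasurableSet {x : E2 | ‖x‖ ^ 2 ∈ toMeasurable volume B} :=
    (Continuous.measurable (by fun_prop : Continuous fun x : E2 => ‖x‖ ^ 2))
      (measurableSet_toMeasurable _ _)
  have hsub : {x : E2 | ‖x‖ ^ 2 ∈ B} ⊆ {x : E2 | ‖x‖ ^ 2 ∈ toMeasurable volume B} :=
    fun x hx => subset_toMeasurable volume B hx
  refine (measure_mono hsub).trans (rm_pull hm ?_)
  intro u hu
  rw [← measure_toMeasurable B]
  refine measure_mono fun ρ hρ => ?_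
  have h := hρ.2
  rw [mem_ofPred_eq, rm_sqrt hρ.1 hu, Real.sq_sqrt hρ.1.le] at h
  exact h

theorem rm_anti {r1 r2 a1 a2 : ℝ} (h0 : 0 < r1) (h12 : r1 ≤ r2) (hl : |a2 - a1| ≤ r2 - r1)
    (p1 : 0 ≤ r1 * a1) (p2 : 0 ≤ r2 * a2) (q1 : r1 * a1 ≤ r1 / 2) (q2 : r2 * a2 ≤ r2 / 2)
    (s1 : r1 * a1 ≤ 1 / 4) (s2 : r2 * a2 ≤ 1 / 4) :
    r2 ^ 2 - r1 ^ 2 ≤ 2 * ((r2 ^ 2 - (r2 * a2) ^ 2) - (r1 ^ 2 - (r1 * a1) ^ 2)) := by
  have h2 : 0 < r2 := h0.trans_le h12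
  have ha2 : a2 ≤ 1 / 2 := by nlinarith
  have hd : 0 ≤ r2 - r1 := by linarith
  have e1 : r2 * a2 - r1 * a1 ≤ (r2 - r1) / 2 + r1 * (r2 - r1) := by
    have := mul_le_mul_of_nonneg_left (le_abs_self _ |>.trans hl) h0.le
    nlinarith
  have e2 := mul_le_mul_of_nonneg_right e1 (add_nonneg p1 p2)
  have e3 : (r2 - r1) / 2 * (r1 * a1 + r2 * a2) ≤ (r2 - r1) / 2 * ((r1 + r2) / 2) :=
    mul_le_mul_of_nonneg_left (by linarith) (by linarith)
  have e4 : r1 * (r2 - r1) * (r1 * a1 + r2 * a2) ≤ r1 * (r2 - r1) * (1 / 2) :=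
    mul_le_mul_of_nonneg_left (by linarith) (by positivity)
  nlinarith

theorem rm_pull_D {v : E2 → E2} (hv : UnitLip v) (B : Set ℝ) :
    volume {x : E2 | 0 ≤ inner ℝ x (v x) ∧ inner ℝ x (v x) ≤ ‖x‖ / 2 ∧ inner ℝ x (v x) ≤ 1 / 4 ∧
      ‖x‖ ^ 2 - inner ℝ x (v x) ^ 2 ∈ B} ≤ 8 * volume B := by
  have hvc := hv.2.continuous
  have hs : Continuous fun x : E2 => inner ℝ x (v x) := by fun_prop
  have hm : MeasurableSet {x : E2 | 0 ≤ inner ℝ x (v x) ∧ inner ℝ x (v x) ≤ ‖x‖ / 2 ∧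
      inner ℝ x (v x) ≤ 1 / 4 ∧ ‖x‖ ^ 2 - inner ℝ x (v x) ^ 2 ∈ toMeasurable volume B} := by
    refine (measurableSet_le measurable_const hs.measurable).inter
      ((measurableSet_le hs.measurable (by fun_prop)).inter
        ((measurableSet_le hs.measurable measurable_const).inter ?_))
    exact (Continuous.measurable
      (by fun_prop : Continuous fun x : E2 => ‖x‖ ^ 2 - inner ℝ x (v x) ^ 2))
      (measurableSet_toMeasurable _ _)
  refine le_trans (measure_mono ?_)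
    ((rm_pull hm (b := 2 * volume B) ?_).trans (by rw [← mul_assoc]; norm_num))
  · exact fun x hx => ⟨hx.1, hx.2.1, hx.2.2.1, subset_toMeasurable volume B hx.2.2.2⟩
  intro u hu
  rw [← measure_toMeasurable B]
  refine p_anti _ _ (fun ρ => ‖Real.sqrt ρ • u‖ ^ 2 -
    inner ℝ (Real.sqrt ρ • u) (v (Real.sqrt ρ • u)) ^ 2) ?_ fun p hp => hp.2.2.2.2
  have key : ∀ p q : ℝ, p ≤ q → 0 < p →
      (0 ≤ inner ℝ (Real.sqrt p • u) (v (Real.sqrt p • u)) ∧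
        inner ℝ (Real.sqrt p • u) (v (Real.sqrt p • u)) ≤ ‖Real.sqrt p • u‖ / 2 ∧
        inner ℝ (Real.sqrt p • u) (v (Real.sqrt p • u)) ≤ 1 / 4) →
      (0 ≤ inner ℝ (Real.sqrt q • u) (v (Real.sqrt q • u)) ∧
        inner ℝ (Real.sqrt q • u) (v (Real.sqrt q • u)) ≤ ‖Real.sqrt q • u‖ / 2 ∧
        inner ℝ (Real.sqrt q • u) (v (Real.sqrt q • u)) ≤ 1 / 4) →
      q - p ≤ 2 * ((‖Real.sqrt q • u‖ ^ 2 - inner ℝ (Real.sqrt q • u) (v (Real.sqrt q • u)) ^ 2) -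
        (‖Real.sqrt p • u‖ ^ 2 - inner ℝ (Real.sqrt p • u) (v (Real.sqrt p • u)) ^ 2)) := by
    intro p q hpq hp h1 h2
    have hq : 0 < q := hp.trans_le hpq
    rw [rm_sqrt hp hu, real_inner_smul_left] at *
    rw [rm_sqrt hq hu, real_inner_smul_left] at *
    have hr : Real.sqrt p ≤ Real.sqrt q := Real.sqrt_le_sqrt hpq
    have hl : |inner ℝ u (v (Real.sqrt q • u)) - inner ℝ u (v (Real.sqrt p • u))| ≤
        Real.sqrt q - Real.sqrt p := by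
      rw [← inner_sub_right]
      refine (abs_real_inner_le_norm _ _).trans ?_
      have h3 := hv.2.dist_le_mul (Real.sqrt q • u) (Real.sqrt p • u)
      rw [dist_eq_norm, dist_eq_norm, NNReal.coe_one, one_mul, ← sub_smul, norm_smul, hu, mul_one,
        Real.norm_of_nonneg (by linarith)] at h3
      rw [hu, one_mul]; exact h3
    have := rm_anti (Real.sqrt_pos.2 hp) hr hl h1.1 h2.1 h1.2.1 h2.2.1 h1.2.2 h2.2.2
    rw [Real.sq_sqrt hp.le, Real.sq_sqrt hq.le] at this ⊢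
    exact this
  intro p hp q hq
  rcases le_total p q with h | h
  · have := key p q h hp.1 ⟨hp.2.1, hp.2.2.1, hp.2.2.2.1⟩ ⟨hq.2.1, hq.2.2.1, hq.2.2.2.1⟩
    rw [abs_sub_comm, abs_of_nonneg (by linarith), abs_sub_comm]
    exact this.trans (mul_le_mul_of_nonneg_left (le_abs_self _) zero_le_two)
  · have := key q p h hq.1 ⟨hq.2.1, hq.2.2.1, hq.2.2.2.1⟩ ⟨hp.2.1, hp.2.2.1, hp.2.2.2.1⟩
    rw [abs_of_nonneg (by linarith)]
    exact this.trans (mul_le_mul_of_nonneg_left (le_abs_self _) zero_le_two)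

theorem rm_abs {G : ℝ → ℝ≥0∞} (hG : Measurable G) :
    ∫⁻ ρ, G |ρ| ≤ 2 * ∫⁻ x : E2, G (‖x‖ ^ 2) := by
  have h1 : ∀ ρ, G |ρ| ≤ (Ici (0 : ℝ)).indicator G ρ + (Ici (0 : ℝ)).indicator G (-ρ) := by
    intro ρ
    rcases le_total 0 ρ with h | h
    · rw [abs_of_nonneg h, indicator_of_mem (by exact h)]; exact le_self_add
    · rw [abs_of_nonpos h, indicator_of_mem (a := -ρ) (by rw [mem_Ici]; linarith)]
      exact le_add_self
  refine (lintegral_mono h1).trans ?_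
  rw [lintegral_add_left (hG.indicator measurableSet_Ici), lintegral_neg_eq_self,
    lintegral_indicator measurableSet_Ici, ← two_mul, ← setLIntegral_congr Ioi_ae_eq_Ici]
  exact mul_le_mul_right (p_ge G hG) _

theorem rm_profile (f : SchwartzMap E2 ℂ) (hf : ∀ x y : E2, ‖x‖ = ‖y‖ → f x = f y) :
    ∃ F : ℝ → ℂ, Continuous F ∧ Integrable F volume ∧ (∀ y, f y = F (‖y‖ ^ 2)) ∧
      ∫⁻ ρ, ‖F ρ‖ₑ ^ 2 ≤ 2 * ∫⁻ x, ‖f x‖ₑ ^ 2 := by
  let e : E2 := EuclideanSpace.single 0 1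
  have he : ‖e‖ = 1 := by simp [e]
  have hfc := f.continuous
  have h0 : ∀ y : E2, f (Real.sqrt (‖y‖ ^ 2) • e) = f y := fun y => hf _ _ (by
    rw [norm_smul, he, mul_one, Real.sqrt_sq (norm_nonneg y), norm_norm])
  have hc : Continuous fun ρ : ℝ => f (Real.sqrt ρ • e) := by fun_prop
  refine ⟨fun ρ => f (Real.sqrt |ρ| • e), by fun_prop, ⟨Continuous.aestronglyMeasurable
    (by fun_prop), ?_⟩, fun y => ?_, ?_⟩
  · have h := rm_abs (G := fun ρ => ‖f (Real.sqrt ρ • e)‖ₑ) hc.measurable.enorm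
    simp only [h0] at h
    exact h.trans_lt (ENNReal.mul_lt_top (by simp) f.integrable.2)
  · simp only [abs_of_nonneg (sq_nonneg ‖y‖), h0]
  · have h := rm_abs (G := fun ρ => ‖f (Real.sqrt ρ • e)‖ₑ ^ 2) (hc.measurable.enorm.pow_const 2)
    simp only [h0] at h
    exact h

theorem rm_half : ∃ C : ℝ≥0∞, C ≠ ∞ ∧ ∀ (v : E2 → E2) (f : SchwartzMap E2 ℂ) (m : ℝ), UnitLip v →
    Differentiable ℝ v → (∀ x y : E2, ‖x‖ = ‖y‖ → f x = f y) → 0 < m →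
    ENNReal.ofReal m ^ 2 * volume {x | 0 ≤ inner ℝ x (v x) ∧
      30 * m < ‖∫ t in (0 : ℝ)..(1 / 2), kk f x (v x) t‖} ≤ C * ∫⁻ x, ‖f x‖ₑ ^ 2 := by
  obtain ⟨C1, hC1, h1⟩ := c_star a_weak a_sq a_k3 b_cauchy
  obtain ⟨C2, hC2, h2⟩ := n_weak
  have hK := KK_lt.ne
  refine ⟨4 * (C1 * 2) + 4 * 80 + 8 * 80 + C2 + KK ^ 2 + KK ^ 2, by finiteness, ?_⟩
  intro v f m hv hd hf hm
  obtain ⟨F, hF, hi, hfF, hJ⟩ := rm_profile f hf
  obtain ⟨L, hL⟩ := schw_lip f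
  have hv' : UnitLip fun y => -v y := ⟨fun x => by rw [norm_neg, hv.1 x], hv.2.neg⟩
  set J := ∫⁻ x, ‖f x‖ₑ ^ 2 with hJd
  set W := {ρ : ℝ | ∃ R : ℝ, 0 < R ∧ m < ‖HR F ρ R‖} with hW
  set B := {ρ : ℝ | ¬ Good (fun y => ‖F y‖ₑ) ρ (ENNReal.ofReal m)} with hB
  set M := ENNReal.ofReal m with hM
  have bW : M ^ 2 * volume W ≤ C1 * 2 * J := by
    rw [mul_assoc]
    exact (h1 F m hF.measurable hi hm).trans (mul_le_mul_right hJ _)
  have bB : M ^ 2 * volume B ≤ 80 * J := by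
    have e : M = 2 * ENNReal.ofReal (m / 2) := by
      rw [← ENNReal.ofReal_ofNat 2, ← ENNReal.ofReal_mul (by norm_num), hM]; congr 1; ring
    have h3 := a_weak (fun y => ‖F y‖ₑ ^ 2) (ENNReal.ofReal (m / 2) ^ 2)
    have h4 : B ⊆ {ρ : ℝ | ¬ Good (fun y => ‖F y‖ₑ ^ 2) ρ (ENNReal.ofReal (m / 2) ^ 2)} := by
      intro ρ hρ hg
      have h5 := a_sq _ ρ _ hF.measurable.enorm hg
      rw [← e] at h5
      exact hρ h5
    calc M ^ 2 * volume B = 4 * (ENNReal.ofReal (m / 2) ^ 2 * volume B) := by rw [e]; ring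
      _ ≤ 4 * (10 * (2 * J)) := mul_le_mul_right
          (((mul_le_mul_right (measure_mono h4) _).trans h3).trans (mul_le_mul_right hJ _)) _
      _ = 80 * J := by ring
  have hsub : {x | 0 ≤ inner ℝ x (v x) ∧ 30 * m < ‖∫ t in (0 : ℝ)..(1 / 2), kk f x (v x) t‖} ⊆
      {x : E2 | ‖x‖ ^ 2 ∈ W} ∪ {x : E2 | ‖x‖ ^ 2 ∈ B} ∪
      {x : E2 | 0 ≤ inner ℝ x (v x) ∧ inner ℝ x (v x) ≤ ‖x‖ / 2 ∧ inner ℝ x (v x) ≤ 1 / 4 ∧
        ‖x‖ ^ 2 - inner ℝ x (v x) ^ 2 ∈ B} ∪ {x | M ≤ NN v f x} ∪ {x | M ≤ QQ v f x} ∪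
      {x | M ≤ QQ (fun y => -v y) f x} := by
    intro x hx
    by_contra hc
    simp only [mem_union, mem_ofPred_eq, not_or, hW, hB, not_exists, not_and, not_lt, not_le,
      not_not] at hc
    obtain ⟨⟨⟨⟨⟨c1, c2⟩, c3⟩, c4⟩, c5⟩, c6⟩ := hc
    exact absurd hx.2 (not_lt.2 (rd_point a_k1 a_k2 hF hi hL hfF (hv.1 x) hm.le hx.1 c1 c2
      (c3 hx.1) c4.le c5.le c6.le))
  refine (mul_le_mul_right (measure_mono hsub) _).trans ?_
  have u1 := measure_union_le (μ := (volume : Measure E2))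
  refine (mul_le_mul_right ((u1 _ _).trans (add_le_add_left ((u1 _ _).trans (add_le_add_left
    ((u1 _ _).trans (add_le_add_left ((u1 _ _).trans (add_le_add_left (u1 _ _) _)) _)) _)) _))
    _).trans ?_
  simp only [mul_add, add_mul]
  refine add_le_add (add_le_add (add_le_add (add_le_add (add_le_add ?_ ?_) ?_)
    (h2 v f M hv hd f.continuous)) (QQ_weak hv hd f.continuous M))
    (QQ_weak hv' hd.neg f.continuous M)
  · refine (mul_le_mul_right (rm_pull_sq W) _).trans ?_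
    rw [mul_left_comm, mul_assoc 4]
    exact mul_le_mul_right bW _
  · refine (mul_le_mul_right (rm_pull_sq B) _).trans ?_
    rw [mul_left_comm, mul_assoc 4]
    exact mul_le_mul_right bB _
  · refine (mul_le_mul_right (rm_pull_D hv B) _).trans ?_
    rw [mul_left_comm, mul_assoc 8]
    exact mul_le_mul_right bB _

end Vale.Agent.P112
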