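import Vale.Agent.P112.Jac

namespace Vale.Agent.P112

open MeasureTheory Filter Topology Set
open scoped ENNReal

/-- the weight integral -/
noncomputable def KK : ℝ≥0∞ := ∫⁻ t in Ioo (0 : ℝ) 1, ENNReal.ofReal ((1 - t) ^ (-(1 / 2) : ℝ))

theorem KK_lt : KK < ∞ := by
  have h1 : IntervalIntegrable (fun x : ℝ => x ^ (-(1 / 2) : ℝ)) volume 1 0 :=
    intervalIntegral.intervalIntegrable_rpow' (by norm_num)
  have h2 := h1.comp_sub_left 1
  simp only [sub_self, sub_zero] at h2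
  exact ((intervalIntegrable_iff_integrableOn_Ioo_of_le zero_le_one).1 h2).lintegral_lt_top

/-- the line integral over the unit segment -/
noncomputable def QQ (v : E2 → E2) (f : E2 → ℂ) (x : E2) : ℝ≥0∞ :=
  ∫⁻ t in Ioo (0 : ℝ) 1, ‖f (x - t • v x)‖ₑ

/-- the weighted square integral over the unit segment -/
noncomputable def PP (v : E2 → E2) (f : E2 → ℂ) (x : E2) : ℝ≥0∞ :=
  ∫⁻ t in Ioo (0 : ℝ) 1, ENNReal.ofReal ((1 - t) ^ ((1 / 2) : ℝ)) * ‖f (x - t • v x)‖ₑ ^ 2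

theorem PP_joint {v : E2 → E2} (hv : Continuous v) {f : E2 → ℂ} (hf : Continuous f) :
    Measurable fun p : E2 × ℝ =>
      ENNReal.ofReal ((1 - p.2) ^ ((1 / 2) : ℝ)) * ‖f (p.1 - p.2 • v p.1)‖ₑ ^ 2 := by
  have h1 : Measurable fun p : E2 × ℝ => f (p.1 - p.2 • v p.1) :=
    Continuous.measurable (by fun_prop)
  have h2 : Measurable fun p : E2 × ℝ => (1 - p.2) ^ ((1 / 2) : ℝ) :=
    (measurable_const.sub measurable_snd).pow_const _
  exact h2.ennreal_ofReal.mul (h1.enorm.pow_const 2)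

theorem PP_meas {v : E2 → E2} (hv : Continuous v) {f : E2 → ℂ} (hf : Continuous f) :
    Measurable (PP v f) :=
  (PP_joint hv hf).lintegral_prod_right'

theorem PP_int {v : E2 → E2} (hv : UnitLip v) (hd : Differentiable ℝ v) {f : E2 → ℂ}
    (hf : Continuous f) : ∫⁻ x, PP v f x ≤ KK * ∫⁻ x, ‖f x‖ₑ ^ 2 := by
  unfold PP KK
  rw [lintegral_lintegral_swap (PP_joint hv.2.continuous hf).aemeasurable,
    ← lintegral_mul_const _ (by fun_prop)]
  refine setLIntegral_mono' measurableSet_Ioo fun t ht => ?_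
  rw [lintegral_const_mul' _ _ ENNReal.ofReal_ne_top]
  have h0 : 0 < 1 - t := by linarith [ht.2]
  have h1 := jac_bound hv hd (t := t) (by rw [abs_of_pos ht.1]; exact ht.2) (fun y => ‖f y‖ₑ ^ 2)
  rw [abs_of_pos ht.1] at h1
  have h2 : (1 - t) ^ ((1 / 2) : ℝ) = (1 - t) ^ (-(1 / 2) : ℝ) * (1 - t) := by
    rw [← Real.rpow_add_one h0.ne']; norm_num
  rw [h2, ENNReal.ofReal_mul (Real.rpow_nonneg h0.le _), mul_assoc]
  exact mul_le_mul_right h1 _

theorem QQ_sq {v : E2 → E2} {f : E2 → ℂ} (hf : Continuous f) (x : E2) :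
    QQ v f x ^ 2 ≤ KK * PP v f x := by
  have hm : Measurable fun t : ℝ => ‖f (x - t • v x)‖ₑ :=
    (Continuous.measurable (by fun_prop : Continuous fun t : ℝ => f (x - t • v x))).enorm
  have h := ENNReal.lintegral_mul_le_Lp_mul_Lq (volume.restrict (Ioo (0 : ℝ) 1))
    Real.HolderConjugate.two_two
    (f := fun t : ℝ => ENNReal.ofReal ((1 - t) ^ (-(1 / 4) : ℝ)))
    (g := fun t : ℝ => ENNReal.ofReal ((1 - t) ^ ((1 / 4) : ℝ)) * ‖f (x - t • v x)‖ₑ)
    (by fun_prop) (Measurable.aemeasurable (Measurable.mul (by fun_prop) hm))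
  have e1 : ∫⁻ t in Ioo (0 : ℝ) 1, ((fun t : ℝ => ENNReal.ofReal ((1 - t) ^ (-(1 / 4) : ℝ))) *
      fun t : ℝ => ENNReal.ofReal ((1 - t) ^ ((1 / 4) : ℝ)) * ‖f (x - t • v x)‖ₑ) t = QQ v f x := by
    refine setLIntegral_congr_fun measurableSet_Ioo fun t ht => ?_
    have h0 : 0 < 1 - t := by linarith [ht.2]
    simp only [Pi.mul_apply]
    rw [← mul_assoc, ← ENNReal.ofReal_mul (Real.rpow_nonneg h0.le _), ← Real.rpow_add h0]
    simp
  have e2 : ∫⁻ t in Ioo (0 : ℝ) 1, ENNReal.ofReal ((1 - t) ^ (-(1 / 4) : ℝ)) ^ (2 : ℝ) = KK := by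
    refine setLIntegral_congr_fun measurableSet_Ioo fun t ht => ?_
    have h0 : 0 < 1 - t := by linarith [ht.2]
    rw [ENNReal.ofReal_rpow_of_nonneg (Real.rpow_nonneg h0.le _) zero_le_two, ← Real.rpow_mul h0.le]
    norm_num
  have e3 : ∫⁻ t in Ioo (0 : ℝ) 1,
      (ENNReal.ofReal ((1 - t) ^ ((1 / 4) : ℝ)) * ‖f (x - t • v x)‖ₑ) ^ (2 : ℝ) = PP v f x := by
    refine setLIntegral_congr_fun measurableSet_Ioo fun t ht => ?_
    have h0 : 0 < 1 - t := by linarith [ht.2]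
    rw [ENNReal.mul_rpow_of_nonneg _ _ zero_le_two,
      ENNReal.ofReal_rpow_of_nonneg (Real.rpow_nonneg h0.le _) zero_le_two, ← Real.rpow_mul h0.le]
    norm_num
  rw [e1, e2, e3, ← ENNReal.mul_rpow_of_nonneg _ _ (by norm_num)] at h
  calc QQ v f x ^ 2 ≤ ((KK * PP v f x) ^ (1 / 2 : ℝ)) ^ 2 := pow_le_pow_left' h 2
    _ = KK * PP v f x := by
      rw [← ENNReal.rpow_natCast, ← ENNReal.rpow_mul]; norm_num

theorem QQ_weak {v : E2 → E2} (hv : UnitLip v) (hd : Differentiable ℝ v) {f : E2 → ℂ}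
    (hf : Continuous f) (s : ℝ≥0∞) :
    s ^ 2 * volume {x | s ≤ QQ v f x} ≤ KK ^ 2 * ∫⁻ x, ‖f x‖ₑ ^ 2 := by
  have h1 := mul_meas_ge_le_lintegral₀ (μ := volume)
    ((PP_meas hv.2.continuous hf).const_mul KK).aemeasurable (s ^ 2)
  rw [lintegral_const_mul' _ _ KK_lt.ne] at h1
  refine le_trans (mul_le_mul_right (measure_mono fun x hx => ?_) _) (h1.trans ?_)
  · exact (pow_le_pow_left' hx 2).trans (QQ_sq hf x)
  · rw [sq KK, mul_assoc]
    exact mul_le_mul_right (PP_int hv hd hf) _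

theorem schw_sq (f : SchwartzMap E2 ℂ) :
    ∫⁻ x, ‖f x‖ₑ ^ 2 = ENNReal.ofReal (∫ x, ‖f x‖ ^ 2) := by
  have hi : Integrable (fun x => ‖f x‖ ^ 2) volume :=
    (f.memLp 2 volume).integrable_norm_pow two_ne_zero
  rw [ofReal_integral_eq_lintegral_ofReal hi (Eventually.of_forall fun x => by positivity)]
  refine lintegral_congr fun x => ?_
  rw [ENNReal.ofReal_pow (norm_nonneg _), ofReal_norm]

theorem QQ_weak2 {v : E2 → E2} (hv : UnitLip v) (hd : Differentiable ℝ v) (f : SchwartzMap E2 ℂ)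
    {s : ℝ} (hs : 0 < s) :
    volume {x | ENNReal.ofReal s ≤ QQ v f x} ≤
      ENNReal.ofReal (KK.toReal ^ 2 * (s ^ 2)⁻¹ * ∫ x, ‖f x‖ ^ 2) := by
  have h1 := QQ_weak hv hd f.continuous (ENNReal.ofReal s)
  rw [schw_sq, ← ENNReal.ofReal_toReal KK_lt.ne, ← ENNReal.ofReal_pow hs.le,
    ← ENNReal.ofReal_pow ENNReal.toReal_nonneg, ← ENNReal.ofReal_mul (by positivity)] at h1
  have h2 : ENNReal.ofReal ((s ^ 2)⁻¹) * ENNReal.ofReal (s ^ 2) = 1 := by
    rw [← ENNReal.ofReal_mul (by positivity), inv_mul_cancel₀ (by positivity), ENNReal.ofReal_one]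
  calc volume {x | ENNReal.ofReal s ≤ QQ v f x}
      = ENNReal.ofReal ((s ^ 2)⁻¹) *
        (ENNReal.ofReal (s ^ 2) * volume {x | ENNReal.ofReal s ≤ QQ v f x}) := by
        rw [← mul_assoc, h2, one_mul]
    _ ≤ ENNReal.ofReal ((s ^ 2)⁻¹) * ENNReal.ofReal (KK.toReal ^ 2 * ∫ x, ‖f x‖ ^ 2) :=
        mul_le_mul_right h1 _
    _ = _ := by
        rw [← ENNReal.ofReal_mul (by positivity)]; congr 1; ring

theorem tail_le {v : E2 → E2} {f : E2 → ℂ} (hf : Continuous f) {a b : ℝ} (ha : 0 < a)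
    (hab : a ≤ b) (hb : b ≤ 1) (x : E2) :
    ENNReal.ofReal (a * ‖∫ t in a..b, kk f x (v x) t‖) ≤ QQ v f x + QQ (fun y => -v y) f x := by
  have hm : Measurable fun t : ℝ => ‖f (x - t • v x)‖ₑ :=
    (Continuous.measurable (by fun_prop : Continuous fun t : ℝ => f (x - t • v x))).enorm
  unfold QQ
  rw [← lintegral_add_left hm, intervalIntegral.integral_of_le hab, integral_Ioc_eq_integral_Ioo,
    ENNReal.ofReal_mul ha.le, ofReal_norm]
  refine (mul_le_mul_right (enorm_integral_le_lintegral_enorm _) _).trans ?_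
  rw [← lintegral_const_mul' _ _ ENNReal.ofReal_ne_top]
  refine le_trans (setLIntegral_mono' measurableSet_Ioo fun t ht => ?_)
    (lintegral_mono_set (Ioo_subset_Ioo ha.le hb))
  have ht0 : 0 < t := ha.trans ht.1
  rw [← ofReal_norm, ← ofReal_norm, ← ofReal_norm,
    ← ENNReal.ofReal_mul ha.le, ← ENNReal.ofReal_add (norm_nonneg _) (norm_nonneg _)]
  apply ENNReal.ofReal_le_ofReal
  unfold kk
  rw [norm_div, Complex.norm_real, Real.norm_of_nonneg ht0.le, smul_neg, sub_neg_eq_add]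
  have h1 := norm_sub_le (f (x - t • v x)) (f (x + t • v x))
  have h2 : a * (‖f (x - t • v x) - f (x + t • v x)‖ / t) ≤
      ‖f (x - t • v x) - f (x + t • v x)‖ := by
    rw [← mul_div_assoc, div_le_iff₀ ht0, mul_comm]
    exact mul_le_mul_of_nonneg_left ht.1.le (norm_nonneg _)
  linarith

theorem tail_weak {v : E2 → E2} (hv : UnitLip v) (hd : Differentiable ℝ v) (f : SchwartzMap E2 ℂ)
    {a b : ℝ} (ha : 0 < a) (hab : a ≤ b) (hb : b ≤ 1) {lam : ℝ} (hl : 0 < lam) :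
    volume {x | lam < ‖∫ t in a..b, kk f x (v x) t‖} ≤
      ENNReal.ofReal (8 * KK.toReal ^ 2 * (a ^ 2)⁻¹ * (lam ^ 2)⁻¹ * ∫ x, ‖f x‖ ^ 2) := by
  have hs : 0 < a * lam / 2 := by positivity
  have hv' : UnitLip fun y => -v y := ⟨fun x => by rw [norm_neg, hv.1 x], hv.2.neg⟩
  have hsub : {x | lam < ‖∫ t in a..b, kk f x (v x) t‖} ⊆
      {x | ENNReal.ofReal (a * lam / 2) ≤ QQ v f x} ∪
        {x | ENNReal.ofReal (a * lam / 2) ≤ QQ (fun y => -v y) f x} := by
    intro x hx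
    have hx' : lam < ‖∫ t in a..b, kk f x (v x) t‖ := hx
    by_contra hc
    simp only [mem_union, mem_ofPred_eq, not_or, not_le] at hc
    have h1 := (tail_le (v := v) f.continuous ha hab hb x).trans_lt (ENNReal.add_lt_add hc.1 hc.2)
    rw [← ENNReal.ofReal_add hs.le hs.le, ENNReal.ofReal_lt_ofReal_iff (by positivity)] at h1
    nlinarith
  refine (measure_mono hsub).trans ((measure_union_le _ _).trans ?_)
  refine (add_le_add (QQ_weak2 hv hd f hs) (QQ_weak2 hv' hd.neg f hs)).trans ?_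
  have hI : 0 ≤ ∫ x, ‖f x‖ ^ 2 := integral_nonneg fun x => by positivity
  rw [← ENNReal.ofReal_add (by positivity) (by positivity)]
  apply le_of_eq
  congr 1
  field_simp
  ring

theorem smooth_transfer {a b : ℝ} (ha : 0 < a) (ha1 : a ≤ 1) (hb : 0 < b) (hb1 : b ≤ 1) {C : ℝ}
    (h : WeakSmooth a C) : ∃ C', WeakSmooth b C' := by
  refine ⟨4 * |C| + 4 * (8 * KK.toReal ^ 2 * ((min a b) ^ 2)⁻¹), fun v hv hs f lam hl => ?_⟩
  obtain ⟨L, hL⟩ := schw_lip f
  have hd : Differentiable ℝ v := (hs 1).differentiable (by simp)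
  have hl2 : 0 < lam / 2 := by positivity
  have hm : 0 < min a b := lt_min ha hb
  have hsub : {x | lam < ‖Hpv v b f x‖} ⊆ {x | lam / 2 < ‖Hpv v a f x‖} ∪
      {x | lam / 2 < ‖∫ t in (min a b)..(max a b), kk f x (v x) t‖} := by
    intro x hx
    have hx' : lam < ‖Hpv v b f x‖ := hx
    by_contra hc
    simp only [mem_union, mem_ofPred_eq, not_or, not_lt] at hc
    obtain ⟨h1, h2⟩ := hc
    rw [hpv_eq f v hb x (hv.1 x), ← intervalIntegral.integral_add_adjacent_intervals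
      (kk_int hL x _ (hv.1 x) 0 a) (kk_int hL x _ (hv.1 x) a b)] at hx'
    rw [hpv_eq f v ha x (hv.1 x)] at h1
    rw [intervalIntegral.norm_integral_min_max] at h2
    linarith [norm_add_le (∫ t in (0 : ℝ)..a, kk f x (v x) t) (∫ t in a..b, kk f x (v x) t)]
  refine (measure_mono hsub).trans ((measure_union_le _ _).trans ?_)
  have hI : 0 ≤ ∫ x, ‖f x‖ ^ 2 := integral_nonneg fun x => by positivity
  have h3 : ENNReal.ofReal (C * ((lam / 2) ^ 2)⁻¹ * ∫ x, ‖f x‖ ^ 2) ≤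
      ENNReal.ofReal (|C| * ((lam / 2) ^ 2)⁻¹ * ∫ x, ‖f x‖ ^ 2) := by
    apply ENNReal.ofReal_le_ofReal
    gcongr
    exact le_abs_self C
  refine (add_le_add ((h v hv hs f _ hl2).trans h3)
    (tail_weak hv hd f hm min_le_max (max_le ha1 hb1) hl2)).trans ?_
  rw [← ENNReal.ofReal_add (by positivity) (by positivity)]
  apply le_of_eq
  congr 1
  field_simp
  ring

end Vale.Agent.P112
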