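import Vale.Agent.P112.AD2

namespace Vale.Agent.P112

open MeasureTheory Set Filter Topology
open scoped ENNReal

theorem x_ball {G : ℝ → ℝ≥0∞} {ρ m : ℝ} (hm : 0 ≤ m) (hG : Good G ρ (ENNReal.ofReal m))
    {φ φ' : ℝ → ℝ} {a b c R : ℝ} (hc : 0 ≤ c) (hR : 0 < R)
    (hd : ∀ t ∈ Ioo a b, HasDerivAt φ (φ' t) t) (hi : InjOn φ (Ioo a b))
    (hT : ∀ t ∈ Ioo a b, |φ t - ρ| < R) (hh : ∀ t ∈ Ioo a b, 1 ≤ |φ' t| * c) :
    ∫⁻ t in Ioo a b, G (φ t) ≤ ENNReal.ofReal (c * (m * R)) := by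
  refine (rd_cv (T := Metric.ball ρ R) (g := fun σ => ENNReal.ofReal c * G σ) hd hi
    (fun t ht => by rw [Metric.mem_ball, Real.dist_eq]; exact hT t ht) fun t ht => ?_).trans ?_
  · rw [← mul_assoc, ← ENNReal.ofReal_mul (abs_nonneg _)]
    exact le_mul_of_one_le_left' (ENNReal.one_le_ofReal.2 (hh t ht))
  · rw [lintegral_const_mul' _ _ ENNReal.ofReal_ne_top, ENNReal.ofReal_mul hc,
      ENNReal.ofReal_mul hm]
    exact mul_le_mul_right (hG R hR) _

theorem x_sing (hk : A_k2) {G : ℝ → ℝ≥0∞} (hGm : Measurable G) {ρ m : ℝ} (hm : 0 ≤ m)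
    (hG : Good G ρ (ENNReal.ofReal m)) {τ τ' : ℝ → ℝ} {a b h : ℝ} (h0 : 0 < h)
    (hd : ∀ t ∈ Ioo a b, HasDerivAt τ (τ' t) t) (hi : InjOn τ (Ioo a b))
    (hT : ∀ t ∈ Ioo a b, τ t ∈ Ioo 0 (h ^ 2)) (hh : ∀ t ∈ Ioo a b, 4 * τ t ≤ τ' t ^ 2) :
    ∫⁻ t in Ioo a b, G (ρ + τ t) ≤ ENNReal.ofReal (m * h) := by
  refine (rd_cv (T := Ioo 0 (h ^ 2)) (g := fun σ => ENNReal.ofReal (1 / 2) *
    (G (ρ + σ) * ENNReal.ofReal (σ ^ (-(1 / 2) : ℝ)))) hd hi hT fun t ht => ?_).trans ?_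
  · have h1 := (hT t ht).1
    have h2 : τ t ^ ((1 / 2) : ℝ) ≤ |τ' t| / 2 := by
      have h3 : 0 < |τ' t| / 2 := by
        have : 0 < τ' t ^ 2 := by linarith [hh t ht]
        have : τ' t ≠ 0 := fun h => by rw [h] at this; simp at this
        positivity
      rw [← rd_rpow_half h3]
      refine Real.rpow_le_rpow h1.le ?_ (by norm_num)
      rw [div_pow, sq_abs]; linarith [hh t ht]
    have h4 : 1 ≤ |τ' t| * (1 / 2) * τ t ^ (-(1 / 2) : ℝ) := by
      rw [Real.rpow_neg h1.le, ← div_eq_mul_inv, le_div_iff₀ (by positivity)]; linarith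
    rw [← mul_assoc, ← ENNReal.ofReal_mul (abs_nonneg _), mul_comm (G _), ← mul_assoc,
      ← ENNReal.ofReal_mul (by positivity)]
    exact le_mul_of_one_le_left' (ENNReal.one_le_ofReal.2 h4)
  · rw [lintegral_const_mul' _ _ ENNReal.ofReal_ne_top]
    refine (mul_le_mul_right (hk _ _ _ (h ^ 2) hGm hG (by positivity)) _).trans ?_
    rw [rd_rpow_half h0, ← ENNReal.ofReal_ofNat 2, ← ENNReal.ofReal_mul (by norm_num),
      ← ENNReal.ofReal_mul (by positivity), ← ENNReal.ofReal_mul (by positivity)]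
    apply le_of_eq; congr 1; ring

theorem x_B (hk : A_k2) {G : ℝ → ℝ≥0∞} (hGm : Measurable G) {ρ m s b : ℝ} (hm : 0 ≤ m)
    (hG : Good G ρ (ENNReal.ofReal m)) (hs : 0 ≤ s) (hb : 0 < b) :
    ∫⁻ t in Ioo 0 b, G (ρ + (2 * t * s + t ^ 2)) ≤ ENNReal.ofReal (6 * m * b) := by
  have dψ : ∀ t, HasDerivAt (fun t : ℝ => 2 * t * s + t ^ 2) (2 * (s + t)) t := fun t => by
    have := (((hasDerivAt_id t).const_mul 2).mul_const s).add (hasDerivAt_pow 2 t)
    refine this.congr_deriv ?_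
    simp; ring
  have inj : InjOn (fun t : ℝ => 2 * t * s + t ^ 2) (Ioo 0 b) := fun x hx y hy h => by
    have h1 : (x - y) * (2 * s + x + y) = 0 := by linarith
    rcases mul_eq_zero.1 h1 with h2 | h2
    · linarith
    · linarith [hx.1, hy.1]
  rcases le_total b s with h | h
  · have hs0 : 0 < s := hb.trans_le h
    refine (x_ball hm hG (φ := fun t => ρ + (2 * t * s + t ^ 2)) (φ' := fun t => 2 * (s + t))
      (c := s⁻¹) (R := 3 * s * b) (by positivity) (by positivity) (fun t _ => (dψ t).const_add ρ)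
      (fun x hx y hy h => inj hx hy (add_left_cancel h)) (fun t ht => ?_) fun t ht => ?_).trans ?_
    · have := ht.1
      rw [add_sub_cancel_left, abs_of_pos (by positivity)]
      nlinarith [ht.2]
    · have := ht.1
      rw [abs_of_pos (by positivity), ← div_eq_mul_inv, le_div_iff₀ hs0]; linarith
    · apply ENNReal.ofReal_le_ofReal
      have e : s⁻¹ * (m * (3 * s * b)) = 3 * m * b := by field_simp
      rw [e]; nlinarith [mul_nonneg hm hb.le]
  · refine (x_sing hk hGm hm hG (τ := fun t => 2 * t * s + t ^ 2) (τ' := fun t => 2 * (s + t))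
      (h := 2 * b) (by positivity) (fun t _ => dψ t) inj (fun t ht => ?_) fun t _ => ?_).trans ?_
    · have := ht.1
      exact ⟨by positivity, by nlinarith [ht.2]⟩
    · nlinarith [sq_nonneg s]
    · apply ENNReal.ofReal_le_ofReal
      nlinarith [mul_nonneg hm hb.le]

theorem x_A (hk : A_k2) {G : ℝ → ℝ≥0∞} (hGm : Measurable G) {ρ m s b : ℝ} (hm : 0 ≤ m)
    (hG : Good G ρ (ENNReal.ofReal m)) (hD : s < 2 * b → Good G (ρ - s ^ 2) (ENNReal.ofReal m))
    (hs : 0 ≤ s) (hb : 0 < b) :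
    ∫⁻ t in Ioo 0 b, G (ρ - (2 * t * s - t ^ 2)) ≤ ENNReal.ofReal (6 * m * b) := by
  have hmb := mul_nonneg hm hb.le
  have p1 : ∫⁻ t in Ioo 0 (min (s / 2) b), G (ρ - (2 * t * s - t ^ 2)) ≤
      ENNReal.ofReal (2 * m * b) := by
    rcases hs.eq_or_lt with h0 | h0
    · rw [Ioo_eq_empty (by rw [← h0]; simp)]; simp
    refine (x_ball hm hG (φ := fun t => ρ - (2 * t * s - t ^ 2)) (φ' := fun t => -(2 * (s - t)))
      (c := s⁻¹) (R := 2 * s * b) (by positivity) (by positivity) (fun t _ => ?_)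
      (fun x hx y hy h => ?_) (fun t ht => ?_) fun t ht => ?_).trans ?_
    · have := ((((hasDerivAt_id t).const_mul 2).mul_const s).sub (hasDerivAt_pow 2 t)).const_sub ρ
      refine this.congr_deriv ?_
      simp; ring
    · have h1 : (x - y) * (2 * s - x - y) = 0 := by linarith
      rcases mul_eq_zero.1 h1 with h2 | h2
      · linarith
      · linarith [(lt_min_iff.1 hx.2).1, (lt_min_iff.1 hy.2).1]
    · have h1 := ht.1
      have h2 := lt_min_iff.1 ht.2
      rw [sub_sub_cancel_left, abs_neg, abs_of_pos (by nlinarith [h2.1])]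
      nlinarith [h2.2]
    · have h2 := lt_min_iff.1 ht.2
      rw [abs_neg, abs_of_pos (by linarith [h2.1]), ← div_eq_mul_inv, le_div_iff₀ h0]
      linarith [h2.1]
    · apply le_of_eq; congr 1; field_simp
  have p2 : ∀ p q, s / 2 ≤ p → q ≤ b → (q ≤ s ∨ s ≤ p) →
      ∫⁻ t in Ioo p q, G (ρ - (2 * t * s - t ^ 2)) ≤ ENNReal.ofReal (2 * m * b) := by
    intro p q hp hq hside
    by_cases hpq : p < q; swap
    · rw [Ioo_eq_empty hpq]; simp
    have e : ∀ t : ℝ, ρ - (2 * t * s - t ^ 2) = ρ - s ^ 2 + (t - s) ^ 2 := fun t => by ring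
    simp only [e]
    refine (x_sing hk hGm hm (hD (by linarith)) (τ := fun t => (t - s) ^ 2)
      (τ' := fun t => 2 * (t - s)) (h := 2 * b) (by positivity) (fun t _ => ?_)
      (fun x hx y hy h => ?_) (fun t ht => ⟨?_, ?_⟩) fun t _ => ?_).trans ?_
    · have := ((hasDerivAt_id t).sub_const s).pow 2
      refine this.congr_deriv ?_
      simp
    · have h1 : (x - y) * (x + y - 2 * s) = 0 := by linarith
      rcases mul_eq_zero.1 h1 with h2 | h2
      · linarith
      · rcases hside with h | h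
        · linarith [hx.2, hy.2]
        · linarith [hx.1, hy.1]
    · have : t - s ≠ 0 := by
        rcases hside with h | h
        · linarith [ht.2]
        · linarith [ht.1]
      positivity
    · nlinarith [ht.1, ht.2]
    · nlinarith
    · apply le_of_eq; congr 1; ring
  refine (ad_cover _ 0 b (s / 2) s).trans ?_
  refine (add_le_add (add_le_add p1 (p2 _ _ le_rfl (min_le_right _ _) (Or.inl (min_le_left _ _))))
    (p2 _ _ (by linarith) le_rfl (Or.inr le_rfl))).trans ?_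
  rw [← ENNReal.ofReal_add (by positivity) (by positivity),
    ← ENNReal.ofReal_add (by positivity) (by positivity)]
  apply le_of_eq; congr 1; ring

theorem x_far {m : ℝ} {v : E2 → E2} {f : E2 → ℂ} {x : E2} (hx : x ≠ 0) (hm : 0 ≤ m)
    (hN : NN v f x ≤ ENNReal.ofReal m) (hF : FF v f x ≤ ENNReal.ofReal m)
    (hQ : QQ v f x ≤ ENNReal.ofReal m) :
    ∫⁻ t in Ioo (min (‖x‖ / 4) (1 / 8)) 1, ‖f (x - t • v x)‖ₑ * ENNReal.ofReal t⁻¹ ≤
      ENNReal.ofReal (14 * m) := by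
  have h1 : ∫⁻ t in Ioo (1 / 8 : ℝ) 1, ‖f (x - t • v x)‖ₑ * ENNReal.ofReal t⁻¹ ≤
      ENNReal.ofReal (8 * m) := by
    rw [ENNReal.ofReal_mul (by norm_num)]
    refine le_trans ?_ (mul_le_mul_right hQ _)
    unfold QQ
    rw [← lintegral_const_mul' _ _ ENNReal.ofReal_ne_top]
    refine le_trans (setLIntegral_mono' measurableSet_Ioo fun t ht => ?_)
      (lintegral_mono_set (Ioo_subset_Ioo (by norm_num) le_rfl))
    rw [mul_comm]
    refine mul_le_mul_left (ENNReal.ofReal_le_ofReal ?_) _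
    rw [inv_le_comm₀ (by linarith [ht.1]) (by norm_num)]
    linarith [ht.1]
  have hr : 0 < ‖x‖ := norm_pos_iff.2 hx
  have h2 : ∫⁻ t in Ioo (‖x‖ / 4) (min (5 * ‖x‖ / 2) (1 / 2)),
      ‖f (x - t • v x)‖ₑ * ENNReal.ofReal t⁻¹ ≤ ENNReal.ofReal (4 * m) := by
    rw [ENNReal.ofReal_mul (by norm_num)]
    refine le_trans ?_ (mul_le_mul_right hN _)
    unfold NN
    rw [← mul_assoc, ← ENNReal.ofReal_mul (by norm_num),
      ← lintegral_const_mul' _ _ ENNReal.ofReal_ne_top]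
    refine setLIntegral_mono' measurableSet_Ioo fun t ht => ?_
    rw [mul_comm]
    refine mul_le_mul_left (ENNReal.ofReal_le_ofReal ?_) _
    have e : 4 * ‖x‖⁻¹ = (‖x‖ / 4)⁻¹ := by field_simp
    rw [e]
    exact inv_anti₀ (by positivity) ht.1.le
  refine le_trans (lintegral_mono_set' (t := Ioo (‖x‖ / 4) (min (5 * ‖x‖ / 2) (1 / 2)) ∪
    Ioo (5 * ‖x‖ / 2) (1 / 2) ∪ Ioo (1 / 8) 1) ?_)
    (((lintegral_union_le _ _ _).trans (add_le_add_left (lintegral_union_le _ _ _) _)).trans ?_)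
  · filter_upwards [compl_mem_ae_iff.2 (measure_singleton (μ := volume) (5 * ‖x‖ / 2))]
      with t h3 ht
    have h3' : t ≠ 5 * ‖x‖ / 2 := h3
    by_cases h4 : 1 / 8 < t
    · exact Or.inr ⟨h4, ht.2⟩
    · have h5 : ‖x‖ / 4 < t := by
        rcases min_lt_iff.1 ht.1 with h | h
        · exact h
        · exact absurd h h4
      rcases lt_or_gt_of_ne h3' with h6 | h6
      · exact Or.inl (Or.inl ⟨h5, lt_min h6 (by linarith)⟩)
      · exact Or.inl (Or.inr ⟨h6, by linarith⟩)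
  · refine (add_le_add (add_le_add h2 hF) h1).trans ?_
    rw [← ENNReal.ofReal_add (by positivity) hm, ← ENNReal.ofReal_add (by positivity) (by positivity)]
    apply ENNReal.ofReal_le_ofReal
    linarith

end Vale.Agent.P112
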