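import Vale.Agent.P112.X1
import Vale.Agent.P112.AFin

namespace Vale.Agent.P112

open MeasureTheory Set Filter Topology
open scoped ENNReal

/-- some truncated integral or average is large -/
def Big (f : E2 → ℂ) (lam : ℝ) (x u : E2) : Prop :=
  ∃ b ∈ Ioc (0 : ℝ) 1, lam < ‖∫ t in (0 : ℝ)..b, kk f x u t‖ ∨
    lam * b < ∫ t in (0 : ℝ)..b, ‖f (x - t • u)‖ ∨ lam * b < ∫ t in (0 : ℝ)..b, ‖f (x + t • u)‖

theorem x_real {g : ℝ → ℂ} (hg : Continuous g) {b : ℝ} (hb : 0 ≤ b) :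
    ENNReal.ofReal (∫ t in (0 : ℝ)..b, ‖g t‖) = ∫⁻ t in Ioo 0 b, ‖g t‖ₑ := by
  rw [intervalIntegral.integral_of_le hb, integral_Ioc_eq_integral_Ioo]
  exact ofReal_integral_norm_eq_lintegral_enorm
    ((intervalIntegrable_iff_integrableOn_Ioo_of_le hb).1 (hg.intervalIntegrable 0 b))

theorem x_side {g : ℝ → ℂ} (hg : Continuous g) {m c : ℝ} (hm : 0 ≤ m) (hc : 0 < c)
    (near : ∀ b, 0 < b → b ≤ c → ∫⁻ t in Ioo 0 b, ‖g t‖ₑ ≤ ENNReal.ofReal (6 * m * b))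
    (far : ∫⁻ t in Ioo c 1, ‖g t‖ₑ * ENNReal.ofReal t⁻¹ ≤ ENNReal.ofReal (14 * m))
    {b : ℝ} (hb : 0 < b) (hb1 : b ≤ 1) : ∫ t in (0 : ℝ)..b, ‖g t‖ ≤ 72 * m * b := by
  have hmb := mul_nonneg hm hb.le
  rcases le_total b c with h | h
  · have h1 := near b hb h
    rw [← x_real hg hb.le, ENNReal.ofReal_le_ofReal_iff (by positivity)] at h1
    linarith
  · have h1 := near c hc le_rfl
    rw [← x_real hg hc.le, ENNReal.ofReal_le_ofReal_iff (by positivity)] at h1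
    have h2 : ‖∫ t in c..b, ((‖g t‖ : ℝ) : ℂ)‖ ≤ b * (14 * m) := by
      refine rd_norm_le h (by positivity) ?_
      rw [ENNReal.ofReal_mul hb.le]
      refine le_trans ?_ (mul_le_mul_right far _)
      rw [← lintegral_const_mul' _ _ ENNReal.ofReal_ne_top]
      refine le_trans (setLIntegral_mono' measurableSet_Ioo fun t ht => ?_)
        (lintegral_mono_set (Ioo_subset_Ioo le_rfl hb1))
      have ht0 : 0 < t := hc.trans ht.1
      rw [← ofReal_norm, ← ofReal_norm, ← ENNReal.ofReal_mul (norm_nonneg _),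
        ← ENNReal.ofReal_mul hb.le]
      apply ENNReal.ofReal_le_ofReal
      rw [Complex.norm_real, norm_norm, ← div_eq_mul_inv, ← mul_div_assoc, le_div_iff₀ ht0]
      nlinarith [norm_nonneg (g t), ht.2]
    rw [intervalIntegral.integral_ofReal, Complex.norm_real] at h2
    rw [← intervalIntegral.integral_add_adjacent_intervals (hg.norm.intervalIntegrable 0 c)
      (hg.norm.intervalIntegrable c b)]
    have h3 := mul_le_mul_of_nonneg_left h hm
    linarith [le_abs_self (∫ t in c..b, ‖g t‖), Real.norm_eq_abs (∫ t in c..b, ‖g t‖)]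

theorem x_point {F : ℝ → ℂ} (hF : Continuous F)
    (hi : Integrable F volume) {f : E2 → ℂ} {L : NNReal} (hL : LipschitzWith L f)
    (hf : ∀ y, f y = F (‖y‖ ^ 2)) {v : E2 → E2} {x : E2} (hx : x ≠ 0) (hu : ‖v x‖ = 1) {m : ℝ}
    (hm : 0 ≤ m) (hs0 : 0 ≤ inner ℝ x (v x))
    (hH : ∀ R, 0 < R → ‖HR F (‖x‖ ^ 2) R‖ ≤ m)
    (hG : Good (fun y => ‖F y‖ₑ) (‖x‖ ^ 2) (ENNReal.ofReal m))
    (hD : inner ℝ x (v x) ≤ ‖x‖ / 2 → inner ℝ x (v x) ≤ 1 / 4 →
      Good (fun y => ‖F y‖ₑ) (‖x‖ ^ 2 - inner ℝ x (v x) ^ 2) (ENNReal.ofReal m))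
    (hN1 : NN v f x ≤ ENNReal.ofReal m) (hF1 : FF v f x ≤ ENNReal.ofReal m)
    (hQ1 : QQ v f x ≤ ENNReal.ofReal m) (hN2 : NN (fun y => -v y) f x ≤ ENNReal.ofReal m)
    (hF2 : FF (fun y => -v y) f x ≤ ENNReal.ofReal m)
    (hQ2 : QQ (fun y => -v y) f x ≤ ENNReal.ofReal m) : ¬ Big f (72 * m) x (v x) := by
  have hr : 0 < ‖x‖ := norm_pos_iff.2 hx
  have hfc := hL.continuous
  have a1 := x_far hx hm hN1 hF1 hQ1
  have a2 := x_far hx hm hN2 hF2 hQ2
  simp only [smul_neg, sub_neg_eq_add] at a2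
  set c := min (‖x‖ / 4) (1 / 8) with hc
  have c0 : 0 < c := lt_min (by positivity) (by norm_num)
  have c1 : c ≤ ‖x‖ / 4 := min_le_left _ _
  have c2 : c ≤ 1 / 8 := min_le_right _ _
  set s := inner ℝ x (v x) with hsd
  set ρ := ‖x‖ ^ 2 with hρ
  have hA : ∀ t, f (x - t • v x) = F (ρ - (2 * t * s - t ^ 2)) := fun t => by
    rw [hf, rd_sq_sub x _ hu]
  have hB : ∀ t, f (x + t • v x) = F (ρ + (2 * t * s + t ^ 2)) := fun t => by
    rw [hf, rd_sq_add x _ hu]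
  have hk : kk f x (v x) = k1 F ρ s := by
    funext t; unfold kk k1; rw [hA, hB]
  have hint := kk_int hL x _ hu
  have near : ∀ b, 0 < b → b ≤ c → ‖∫ t in (0 : ℝ)..b, kk f x (v x) t‖ ≤ 44 * m := by
    intro b hb hbc
    rcases hs0.eq_or_lt with h0 | hs
    · have : kk f x (v x) = fun _ => 0 := by
        rw [hk]; funext t; unfold k1; rw [← h0]; simp
      rw [this]; simp only [intervalIntegral.integral_zero, norm_zero]; positivity
    have hcont : Continuous fun ε : ℝ => ∫ t in ε..b, kk f x (v x) t := by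
      have h3 : (fun ε : ℝ => ∫ t in ε..b, kk f x (v x) t) =
          fun ε : ℝ => -∫ t in b..ε, kk f x (v x) t := by
        funext ε; exact intervalIntegral.integral_symm _ _
      rw [h3]; exact (intervalIntegral.continuous_primitive hint b).neg
    refine le_of_tendsto ((hcont.norm.tendsto 0).mono_left (nhdsWithin_le_nhds (s := Ioi 0))) ?_
    filter_upwards [Ioo_mem_nhdsGT hb, Ioo_mem_nhdsGT (half_pos hs)] with η hη hη'
    rw [hk]
    exact ad_near a_k1 a_k2 hF hi hm hH hG (fun h => hD (by linarith) (by linarith)) hη.1 hη.2.le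
      hη'.2.le
  rintro ⟨b, ⟨hb, hb1⟩, h | h | h⟩
  · refine absurd h (not_lt.2 ?_)
    rcases le_total b c with h1 | h1
    · linarith [near b hb h1]
    · rw [← intervalIntegral.integral_add_adjacent_intervals (hint 0 c) (hint c b)]
      have h2 := ad_two (g1 := fun t => f (x - t • v x)) (g2 := fun t => f (x + t • v x))
        (by fun_prop) c0 h1 (by positivity : 0 ≤ 14 * m)
        ((lintegral_mono_set (Ioo_subset_Ioo le_rfl hb1)).trans a1)
        ((lintegral_mono_set (Ioo_subset_Ioo le_rfl hb1)).trans a2)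
      refine (norm_add_le _ _).trans ?_
      have h3 : ‖∫ t in c..b, kk f x (v x) t‖ ≤ 2 * (14 * m) := h2
      linarith [near c c0 le_rfl]
  · refine absurd h (not_lt.2 (x_side (g := fun t => f (x - t • v x)) (by fun_prop) hm c0
      (fun b' h1 h2 => ?_) a1 hb hb1))
    simp only [hA]
    exact x_A a_k2 hF.measurable.enorm hm hG (fun h => hD (by linarith) (by linarith)) hs0 h1
  · refine absurd h (not_lt.2 (x_side (g := fun t => f (x + t • v x)) (by fun_prop) hm c0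
      (fun b' h1 _ => ?_) a2 hb hb1))
    simp only [hB]
    exact x_B a_k2 hF.measurable.enorm hm hG hs0 h1

theorem x_half : ∃ C : ℝ≥0∞, C ≠ ∞ ∧ ∀ (v : E2 → E2) (f : SchwartzMap E2 ℂ) (m : ℝ), UnitLip v →
    Differentiable ℝ v → (∀ x y : E2, ‖x‖ = ‖y‖ → f x = f y) → 0 < m →
    ENNReal.ofReal m ^ 2 * volume {x | 0 ≤ inner ℝ x (v x) ∧ Big f (72 * m) x (v x)} ≤
      C * ∫⁻ x, ‖f x‖ₑ ^ 2 := by
  obtain ⟨C1, hC1, h1⟩ := c_star a_weak a_sq a_k3 b_cauchy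
  obtain ⟨C2, hC2, h2⟩ := n_weak
  obtain ⟨C4, hC4, h4⟩ := f_weak
  have hK := KK_lt.ne
  refine ⟨4 * (C1 * 2) + 4 * 80 + 8 * 80 + (C2 + C4 + KK ^ 2) + (C2 + C4 + KK ^ 2),
    by finiteness, ?_⟩
  intro v f m hv hd hf hm
  obtain ⟨F, hF, hi, hfF, hJ⟩ := rm_profile f hf
  obtain ⟨L, hL⟩ := schw_lip f
  have hv' : UnitLip fun y => -v y := ⟨fun x => by rw [norm_neg, hv.1 x], hv.2.neg⟩
  set J := ∫⁻ x, ‖f x‖ₑ ^ 2 with hJd
  set W := {ρ : ℝ | ∃ R : ℝ, 0 < R ∧ m < ‖HR F ρ R‖} with hW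
  set B := {ρ : ℝ | ¬ Good (fun y => ‖F y‖ₑ) ρ (ENNReal.ofReal m)} with hB
  set M := ENNReal.ofReal m with hM
  have bW : M ^ 2 * volume W ≤ C1 * 2 * J := by
    rw [mul_assoc]
    exact (h1 F m hF.measurable hi hm).trans (mul_le_mul_right hJ _)
  have bB : M ^ 2 * volume B ≤ 80 * J := by
    have e : M = 2 * ENNReal.ofReal (m / 2) := by
      rw [← ENNReal.ofReal_ofNat 2, ← ENNReal.ofReal_mul (by norm_num), hM]; congr 1; ring
    have h3 := a_weak (fun y => ‖F y‖ₑ ^ 2) (ENNReal.ofReal (m / 2) ^ 2)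
    have h4 : B ⊆ {ρ : ℝ | ¬ Good (fun y => ‖F y‖ₑ ^ 2) ρ (ENNReal.ofReal (m / 2) ^ 2)} := by
      intro ρ hρ hg
      have h5 := a_sq _ ρ _ hF.measurable.enorm hg
      rw [← e] at h5
      exact hρ h5
    calc M ^ 2 * volume B = 4 * (ENNReal.ofReal (m / 2) ^ 2 * volume B) := by rw [e]; ring
      _ ≤ 4 * (10 * (2 * J)) := mul_le_mul_right
          (((mul_le_mul_right (measure_mono h4) _).trans h3).trans (mul_le_mul_right hJ _)) _
      _ = 80 * J := by ring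
  let U : (E2 → E2) → Set E2 := fun w =>
    {x | M ≤ NN w f x} ∪ {x | M ≤ FF w f x} ∪ {x | M ≤ QQ w f x}
  have u1 := measure_union_le (μ := (volume : Measure E2))
  have bU : ∀ w, UnitLip w → Differentiable ℝ w →
      M ^ 2 * volume (U w) ≤ (C2 + C4 + KK ^ 2) * J := by
    intro w hw hwd
    refine (mul_le_mul_right ((u1 _ _).trans (add_le_add_left (u1 _ _) _)) _).trans ?_
    simp only [mul_add (M ^ 2), add_mul]
    exact add_le_add (add_le_add (h2 w f M hw hwd f.continuous) (h4 w f M hw hwd f.continuous))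
      (QQ_weak hw hwd f.continuous M)
  have hsub : {x | 0 ≤ inner ℝ x (v x) ∧ Big f (72 * m) x (v x)} ≤ᵐ[volume]
      ({x : E2 | ‖x‖ ^ 2 ∈ W} ∪ {x : E2 | ‖x‖ ^ 2 ∈ B} ∪
      {x : E2 | 0 ≤ inner ℝ x (v x) ∧ inner ℝ x (v x) ≤ ‖x‖ / 2 ∧ inner ℝ x (v x) ≤ 1 / 4 ∧
        ‖x‖ ^ 2 - inner ℝ x (v x) ^ 2 ∈ B} ∪ U v ∪ U fun y => -v y : Set E2) := by
    filter_upwards [compl_mem_ae_iff.2 (measure_singleton (μ := volume) (0 : E2))] with x hx0 hx
    by_contra hc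
    have hc' : x ∉ ({x : E2 | ‖x‖ ^ 2 ∈ W} ∪ {x : E2 | ‖x‖ ^ 2 ∈ B} ∪
      {x : E2 | 0 ≤ inner ℝ x (v x) ∧ inner ℝ x (v x) ≤ ‖x‖ / 2 ∧ inner ℝ x (v x) ≤ 1 / 4 ∧
        ‖x‖ ^ 2 - inner ℝ x (v x) ^ 2 ∈ B} ∪ U v ∪ U fun y => -v y : Set E2) := hc
    simp only [U, mem_union, mem_ofPred_eq, not_or, hW, hB, not_exists, not_and, not_lt, not_le,
      not_not] at hc'
    obtain ⟨⟨⟨⟨c1, c2⟩, c3⟩, ⟨c4, c5⟩, c6⟩, ⟨c7, c8⟩, c9⟩ := hc'
    exact x_point hF hi hL hfF hx0 (hv.1 x) hm.le hx.1 c1 c2 (c3 hx.1) c4.le c5.le c6.le c7.le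
      c8.le c9.le hx.2
  refine (mul_le_mul_right (measure_mono_ae hsub) _).trans ?_
  refine (mul_le_mul_right ((u1 _ _).trans (add_le_add_left ((u1 _ _).trans (add_le_add_left
    ((u1 _ _).trans (add_le_add_left (u1 _ _) _)) _)) _)) _).trans ?_
  rw [mul_add, mul_add, mul_add, mul_add, add_mul, add_mul, add_mul, add_mul]
  refine add_le_add (add_le_add (add_le_add (add_le_add ?_ ?_) ?_) (bU v hv hd)) (bU _ hv' hd.neg)
  · refine (mul_le_mul_right (rm_pull_sq W) _).trans ?_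
    rw [mul_left_comm, mul_assoc 4]
    exact mul_le_mul_right bW _
  · refine (mul_le_mul_right (rm_pull_sq B) _).trans ?_
    rw [mul_left_comm, mul_assoc 4]
    exact mul_le_mul_right bB _
  · refine (mul_le_mul_right (rm_pull_D hv B) _).trans ?_
    rw [mul_left_comm, mul_assoc 8]
    exact mul_le_mul_right bB _

end Vale.Agent.P112
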