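import Vale.Agent.P112.RDefs2

/-! Maximal operators along a vector field. -/

namespace Vale.Agent.P112

open MeasureTheory

/-- The maximal average along the field: the supremum over `0 < s < a` of the averages of the
norm of `f` over the segments of half length `s`. -/
noncomputable def Mx (v : E2 → E2) (a : ℝ) (f : E2 → ℂ) (x : E2) : ENNReal :=
  ⨆ s ∈ Set.Ioo (0 : ℝ) a, ENNReal.ofReal (1 / (2 * s)) * ∫⁻ t in Set.Ioo (-s) s, ‖f (x - t • v x)‖ₑ

/-- The maximally truncated Hilbert transform along the field. -/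
noncomputable def Hx (v : E2 → E2) (a : ℝ) (f : E2 → ℂ) (x : E2) : ENNReal :=
  ⨆ b ∈ Set.Ioc (0 : ℝ) a, ⨆ ε ∈ Set.Ioo (0 : ℝ) b, ‖Htr v b ε f x‖ₑ

/-- The weak (2,2) bound with constant `C` on radial Schwartz inputs for an operator `T`. -/
def RadWeak (T : (E2 → ℂ) → E2 → ENNReal) (C : ℝ) : Prop :=
  ∀ (f : SchwartzMap E2 ℂ), Radial f → ∀ lam : ℝ, 0 < lam →
    volume {x : E2 | ENNReal.ofReal lam < T f x} ≤
      ENNReal.ofReal (C * (lam ^ 2)⁻¹ * ∫ x, ‖f x‖ ^ 2)

end Vale.Agent.P112
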