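import Vale.Agent.P112.X2
import Vale.Agent.P112.XDefs

namespace Vale.Agent.P112

open MeasureTheory Set Filter Topology
open scoped ENNReal

theorem big_neg {f : E2 → ℂ} {lam : ℝ} {x u : E2} (h : Big f lam x u) : Big f lam x (-u) := by
  obtain ⟨b, hb, h⟩ := h
  refine ⟨b, hb, ?_⟩
  simp only [rf_neg, smul_neg, sub_neg_eq_add, ← sub_eq_add_neg]
  tauto

theorem big_lsc (f : SchwartzMap E2 ℂ) {lam : ℝ} {x u : E2} {w : ℕ → E2} (hw : ∀ n, ‖w n‖ = 1)
    (hl : Tendsto w atTop (𝓝 u)) (h : Big f lam x u) : ∀ᶠ n in atTop, Big f lam x (w n) := by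
  have hfc := f.continuous
  obtain ⟨b, hb, h | h | h⟩ := h
  · filter_upwards [(kk_cont f b x u w hw hl).norm.eventually (lt_mem_nhds h)] with n hn
    exact ⟨b, hb, Or.inl hn⟩
  · have hc : Continuous fun u : E2 => ∫ t in (0 : ℝ)..b, ‖f (x - t • u)‖ :=
      intervalIntegral.continuous_parametric_intervalIntegral_of_continuous'
        (f := fun (u : E2) (t : ℝ) => ‖f (x - t • u)‖) (by unfold Function.uncurry; fun_prop) 0 b
    filter_upwards [((hc.tendsto u).comp hl).eventually (lt_mem_nhds h)] with n hn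
    exact ⟨b, hb, Or.inr (Or.inl hn)⟩
  · have hc : Continuous fun u : E2 => ∫ t in (0 : ℝ)..b, ‖f (x + t • u)‖ :=
      intervalIntegral.continuous_parametric_intervalIntegral_of_continuous'
        (f := fun (u : E2) (t : ℝ) => ‖f (x + t • u)‖) (by unfold Function.uncurry; fun_prop) 0 b
    filter_upwards [((hc.tendsto u).comp hl).eventually (lt_mem_nhds h)] with n hn
    exact ⟨b, hb, Or.inr (Or.inr hn)⟩

theorem x_smooth {v : E2 → E2} (hv : UnitLip v) (f : SchwartzMap E2 ℂ) (lam : ℝ) {b : ℝ≥0∞}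
    (h : ∀ w : E2 → E2, UnitLip w → Differentiable ℝ w → volume {x | Big f lam x (w x)} ≤ b) :
    volume {x | Big f lam x (v x)} ≤ b := by
  have hr : ∀ n : ℕ, (0 : ℝ) < 1 / ((n : ℝ) + 1) / 2 := fun n => by positivity
  have hr2 : ∀ n : ℕ, (1 : ℝ) / ((n : ℝ) + 1) / 2 ≤ 1 / 2 := fun n => by
    have : (1 : ℝ) / ((n : ℝ) + 1) ≤ 1 := by
      rw [div_le_one (by positivity)]; linarith [Nat.cast_nonneg (α := ℝ) n]
    linarith
  choose w hw1 hw2 hw3 using fun n : ℕ => exists_smooth hv (hr n) (hr2 n)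
  have hlim : ∀ x, Tendsto (fun n => w n x) atTop (𝓝 (v x)) := by
    intro x
    rw [tendsto_iff_norm_sub_tendsto_zero]
    refine squeeze_zero (fun n => norm_nonneg _) (fun n => hw3 n x) ?_
    have h1 := ((tendsto_one_div_add_atTop_nhds_zero_nat (𝕜 := ℝ)).div_const 2).const_mul 2
    have h2 := h1.mul_const (1 + ‖x‖)
    simpa using h2
  let A : ℕ → Set E2 := fun N => ⋂ n ≥ N, {x | Big f lam x (w n x)}
  have hmono : Monotone A := by
    intro N M hNM x hx
    simp only [A, mem_iInter] at hx ⊢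
    exact fun n hn => hx n (hNM.trans hn)
  have hsub : {x | Big f lam x (v x)} ⊆ ⋃ N, A N := by
    intro x hx
    obtain ⟨N, hN⟩ := eventually_atTop.1 (big_lsc f (fun n => (hw1 n).1 x) (hlim x) hx)
    refine mem_iUnion.2 ⟨N, ?_⟩
    simp only [A, mem_iInter]
    exact fun n hn => hN n hn
  refine (measure_mono hsub).trans ?_
  rw [hmono.measure_iUnion]
  refine iSup_le fun N => ?_
  refine (measure_mono ?_).trans (h (w N) (hw1 N) ((hw2 N 1).differentiable (by simp)))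
  intro x hx
  simp only [A, mem_iInter] at hx
  exact hx N le_rfl

theorem x_all : ∃ C : ℝ, 0 ≤ C ∧ ∀ (v : E2 → E2) (f : SchwartzMap E2 ℂ) (lam : ℝ), UnitLip v →
    Radial f → 0 < lam → volume {x | Big f lam x (v x)} ≤
      ENNReal.ofReal (C * (lam ^ 2)⁻¹ * ∫ x, ‖f x‖ ^ 2) := by
  obtain ⟨C, hC, h⟩ := x_half
  refine ⟨2 * 72 ^ 2 * C.toReal, by positivity, fun v f lam hv ⟨c, hc⟩ hl => ?_⟩
  let g : SchwartzMap E2 ℂ := f.compSubConstCLM ℝ (-c)
  have hg : ∀ x, g x = f (x + c) := fun x => by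
    simp only [g, SchwartzMap.compSubConstCLM_apply, sub_neg_eq_add]
  have hgr : ∀ x y : E2, ‖x‖ = ‖y‖ → g x = g y := fun x y hxy => by
    rw [hg, hg]; exact hc _ _ (by simpa using hxy)
  have hv' : UnitLip fun x => v (x + c) := ⟨fun x => hv.1 _, by
    simpa [Function.comp_def] using hv.2.comp (isometry_add_right c).lipschitz⟩
  have hI : ∫ x, ‖g x‖ ^ 2 = ∫ x, ‖f x‖ ^ 2 := by
    simp only [hg]
    exact integral_add_right_eq_self (fun x => ‖f x‖ ^ 2) c
  have h1 : volume {x | Big g lam x (v (x + c))} ≤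
      ENNReal.ofReal (2 * 72 ^ 2 * C.toReal * (lam ^ 2)⁻¹ * ∫ x, ‖g x‖ ^ 2) := by
    refine x_smooth hv' g lam fun w hw hd => ?_
    have hw' : UnitLip fun y => -w y := ⟨fun x => by rw [norm_neg, hw.1 x], hw.2.neg⟩
    have hm : 0 < lam / 72 := by positivity
    have k1 := h w g _ hw hd hgr hm
    have k2 := h _ g _ hw' hd.neg hgr hm
    have e : 72 * (lam / 72) = lam := by ring
    rw [schw_sq, e] at k1 k2
    have hsub : {x | Big g lam x (w x)} ⊆ {x | 0 ≤ inner ℝ x (w x) ∧ Big g lam x (w x)} ∪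
        {x | 0 ≤ inner ℝ x (-w x) ∧ Big g lam x (-w x)} := by
      intro x hx
      rcases le_total 0 (inner ℝ x (w x)) with h0 | h0
      · exact Or.inl ⟨h0, hx⟩
      · exact Or.inr ⟨by rw [inner_neg_right]; linarith, big_neg hx⟩
    refine (measure_mono hsub).trans ((measure_union_le _ _).trans ?_)
    refine (add_le_add (rf_conv hm hC k1) (rf_conv hm hC k2)).trans ?_
    have hI0 : 0 ≤ ∫ x, ‖g x‖ ^ 2 := integral_nonneg fun x => by positivity
    rw [← ENNReal.ofReal_add (by positivity) (by positivity)]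
    apply le_of_eq
    congr 1
    field_simp
    ring
  rw [hI] at h1
  rw [← measure_preimage_add_right volume c]
  refine le_trans (measure_mono fun x hx => ?_) h1
  have hx' : Big f lam (x + c) (v (x + c)) := hx
  have e : kk f (x + c) (v (x + c)) = kk g x (v (x + c)) := by
    funext t; unfold kk; rw [hg, hg, add_sub_right_comm, add_right_comm]
  obtain ⟨b, hb, hx'⟩ := hx'
  refine ⟨b, hb, ?_⟩
  simp only [hg, ← e, ← add_sub_right_comm, add_right_comm x _ c]
  exact hx'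

theorem hx_big (f : SchwartzMap E2 ℂ) {v : E2 → E2} {x : E2} (hu : ‖v x‖ = 1) {lam : ℝ}
    (hl : 0 < lam) (h : ENNReal.ofReal lam < Hx v 1 f x) : Big f (lam / 2) x (v x) := by
  obtain ⟨L, hL⟩ := schw_lip f
  unfold Hx at h
  simp only [lt_iSup_iff] at h
  obtain ⟨b, hb, ε, hε, h⟩ := h
  rw [← ofReal_norm, ENNReal.ofReal_lt_ofReal_iff_of_nonneg hl.le,
    htr_eq f.continuous v hε.1 hε.2, ← intervalIntegral.integral_interval_sub_left
      (kk_int hL x _ hu 0 b) (kk_int hL x _ hu 0 ε)] at h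
  have h1 := h.trans_le (norm_sub_le _ _)
  by_cases h2 : lam / 2 < ‖∫ t in (0 : ℝ)..b, kk f x (v x) t‖
  · exact ⟨b, hb, Or.inl h2⟩
  · exact ⟨ε, ⟨hε.1, hε.2.le.trans hb.2⟩, Or.inl (by linarith [not_lt.1 h2])⟩

theorem mx_big (f : SchwartzMap E2 ℂ) {v : E2 → E2} {x : E2} {lam : ℝ}
    (hl : 0 < lam) (h : ENNReal.ofReal lam < Mx v 1 f x) : Big f lam x (v x) := by
  have hfc := f.continuous
  unfold Mx at h
  simp only [lt_iSup_iff] at h
  obtain ⟨s, hs, h⟩ := h
  have hs0 := hs.1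
  have h1 : ∫⁻ t in Ioo (-s) s, ‖f (x - t • v x)‖ₑ ≤
      (∫⁻ t in Ioo 0 s, ‖f (x + t • v x)‖ₑ) + ∫⁻ t in Ioo 0 s, ‖f (x - t • v x)‖ₑ := by
    refine (ad_cover _ (-s) s 0 0).trans ?_
    rw [Ioo_eq_empty (a := (0 : ℝ)) (b := min 0 s) (not_lt.2 (min_le_left _ _)),
      Measure.restrict_empty, lintegral_zero_measure, add_zero, min_eq_left hs0.le]
    refine add_le_add_left (rd_cv (T := Ioo 0 s) (φ := fun t => -t) (φ' := fun _ => -1)
      (fun t _ => hasDerivAt_neg' t) (fun a _ b _ h => neg_injective h)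
      (fun t ht => ⟨by linarith [ht.2], by linarith [ht.1]⟩) fun t _ => ?_) _
    simp [sub_eq_add_neg]
  rw [← x_real (g := fun t => f (x + t • v x)) (by fun_prop) hs0.le,
    ← x_real (g := fun t => f (x - t • v x)) (by fun_prop) hs0.le,
    ← ENNReal.ofReal_add (intervalIntegral.integral_nonneg hs0.le fun _ _ => norm_nonneg _)
      (intervalIntegral.integral_nonneg hs0.le fun _ _ => norm_nonneg _)] at h1
  have h2 := h.trans_le (mul_le_mul_right h1 _)
  rw [← ENNReal.ofReal_mul (by positivity), ENNReal.ofReal_lt_ofReal_iff_of_nonneg hl.le,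
    one_div_mul_eq_div, lt_div_iff₀ (by positivity)] at h2
  by_cases h3 : lam * s < ∫ t in (0 : ℝ)..s, ‖f (x - t • v x)‖
  · exact ⟨s, ⟨hs0, hs.2.le⟩, Or.inr (Or.inl h3)⟩
  · exact ⟨s, ⟨hs0, hs.2.le⟩, Or.inr (Or.inr (by linarith [not_lt.1 h3]))⟩

theorem max_bound : ∃ C : ℝ, ∀ v : E2 → E2, UnitLip v →
    RadWeak (Hx v 1) C ∧ RadWeak (Mx v 1) C := by
  obtain ⟨C, hC, h⟩ := x_all
  refine ⟨4 * C, fun v hv => ⟨fun f hf lam hl => ?_, fun f hf lam hl => ?_⟩⟩
  · refine (measure_mono fun x hx => hx_big f (hv.1 x) hl hx).trans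
      ((h v f _ hv hf (half_pos hl)).trans (le_of_eq ?_))
    congr 1
    field_simp
    ring
  · refine (measure_mono fun x hx => mx_big f hl hx).trans
      ((h v f _ hv hf hl).trans (ENNReal.ofReal_le_ofReal ?_))
    have hI : 0 ≤ ∫ x, ‖f x‖ ^ 2 := integral_nonneg fun x => by positivity
    gcongr
    linarith

end Vale.Agent.P112
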